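import Vale.Agent.P163.MW

open MvPolynomial Filter Topology Metric

namespace Vale.Agent.P163

variable {β : ℝ} {E : Alg →ₗ[ℝ] ℝ}

/-- only the boundary bonds survive -/
theorem as_tel (B : Finset Site) (e : Site) (c : Site → ℝ) :
    ∑ u ∈ B, (c (u - e) - c u) =
      ∑ u ∈ B, ((if u - e ∈ B then 0 else c (u - e)) - if u + e ∈ B then 0 else c u) := by
  have h1 : ∑ u ∈ B, (if u - e ∈ B then c (u - e) else 0) =
      ∑ u ∈ B, if u + e ∈ B then c u else 0 := by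
    rw [← Finset.sum_filter, ← Finset.sum_filter]
    refine Finset.sum_nbij' (fun u => u - e) (fun u => u + e) ?_ ?_ ?_ ?_ ?_
    · intro u hu
      simp only [Finset.mem_filter] at hu ⊢
      exact ⟨hu.2, by rw [sub_add_cancel]; exact hu.1⟩
    · intro u hu
      simp only [Finset.mem_filter] at hu ⊢
      exact ⟨hu.2, by rw [add_sub_cancel_right]; exact hu.1⟩
    · intro u _
      exact sub_add_cancel u e
    · intro u _
      exact add_sub_cancel_right u e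
    · intro u _
      rfl
  have h2 : ∀ u ∈ B, c (u - e) - c u =
      ((if u - e ∈ B then 0 else c (u - e)) - if u + e ∈ B then 0 else c u) +
        ((if u - e ∈ B then c (u - e) else 0) - if u + e ∈ B then c u else 0) := by
    intro u _
    split_ifs <;> ring
  rw [Finset.sum_congr rfl h2, Finset.sum_add_distrib, Finset.sum_sub_distrib (s := B)
    (f := fun u => if u - e ∈ B then c (u - e) else 0), h1, sub_self, add_zero]

theorem State.as_four (h : State β E) (x u v : Site) :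
    0 ≤ E (sp 0 v * sp 0 x * (sp 2 u * sp 2 0)) ∧
      E (sp 0 v * sp 0 x * (sp 2 u * sp 2 0)) ≤ gg E (x - v) * gg E u := by
  have h1 := h.grif [v, x] [u, 0]
  have h2 := h.neg [v, x] [u, 0]
  simp only [List.map_cons, List.map_nil, List.prod_cons, List.prod_nil, mul_one] at h1 h2
  refine ⟨h1, ?_⟩
  rwa [h.two_pt, h.two2', zero_sub, h.gg_neg] at h2

theorem as_cur (E : Alg →ₗ[ℝ] ℝ) (μ : Fin 2) (x y : Site) :
    E (cur 0 2 μ y * (sp 2 0 * sp 0 x)) =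
      E (sp 0 y * sp 0 x * (sp 2 (y + ee μ) * sp 2 0)) -
        E (sp 0 (y + ee μ) * sp 0 x * (sp 2 y * sp 2 0)) := by
  rw [← map_sub]
  refine congrArg E ?_
  simp only [cur]
  ring

theorem as_geo (r : ℕ) (hr : 1 ≤ r) (μ : Fin 2) (u : Site) (hu : u ∈ bx r) :
    u - ee μ ∈ bx (r + 1) ∧ u + ee μ ∈ bx (r + 1) ∧
      (u - ee μ ∉ bx r → u + ee μ ∈ bx r ∧ (|u.1| = (r : ℤ) ∨ |u.2| = (r : ℤ))) ∧
      (u + ee μ ∉ bx r → (|u.1| = (r : ℤ) ∨ |u.2| = (r : ℤ))) := by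
  obtain ⟨a, b⟩ := u
  simp only [mem_bx, abs_le] at hu ⊢
  have e1 : |a| = (r : ℤ) ↔ a = r ∨ a = -r := abs_eq (by positivity)
  have e2 : |b| = (r : ℤ) ↔ b = r ∨ b = -r := abs_eq (by positivity)
  rw [e1, e2]
  fin_cases μ <;> simp [ee] <;> omega

theorem State.as_dir (h : State β E) (r : ℕ) (hr : 1 ≤ r) (x : Site) (M : ℝ)
    (hM : ∀ v ∈ bx (r + 1), gg E (x - v) ≤ M) (μ : Fin 2) :
    ∑ u ∈ bx r, (E (cur 0 2 μ (u - ee μ) * (sp 2 0 * sp 0 x)) -
      E (cur 0 2 μ u * (sp 2 0 * sp 0 x))) ≤ shell E r * M := by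
  have hM0 : 0 ≤ M := (h.gg_nonneg _).trans (hM 0 (by simp [mem_bx]; positivity))
  rw [as_tel (bx r) (ee μ) fun y => E (cur 0 2 μ y * (sp 2 0 * sp 0 x)), shell,
    Finset.sum_mul, Finset.sum_filter]
  refine Finset.sum_le_sum fun u hu => ?_
  obtain ⟨g1, g2, g3, g4⟩ := as_geo r hr μ u hu
  have b1 : E (cur 0 2 μ (u - ee μ) * (sp 2 0 * sp 0 x)) ≤ gg E u * M := by
    rw [as_cur, sub_add_cancel]
    have k1 := (h.as_four x u (u - ee μ)).2
    have k2 := (h.as_four x (u - ee μ) u).1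
    have k3 := mul_le_mul_of_nonneg_right (hM _ g1) (h.gg_nonneg u)
    linarith
  have b2 : -E (cur 0 2 μ u * (sp 2 0 * sp 0 x)) ≤ gg E u * M := by
    rw [as_cur]
    have k1 := (h.as_four x u (u + ee μ)).2
    have k2 := (h.as_four x (u + ee μ) u).1
    have k3 := mul_le_mul_of_nonneg_right (hM _ g2) (h.gg_nonneg u)
    linarith
  have b3 : 0 ≤ gg E u * M := mul_nonneg (h.gg_nonneg u) hM0
  by_cases c1 : u - ee μ ∈ bx r
  · by_cases c2 : u + ee μ ∈ bx r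
    · rw [if_pos c1, if_pos c2, sub_self]
      split_ifs
      · exact b3
      · exact le_rfl
    · rw [if_pos c1, if_neg c2, if_pos (g4 c2), zero_sub]
      exact b2
  · rw [if_neg c1, if_pos (g3 c1).1, if_pos (g3 c1).2, sub_zero]
    exact b1

/-- Aizenman Simon.  The Ward identity for `sp 2 0 * sp 0 x`, summed over the box; the left side is
`gg x`.  On a bond from `u` inside to `v` outside the contribution is
`β (E (σ0 v σ0 x σ2 u σ2 0) - E (σ0 u σ0 x σ2 v σ2 0)) ≤ β gg u * gg (x - v)` by `neg`, `grif`,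
`two2'`.  For each direction every site of the shell occurs at most once. -/
theorem State.as_step (h : State β E) (hβ : 0 < β) (r : ℕ) (hr : 1 ≤ r) (x : Site)
    (hx : x ∉ bx r) (M : ℝ) (hM : ∀ v ∈ bx (r + 1), gg E (x - v) ≤ M) :
    gg E x ≤ 2 * β * shell E r * M := by
  have h0 : (0 : Site) ∈ bx r := by simp [mem_bx]
  have e1 : ∀ u ∈ bx r, E (gen 0 2 u (sp 2 0 * sp 0 x)) = if u = 0 then gg E x else 0 := by
    intro u hu
    have hux : x ≠ u := fun hc => hx (hc ▸ hu)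
    rw [Derivation.leibniz, gen_sp, gen_sp, if_neg hux]
    by_cases hu0 : u = 0
    · subst hu0
      simp [gg, mul_comm]
    · rw [if_neg (Ne.symm hu0), if_neg hu0]
      simp
  have e2 : gg E x = ∑ u ∈ bx r, E (gen 0 2 u (sp 2 0 * sp 0 x)) := by
    rw [Finset.sum_congr rfl e1, Finset.sum_ite_eq' (bx r) 0 fun _ => gg E x, if_pos h0]
  have e3 : ∀ u ∈ bx r, E (gen 0 2 u (sp 2 0 * sp 0 x)) =
      β * ((E (cur 0 2 0 (u - ee 0) * (sp 2 0 * sp 0 x)) - E (cur 0 2 0 u * (sp 2 0 * sp 0 x))) +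
        (E (cur 0 2 1 (u - ee 1) * (sp 2 0 * sp 0 x)) - E (cur 0 2 1 u * (sp 2 0 * sp 0 x)))) := by
    intro u _
    rw [h.ward, Fin.sum_univ_two, add_mul, sub_mul, sub_mul, map_add, map_sub, map_sub]
  rw [e2, Finset.sum_congr rfl e3, ← Finset.mul_sum, Finset.sum_add_distrib]
  have k0 := h.as_dir r hr x M hM 0
  have k1 := h.as_dir r hr x M hM 1
  have k2 := mul_le_mul_of_nonneg_left (add_le_add k0 k1) hβ.le
  linarith

theorem State.as_iter (h : State β E) (hβ : 0 < β) (r : ℕ) (hr : 1 ≤ r) (γ : ℝ) (hγ : 0 ≤ γ)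
    (hs : 2 * β * shell E r ≤ γ) (k : ℕ) : ∀ x : Site,
      ((k : ℤ) * (r + 1) ≤ |x.1| ∨ (k : ℤ) * (r + 1) ≤ |x.2|) → gg E x ≤ γ ^ k * gg E 0 := by
  induction k with
  | zero =>
    intro x _
    rw [pow_zero, one_mul]
    exact h.gg_le x
  | succ k ih =>
    intro x hx
    have hk : (0 : ℤ) ≤ (k : ℤ) * (r + 1) := by positivity
    have e : ((k + 1 : ℕ) : ℤ) * (r + 1) = (k : ℤ) * (r + 1) + (r + 1) := by push_cast; ring
    rw [e] at hx
    have h1 : x ∉ bx r := by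
      rw [mem_bx]
      omega
    have h2 := h.as_step hβ r hr x h1 (γ ^ k * gg E 0) fun v hv => ih (x - v) (by
      rw [mem_bx] at hv
      have a1 := abs_sub_abs_le_abs_sub x.1 v.1
      have a2 := abs_sub_abs_le_abs_sub x.2 v.2
      simp only [Prod.fst_sub, Prod.snd_sub]
      push_cast at hv
      omega)
    have h3 : 0 ≤ γ ^ k * gg E 0 := mul_nonneg (pow_nonneg hγ k) (h.gg_nonneg 0)
    calc gg E x ≤ 2 * β * shell E r * (γ ^ k * gg E 0) := h2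
      _ ≤ γ * (γ ^ k * gg E 0) := mul_le_mul_of_nonneg_right hs h3
      _ = γ ^ (k + 1) * gg E 0 := by ring

/-- iterate: `gg x ≤ γ ^ k * gg 0` when `max |x.1| |x.2| ≥ k (r + 1)`, with any
`γ ∈ (0, 1)` above `2 β shell r`, and `sqrt (x.1^2 + x.2^2) ≤ 2 max |x.1| |x.2|` -/
theorem State.decay (h : State β E) (hβ : 0 < β) (r : ℕ) (hr : 1 ≤ r)
    (hs : 2 * β * shell E r < 1) : ∃ C m : ℝ, 0 < m ∧ ∀ x : Site,
      gg E x ≤ C * Real.exp (-m * Real.sqrt ((x.1 : ℝ) ^ 2 + (x.2 : ℝ) ^ 2)) := by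
  obtain ⟨γ, g0, g1, g2⟩ : ∃ γ : ℝ, 0 < γ ∧ γ < 1 ∧ 2 * β * shell E r ≤ γ :=
    ⟨max (2 * β * shell E r) (1 / 2), lt_max_of_lt_right (by norm_num), max_lt hs (by norm_num),
      le_max_left _ _⟩
  have hL : 0 < -Real.log γ := neg_pos.2 (Real.log_neg g0 g1)
  have hr1 : (0 : ℝ) < 2 * ((r : ℝ) + 1) := by positivity
  refine ⟨gg E 0 / γ, -Real.log γ / (2 * ((r : ℝ) + 1)), div_pos hL hr1, fun x => ?_⟩
  obtain ⟨N, hN⟩ : ∃ N : ℕ, N = max x.1.natAbs x.2.natAbs := ⟨_, rfl⟩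
  obtain ⟨k, hk⟩ : ∃ k : ℕ, k = N / (r + 1) := ⟨_, rfl⟩
  have k1 : k * (r + 1) ≤ N := hk ▸ Nat.div_mul_le_self N (r + 1)
  have k2 : N < (k + 1) * (r + 1) := by
    rw [hk]
    exact (Nat.div_lt_iff_lt_mul (Nat.succ_pos r)).1 (Nat.lt_succ_self _)
  have h1 := h.as_iter hβ r hr γ g0.le g2 k x (by
    have k3 : ((k * (r + 1) : ℕ) : ℤ) = (k : ℤ) * (r + 1) := by push_cast; ring
    rw [← k3, Int.abs_eq_natAbs, Int.abs_eq_natAbs]
    omega)
  have a1 : |(x.1 : ℝ)| ≤ N := by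
    have : |x.1| ≤ (N : ℤ) := by rw [Int.abs_eq_natAbs]; omega
    exact_mod_cast this
  have a2 : |(x.2 : ℝ)| ≤ N := by
    have : |x.2| ≤ (N : ℤ) := by rw [Int.abs_eq_natAbs]; omega
    exact_mod_cast this
  have hN0 : (0 : ℝ) ≤ N := Nat.cast_nonneg N
  have s1 : Real.sqrt ((x.1 : ℝ) ^ 2 + (x.2 : ℝ) ^ 2) ≤ 2 * N := by
    refine Real.sqrt_le_iff.2 ⟨by positivity, ?_⟩
    have b1 := sq_le_sq' (_root_.abs_le.1 a1).1 (_root_.abs_le.1 a1).2
    have b2 := sq_le_sq' (_root_.abs_le.1 a2).1 (_root_.abs_le.1 a2).2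
    nlinarith [sq_nonneg (N : ℝ)]
  have s2 : (N : ℝ) ≤ (k + 1) * (r + 1) := by exact_mod_cast k2.le
  have s3 : γ ^ (k + 1) ≤ Real.exp (-(-Real.log γ / (2 * ((r : ℝ) + 1))) *
      Real.sqrt ((x.1 : ℝ) ^ 2 + (x.2 : ℝ) ^ 2)) := by
    have e : γ ^ (k + 1) = Real.exp (((k + 1 : ℕ) : ℝ) * Real.log γ) := by
      rw [Real.exp_nat_mul, Real.exp_log g0]
    rw [e]
    refine Real.exp_le_exp.2 ?_
    have t1 : -Real.log γ / (2 * ((r : ℝ) + 1)) * Real.sqrt ((x.1 : ℝ) ^ 2 + (x.2 : ℝ) ^ 2) ≤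
        -Real.log γ / (2 * ((r : ℝ) + 1)) * (2 * ((k + 1) * (r + 1))) :=
      mul_le_mul_of_nonneg_left (by linarith) (div_pos hL hr1).le
    have t2 : -Real.log γ / (2 * ((r : ℝ) + 1)) * (2 * ((k + 1) * (r + 1))) =
        -Real.log γ * (k + 1) := by
      field_simp
    push_cast
    linarith
  calc gg E x ≤ γ ^ k * gg E 0 := h1
    _ = gg E 0 / γ * γ ^ (k + 1) := by field_simp; ring
    _ ≤ _ := mul_le_mul_of_nonneg_left s3 (div_nonneg (h.gg_nonneg 0) g0.le)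

end Vale.Agent.P163
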