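import Vale.Agent.P163.Samp
import Vale.Agent.P163.Pou

open Filter Topology Metric

namespace Vale.Agent.P163

theorem big_supp {l : ℕ} (hl : 0 < l) {φ : Pl → ℝ} (hφ : HasCompactSupport φ) {r : ℝ}
    (hr : ∀ z, φ z ≠ 0 → z ∈ closedBall (0 : Pl) r) (μ : Fin 2) (x : Site)
    (hx : grad μ (smp l φ) x ≠ 0) : pt l x ∈ closedBall (0 : Pl) (r + 1) := by
  rw [grad_apply, smp_apply hl hφ, smp_apply hl hφ, samp_pt_add] at hx
  by_cases k : φ (pt l x) = 0
  · rw [k, sub_zero] at hx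
    exact samp_near hl (samp_v_norm μ) (hr _ hx)
  · exact closedBall_subset_closedBall (by linarith) (hr _ k)

theorem big_disj (f g : Site →₀ ℝ) (h : ∀ x, f x ≠ 0 → g x = 0) :
    nsq (f + g) = nsq f + nsq g := by
  rw [nsq_eq_sum _ _ Finsupp.support_add, nsq_eq_sum f _ Finset.subset_union_left,
    nsq_eq_sum g _ Finset.subset_union_right, ← Finset.sum_add_distrib]
  refine Finset.sum_congr rfl fun x _ => ?_
  by_cases k : f x = 0
  · simp [k]
  · simp [h x k]

theorem big_sum (R : ℝ) : ∃ c : ℝ, 0 ≤ c ∧ ∀ M : ℕ, ∃ (Φ : Pl → ℝ) (ρ : ℝ), 0 ≤ ρ ∧ Sm Φ ∧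
    (∀ p ∈ closedBall (0 : Pl) R, Φ p = M) ∧ (∀ z, Φ z ≠ 0 → z ∈ closedBall (0 : Pl) ρ) ∧
    ∀ l, 0 < l → ∀ μ, nsq (grad μ (smp l Φ)) ≤ M * c := by
  obtain ⟨C, C0, hC⟩ := cutoff
  refine ⟨(8 * C) ^ 2, sq_nonneg _, fun M => ?_⟩
  induction M with
  | zero =>
    refine ⟨fun _ => 0, 0, le_rfl, ⟨contDiff_const, HasCompactSupport.zero⟩, fun _ _ => by simp,
      fun _ h => absurd rfl h, fun l hl μ => ?_⟩
    have e : grad μ (smp l fun _ => 0) = 0 := Finsupp.ext fun x => by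
      simp [grad_apply, smp_apply (φ := fun _ => 0) hl HasCompactSupport.zero]
    simp [e, nsq]
  | succ M ih =>
    obtain ⟨Φ, ρ, ρ0, h1, h2, h3, h4⟩ := ih
    obtain ⟨r, hr⟩ : ∃ r, r = |R| + ρ + 2 := ⟨_, rfl⟩
    have hR := le_abs_self R
    have hR0 := abs_nonneg R
    have r0 : 0 < r := by linarith
    obtain ⟨χ, k1, k2, k3, -, k4⟩ := hC 0 r r0
    have k5 : ∀ z, χ z ≠ 0 → z ∈ closedBall (0 : Pl) (3 * r) := fun z hz =>
      k3 (subset_tsupport _ hz)
    refine ⟨fun p => Φ p + χ p, 3 * r, by positivity, ⟨h1.1.add k1.1, h1.2.add k1.2⟩,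
      fun p hp => ?_, fun z hz => ?_, fun l hl μ => ?_⟩
    · simp only [h2 p hp, k2 p (closedBall_subset_closedBall (by linarith) hp), Nat.cast_succ]
    · by_cases k : Φ z = 0
      · exact k5 z (by simpa only [k, zero_add] using hz)
      · exact closedBall_subset_closedBall (by linarith) (h3 z k)
    have e : grad μ (smp l Φ + smp l χ) = grad μ (smp l Φ) + grad μ (smp l χ) :=
      Finsupp.ext fun x => by simp only [grad_apply, Finsupp.add_apply]; ring
    have hh := (samp_h_norm l (samp_v_norm μ)).trans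
      (inv_le_one_of_one_le₀ (by exact_mod_cast hl))
    rw [smp_add l h1.2 k1.2, e, big_disj _ _ fun x hx => ?_, Nat.cast_succ, add_mul, one_mul]
    · refine add_le_add (h4 l hl μ) ((samp_nsq hl _ 0 (r := 3 * r + 1) (a := C / r * (l : ℝ)⁻¹)
        (by positivity) (big_supp hl k1.2 k5 μ) fun x => ?_).trans
          ((samp_cnt hl (by positivity) _).trans (pow_le_pow_left₀ (by positivity) ?_ 2)))
      · rw [grad_apply, smp_apply hl k1.2, smp_apply hl k1.2, samp_pt_add]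
        refine (convex_univ.norm_image_sub_le_of_norm_fderiv_le
          (fun z _ => k1.1.differentiable (by simp) z) (fun z _ => k4 z) (Set.mem_univ _)
          (Set.mem_univ _)).trans ?_
        rw [add_sub_cancel_left]
        exact mul_le_mul_of_nonneg_left (samp_h_norm l (samp_v_norm μ)) (by positivity)
      · rw [← mul_div_assoc, div_le_iff₀ r0]
        nlinarith [mul_le_mul_of_nonneg_left (show 2 ≤ r by linarith) C0]
    · have h5 := mem_closedBall_zero_iff.1 (big_supp hl h1.2 h3 μ x hx)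
      have h6 := norm_add_le (pt l x) ((l : ℝ)⁻¹ • samp_v μ)
      rw [grad_apply, smp_apply hl k1.2, smp_apply hl k1.2, samp_pt_add,
        k2 _ (mem_closedBall_zero_iff.2 (by linarith)),
        k2 _ (mem_closedBall_zero_iff.2 (by linarith)), sub_self]

/-- Logarithmic cutoff.  For instance `Φ p = χ (log (1 + p.1^2 + p.2^2) / L)` with a fixed smooth
`χ` equal to one on ` (-∞, 1]` and zero on `[2, ∞)`: its gradient is at most
`c / (L * sqrt (1 + |p|^2))`, it vanishes for `|p| ≥ exp L`, and the lattice sum over sup norm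
shells is at most `c' / L^2 * (1 + ∑ r ≤ 2 l exp L, r / (l^2 + r^2)) ≤ c'' / L`.  Alternatively
average `M` rescaled copies of one bump whose gradients have disjoint supports. -/
theorem big (R ε : ℝ) (hε : 0 < ε) : ∃ Φ : Pl → ℝ, Sm Φ ∧ (∀ p ∈ closedBall (0 : Pl) R, Φ p = 1) ∧
    ∀ᶠ l in atTop, h1f (smp l Φ) ≤ ε := by
  obtain ⟨c, c0, hc⟩ := big_sum R
  obtain ⟨M, hM⟩ := exists_nat_gt (2 * c / ε)
  have M0 : (0 : ℝ) < M := lt_of_le_of_lt (by positivity) hM
  obtain ⟨Φ, ρ, -, h1, h2, -, h3⟩ := hc M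
  refine ⟨fun p => (M : ℝ)⁻¹ * Φ p, ⟨contDiff_const.mul h1.1, h1.2.mul_left (f := fun _ => _)⟩,
    fun p hp => by simp only [h2 p hp, inv_mul_cancel₀ M0.ne'], ?_⟩
  filter_upwards [eventually_gt_atTop 0] with l hl
  have e : ∀ μ, nsq (grad μ ((M : ℝ)⁻¹ • smp l Φ)) ≤ c / M := fun μ => by
    have e1 : grad μ ((M : ℝ)⁻¹ • smp l Φ) = (M : ℝ)⁻¹ • grad μ (smp l Φ) :=
      Finsupp.ext fun x => by simp only [grad_apply, Finsupp.smul_apply, smul_sub]
    rw [e1, nsq_smul]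
    refine (mul_le_mul_of_nonneg_left (h3 l hl μ) (sq_nonneg _)).trans (le_of_eq ?_)
    field_simp
  rw [smp_smul l _ h1.2, h1f, Fin.sum_univ_two]
  refine (add_le_add (e 0) (e 1)).trans ?_
  rw [div_lt_iff₀ hε] at hM
  rw [← add_div, div_le_iff₀ M0]
  linarith

end Vale.Agent.P163
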