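import Vale.Agent.P163.RP

open MvPolynomial Filter Topology Metric

namespace Vale.Agent.P163

variable {β : ℝ} {E : Alg →ₗ[ℝ] ℝ}

/-- translated block spin -/
noncomputable def blockB (l : ℕ) (s : Site) : Alg := sf 0 (sh s (ind (bx l)))

theorem block_sh_ind (l : ℕ) (s x : Site) :
    sh s (ind (bx l)) x = if x - s ∈ bx l then 1 else 0 := by
  rw [sh_apply, ind_apply]

theorem block_B_eq (l : ℕ) (s : Site) : blockB l s = ∑ x ∈ bx l, sp 0 (x + s) := by
  unfold blockB sf
  rw [← tr_lc (sp 0) (fun s x => tr_sp s 0 x), lc_eq_sum (sp 0) _ (bx l), map_sum]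
  · refine Finset.sum_congr rfl fun x hx => ?_
    rw [ind_apply, if_pos hx, one_smul, tr_sp]
  · intro x hx
    by_contra hc
    exact (Finsupp.mem_support_iff.1 hx) (by rw [ind_apply, if_neg hc])

theorem block_B_zero (l : ℕ) : blockB l 0 = sf 0 (ind (bx l)) := by
  unfold blockB
  congr 1
  ext x
  rw [sh_apply, sub_zero]

theorem block_tr (l : ℕ) (s u : Site) : tr u (blockB l s) = blockB l (s + u) := by
  simp only [block_B_eq, map_sum, tr_sp, add_assoc]

theorem block_flc (l : ℕ) (s : Site) : act (flc 0) (blockB l s) = blockB l (-s.1, s.2) := by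
  simp only [block_B_eq, map_sum, act_sp]
  refine Finset.sum_nbij' fl fl ?_ ?_ ?_ ?_ ?_
  · intro x hx
    simpa [mem_bx, fl] using hx
  · intro x hx
    simpa [mem_bx, fl] using hx
  · intro x _
    simp [fl]
  · intro x _
    simp [fl]
  · intro x _
    congr 1
    refine Prod.ext ?_ rfl
    simp only [flc, fl, Prod.fst_add]
    ring

theorem block_sw (l : ℕ) (s : Site) : act sw (blockB l s) = blockB l (s.2, s.1) := by
  simp only [block_B_eq, map_sum, act_sp]
  refine Finset.sum_nbij' sw sw ?_ ?_ ?_ ?_ ?_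
  · intro x hx
    rw [mem_bx] at hx ⊢
    exact hx.symm
  · intro x hx
    rw [mem_bx] at hx ⊢
    exact hx.symm
  · intro x _
    rfl
  · intro x _
    rfl
  · intro x _
    rfl

theorem block_loc (l : ℕ) {s : Site} (hs : (l : ℤ) ≤ s.1) : blockB l s ∈ loc {x | 0 ≤ x.1} := by
  rw [block_B_eq]
  refine Subalgebra.sum_mem _ fun x hx => sp_mem_loc 0 ?_
  have := (abs_le.1 ((mem_bx l x).1 hx).1).1
  show 0 ≤ x.1 + s.1
  linarith

theorem block_vv (E : Alg →ₗ[ℝ] ℝ) (l : ℕ) (d : Site) :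
    vv E (ind (bx l)) (sh d (ind (bx l))) = E (blockB l 0 * blockB l d) := by
  rw [block_B_zero]
  rfl

theorem block_two (h : State β E) (l : ℕ) (s t : Site) :
    E (blockB l s * blockB l t) = E (blockB l 0 * blockB l (t - s)) := by
  rw [← h.trans s (blockB l 0 * _), map_mul (tr s), block_tr, block_tr, zero_add, sub_add_cancel]

theorem block_refl (h : State β E) (l : ℕ) (a t t' : ℤ) :
    E (act (flc 0) (blockB l (a, t)) * blockB l (a, t')) =
      E (blockB l 0 * blockB l (2 * a, t' - t)) := by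
  have e : ((a, t') : Site) - (-a, t) = (2 * a, t' - t) := by
    refine Prod.ext ?_ rfl
    simp only [Prod.fst_sub]
    ring
  rw [block_flc, block_two h, e]

theorem block_gb (E : Alg →ₗ[ℝ] ℝ) (l m : ℕ) :
    gb E l m = E (blockB l 0 * blockB l (2 * ((m : ℤ) * l), 0)) := by
  unfold gb
  rw [block_vv, mul_assoc]

theorem block_ml {l m : ℕ} (hm : 1 ≤ m) : (l : ℤ) ≤ (m : ℤ) * l := by
  have h1 : (1 : ℤ) ≤ m := by exact_mod_cast hm
  have h2 : (0 : ℤ) ≤ l := Int.natCast_nonneg l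
  nlinarith

theorem block_le1 (h : State β E) (l m : ℕ) (hm : 1 ≤ m) (t : ℤ) :
    E (blockB l 0 * blockB l (2 * ((m : ℤ) * l), t)) ≤ gb E l m := by
  have h1 := h.flc_cs 0 (block_loc l (s := ((m : ℤ) * l, 0)) (block_ml hm))
    (block_loc l (s := ((m : ℤ) * l, t)) (block_ml hm))
  rw [block_refl h, block_refl h, block_refl h, sub_zero, sub_self, sub_self, ← block_gb,
    ← sq] at h1
  exact (le_abs_self _).trans (abs_le_of_sq_le_sq h1 (h.gb_nonneg l m))

theorem block_le2 (h : State β E) (l m : ℕ) (hm : 1 ≤ m) (a t : ℤ) (ha : |a| = m) :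
    E (blockB l 0 * blockB l (2 * l * a, t)) ≤ gb E l m := by
  rcases abs_eq (Int.natCast_nonneg m) |>.1 ha with e | e
  · rw [e, show 2 * (l : ℤ) * m = 2 * (m * l) by ring]
    exact block_le1 h l m hm t
  · rw [← h.flc_inv 0, map_mul (act _), block_flc, block_flc, e]
    have e1 : -(2 * (l : ℤ) * -m) = 2 * (m * l) := by ring
    simp only [e1]
    exact block_le1 h l m hm t

/-- `flc_mono` with `c = l`: `gb l m = E (act (flc c) P * P)` for suitable translates `P` of the
block spin -/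
theorem State.gb_anti (h : State β E) (l m m' : ℕ) (hm : 1 ≤ m) (hmm : m ≤ m') :
    gb E l m' ≤ gb E l m := by
  have h1 := h.flc_mono 0 (block_loc l (s := ((m : ℤ) * l, 0)) (block_ml hm)) ((m' - m) * l)
  have e : (((m : ℤ) * l, 0) : Site) + ((((m' - m) * l : ℕ) : ℤ), 0) = ((m' : ℤ) * l, 0) := by
    refine Prod.ext ?_ rfl
    simp only [Prod.fst_add]
    push_cast [Nat.cast_sub hmm]
    ring
  rwa [block_tr, e, block_refl h, block_refl h, sub_self, ← block_gb, ← block_gb] at h1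

/-- `flc_cs` when `|d.2| ≤ |d.1|`, and `swap` otherwise -/
theorem State.vv_le_gb (h : State β E) (l : ℕ) (d : Site) (m : ℕ) (hm : 1 ≤ m)
    (hd : max |d.1| |d.2| = m) :
    vv E (ind (bx l)) (sh ((2 * (l : ℤ)) • d) (ind (bx l))) ≤ gb E l m := by
  rw [block_vv]
  rcases le_total |d.2| |d.1| with h1 | h1
  · rw [max_eq_left h1] at hd
    exact block_le2 h l m hm d.1 _ hd
  · rw [max_eq_right h1] at hd
    rw [← h.swap, map_mul (act _), block_sw, block_sw]
    exact block_le2 h l m hm d.2 _ hd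

theorem block_div {l K : ℕ} (hl : 1 ≤ l) (hK : 1 ≤ K) {x : ℤ} (hx : |x| ≤ ((K * l : ℕ) : ℤ)) :
    ∃ p : ℤ, |p| ≤ K ∧ |x - 2 * l * p| ≤ l := by
  have h1 : (1 : ℤ) ≤ l := by exact_mod_cast hl
  have h2 : (1 : ℤ) ≤ K := by exact_mod_cast hK
  have h3 := Int.emod_add_mul_ediv (x + l) (2 * l)
  have h4 := Int.emod_nonneg (x + l) (b := 2 * l) (by omega)
  have h5 := Int.emod_lt_of_pos (x + l) (b := 2 * l) (by omega)
  push_cast at hx
  rw [abs_le] at hx
  refine ⟨(x + l) / (2 * l), ?_, ?_⟩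
  · generalize (x + l) / (2 * l) = p at h3
    generalize (x + l) % (2 * l) = r at h3 h4 h5
    rw [abs_le]
    constructor
    · by_contra hc
      have : p + 1 ≤ -K := by omega
      nlinarith [hx.1]
    · by_contra hc
      have : K + 1 ≤ p := by omega
      nlinarith [hx.2]
  · rw [abs_le]
    constructor <;> linarith

theorem block_bx_mono {a b : ℕ} (h : a ≤ b) : bx a ⊆ bx b := by
  intro x hx
  rw [mem_bx] at hx ⊢
  have : (a : ℤ) ≤ b := by exact_mod_cast h
  exact ⟨hx.1.trans this, hx.2.trans this⟩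

theorem block_shell (h : State β E) (l k : ℕ) :
    ∑ d ∈ bx (6 * k + 5), vv E (ind (bx l)) (sh ((2 * (l : ℤ)) • d) (ind (bx l))) ≤
      121 * vb E l + 528 * ∑ j ∈ Finset.Icc 1 k, (j : ℝ) * gb E l (6 * j) := by
  induction k with
  | zero =>
    refine (Finset.sum_le_card_nsmul _ _ (vb E l) fun d _ => h.vv_sh_le _ _).trans ?_
    rw [card_bx]
    simp
  | succ k ih =>
    have hsub : bx (6 * k + 5) ⊆ bx (6 * (k + 1) + 5) := block_bx_mono (by omega)
    rw [← Finset.sum_sdiff hsub, Finset.sum_Icc_succ_top (by omega)]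
    have h1 : ∑ d ∈ bx (6 * (k + 1) + 5) \ bx (6 * k + 5),
        vv E (ind (bx l)) (sh ((2 * (l : ℤ)) • d) (ind (bx l))) ≤
        (bx (6 * (k + 1) + 5) \ bx (6 * k + 5)).card • gb E l (6 * (k + 1)) := by
      refine Finset.sum_le_card_nsmul _ _ _ fun d hd => ?_
      have h2 := (Finset.mem_sdiff.1 hd).2
      rw [mem_bx] at h2
      have h3 : (0 : ℤ) ≤ max |d.1| |d.2| := le_max_of_le_left (abs_nonneg _)
      obtain ⟨m, hm⟩ := Int.eq_ofNat_of_zero_le h3
      have h4 : 6 * (k + 1) ≤ m := by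
        by_contra hc
        have h5 : max |d.1| |d.2| ≤ ((6 * k + 5 : ℕ) : ℤ) := by
          rw [hm]
          exact_mod_cast (by omega : m ≤ 6 * k + 5)
        exact h2 (max_le_iff.1 h5)
      exact (h.vv_le_gb l d m (by omega) hm).trans (h.gb_anti l _ _ (by omega) h4)
    have h2 : (bx (6 * (k + 1) + 5) \ bx (6 * k + 5)).card ≤ 528 * (k + 1) := by
      have := Finset.card_sdiff_add_card_eq_card hsub
      rw [card_bx, card_bx] at this
      nlinarith
    have h3 : ((bx (6 * (k + 1) + 5) \ bx (6 * k + 5)).card : ℝ) ≤ 528 * ((k + 1 : ℕ) : ℝ) := by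
      exact_mod_cast h2
    have h4 := mul_le_mul_of_nonneg_right h3 (h.gb_nonneg l (6 * (k + 1)))
    rw [nsmul_eq_mul] at h1
    linarith

theorem block_ind_nonneg (l : ℕ) (x : Site) : 0 ≤ ind (bx l) x := by
  rw [ind_apply]
  split_ifs <;> norm_num

theorem block_sh_nonneg (l : ℕ) (s x : Site) : 0 ≤ sh s (ind (bx l)) x := by
  rw [sh_apply]
  exact block_ind_nonneg _ _

/-- Cover `bx (K l)` by the translates of `bx l` by `2 l p`, `p ∈ bx K` (`vv_mono`); the shell of
radius `m` has `8 m` points; `gb m ≤ vb` for `m < 6` and `gb m ≤ gb (6 * (m / 6))` otherwise. -/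
theorem State.block (h : State β E) (l K : ℕ) (hl : 1 ≤ l) (hK : 1 ≤ K) :
    vb E (K * l) ≤ 9 * (K : ℝ) ^ 2 *
      (121 * vb E l + 528 * ∑ k ∈ Finset.Icc 1 K, (k : ℝ) * gb E l (6 * k)) := by
  have hcov : ∀ x, ind (bx (K * l)) x ≤
      (∑ p ∈ bx K, sh ((2 * (l : ℤ)) • p) (ind (bx l))) x := by
    intro x
    rw [Finsupp.finsetSum_apply, ind_apply]
    split_ifs with hx
    · rw [mem_bx] at hx
      obtain ⟨p, hp, hp'⟩ := block_div hl hK hx.1
      obtain ⟨q, hq, hq'⟩ := block_div hl hK hx.2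
      have h1 : ((p, q) : Site) ∈ bx K := (mem_bx _ _).2 ⟨hp, hq⟩
      refine le_trans ?_ (Finset.single_le_sum
        (f := fun p : Site => sh ((2 * (l : ℤ)) • p) (ind (bx l)) x)
        (fun p _ => block_sh_nonneg _ _ _) h1)
      rw [block_sh_ind, if_pos ((mem_bx _ _).2 ⟨hp', hq'⟩)]
    · exact Finset.sum_nonneg fun p _ => block_sh_nonneg _ _ _
  refine (h.vv_mono (block_ind_nonneg _) (block_ind_nonneg _) hcov hcov).trans ?_
  have e : vv E (∑ p ∈ bx K, sh ((2 * (l : ℤ)) • p) (ind (bx l)))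
      (∑ p ∈ bx K, sh ((2 * (l : ℤ)) • p) (ind (bx l))) =
      ∑ p ∈ bx K, ∑ q ∈ bx K,
        vv E (ind (bx l)) (sh ((2 * (l : ℤ)) • (q - p)) (ind (bx l))) := by
    unfold vv sf
    rw [map_sum, Finset.sum_mul_sum, map_sum]
    refine Finset.sum_congr rfl fun p _ => ?_
    rw [map_sum]
    refine Finset.sum_congr rfl fun q _ => ?_
    rw [smul_sub]
    exact (block_two h l _ _).trans (block_vv E l _).symm
  have h1 : ∀ p ∈ bx K, ∑ q ∈ bx K,
      vv E (ind (bx l)) (sh ((2 * (l : ℤ)) • (q - p)) (ind (bx l))) ≤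
      121 * vb E l + 528 * ∑ k ∈ Finset.Icc 1 K, (k : ℝ) * gb E l (6 * k) := by
    intro p hp
    refine le_trans ?_ (block_shell h l K)
    rw [← Finset.sum_image (s := bx K) (g := fun q => q - p)
      (f := fun d => vv E (ind (bx l)) (sh ((2 * (l : ℤ)) • d) (ind (bx l))))
      (fun a _ b _ hab => sub_left_injective hab)]
    refine Finset.sum_le_sum_of_subset_of_nonneg ?_ fun d _ _ =>
      h.vv_nonneg (block_ind_nonneg _) (block_sh_nonneg _ _)
    intro d hd
    obtain ⟨q, hq, rfl⟩ := Finset.mem_image.1 hd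
    rw [mem_bx, _root_.abs_le, _root_.abs_le] at hp hq ⊢
    simp only [Prod.fst_sub, Prod.snd_sub]
    omega
  have h2 : 0 ≤ 121 * vb E l + 528 * ∑ k ∈ Finset.Icc 1 K, (k : ℝ) * gb E l (6 * k) := by
    have h3 := h.vb_nonneg l
    have h4 := Finset.sum_nonneg (s := Finset.Icc 1 K) fun k _ =>
      mul_nonneg (Nat.cast_nonneg (α := ℝ) k) (h.gb_nonneg l (6 * k))
    linarith
  rw [e]
  refine (Finset.sum_le_card_nsmul _ _ _ h1).trans ?_
  rw [nsmul_eq_mul, card_bx]
  refine mul_le_mul_of_nonneg_right ?_ h2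
  have h3 : (1 : ℝ) ≤ K := by exact_mod_cast hK
  push_cast
  nlinarith

end Vale.Agent.P163
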