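import Vale.Agent.P163.Unif

open MeasureTheory Filter Topology

namespace Vale.Agent.P163

theorem BoxA_cont_ham (Λ : Finset Site) (K : Site → Site → ℝ) : Continuous (ham Λ K) := by
  unfold ham dot
  refine continuous_finsetSum _ fun a _ => continuous_finsetSum _ fun b _ =>
    continuous_const.mul (continuous_finsetSum _ fun k _ => ?_)
  have hc : ∀ y : Site, Continuous fun σ : Site → S4 => (σ y).1 k := fun y =>
    (continuous_apply k).comp (continuous_subtype_val.comp (continuous_apply y))
  exact (hc a).mul (hc b)

theorem BoxA_cont_frz (D : Finset Site) : Continuous (frz e0 D) := by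
  refine continuous_pi fun y => ?_
  by_cases hy : y ∈ D
  · simp only [frz, hy, if_true]
    exact continuous_apply y
  · simp only [frz, hy, if_false]
    exact continuous_const

theorem BoxA_cont_ev (P : Alg) : Continuous (ev P) := by
  unfold ev
  refine (MvPolynomial.continuous_eval P).comp (continuous_pi fun v => ?_)
  exact (continuous_apply _).comp (continuous_subtype_val.comp (continuous_apply _))

theorem BoxA_num (n : ℕ) (h1 : 1 ≤ n) (hn : n ≤ 4) (Λ D : Finset Site) (K : Site → Site → ℝ)
    {f : (Site → S4) → ℝ} (hf : Continuous f) :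
    num ((unif n).map (emb n hn)) Λ D K f =
      ∫ σ, f (frz e0 D fun x => emb n hn (σ x)) *
        Real.exp (ham Λ K (frz e0 D fun x => emb n hn (σ x)))
        ∂(Measure.infinitePi fun _ : Site => unif n) := by
  have := unif_prob n h1
  have hm : Measurable (emb n hn) := (continuous_emb n hn).measurable
  have h2 := Measure.infinitePi_map_pi (μ := fun _ : Site => unif n)
    (f := fun _ => emb n hn) fun _ => hm
  unfold num
  rw [← h2]
  refine integral_map (measurable_pi_lambda _ fun y =>
    hm.comp (measurable_pi_apply y)).aemeasurable ?_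
  exact ((hf.comp (BoxA_cont_frz D)).mul
    (Real.continuous_exp.comp ((BoxA_cont_ham Λ K).comp (BoxA_cont_frz D)))).aestronglyMeasurable

theorem BoxA_mem {a b x : Site} :
    x ∈ box a b ↔ (a.1 ≤ x.1 ∧ x.1 ≤ b.1) ∧ a.2 ≤ x.2 ∧ x.2 ≤ b.2 := by
  simp only [box, Finset.mem_product, Finset.mem_Icc]

theorem BoxA_ham (n : ℕ) (hn : n ≤ 4) (β : ℝ) (a b : Site) (per : Bool) (σ : Site → Spin n) :
    ham (box a b) (kx β a b per) (frz e0 (box a b) fun x => emb n hn (σ x)) =
      β * energy n a b per σ := by
  unfold ham energy
  rw [Finset.mul_sum]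
  refine Finset.sum_congr rfl fun x hx => ?_
  have h1 : ∀ y ∈ box a b, kx β a b per x y *
      dot (frz e0 (box a b) (fun x => emb n hn (σ x)) x)
        (frz e0 (box a b) (fun x => emb n hn (σ x)) y) =
      kx β a b per x y * inner ℝ (σ x).1 (σ y).1 := by
    intro y hy
    simp only [frz, hx, hy, if_true, dot_emb]
  have h2 : ∀ z ∈ box a b, ∑ y ∈ box a b, (if y = z then β else 0) * inner ℝ (σ x).1 (σ y).1 =
      β * inner ℝ (σ x).1 (σ z).1 := by
    intro z hz
    simp only [ite_mul, zero_mul, Finset.sum_ite_eq', hz, if_true]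
  rw [Finset.sum_congr rfl h1]
  have hx' := BoxA_mem.1 hx
  simp only [kx, add_mul, Finset.sum_add_distrib, mul_add]
  congr 1
  · by_cases h : x.1 < b.1
    · simp only [h, if_true]
      exact h2 _ (BoxA_mem.2 (by simp only; omega))
    · by_cases hp : per = true
      · simp only [h, hp, if_true, if_false]
        exact h2 _ (BoxA_mem.2 (by simp only; omega))
      · simp [h, hp]
  · by_cases h : x.2 < b.2
    · simp only [h, if_true]
      exact h2 _ (BoxA_mem.2 (by simp only; omega))
    · by_cases hp : per = true
      · simp only [h, hp, if_true, if_false]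
        exact h2 _ (BoxA_mem.2 (by simp only; omega))
      · simp [h, hp]

theorem BoxA_cont_energy (n : ℕ) (a b : Site) (per : Bool) : Continuous (energy n a b per) := by
  have hc : ∀ x y : Site, Continuous fun σ : Site → Spin n => inner ℝ (σ x).1 (σ y).1 := by
    intro x y
    have h : ∀ z : Site, Continuous fun σ : Site → Spin n => (σ z).1 := fun z =>
      continuous_subtype_val.comp (continuous_apply z)
    exact (h x).inner (h y)
  unfold energy
  refine continuous_finsetSum _ fun x _ => Continuous.add ?_ ?_
  · split_ifs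
    · exact hc _ _
    · exact hc _ _
    · exact continuous_const
  · split_ifs
    · exact hc _ _
    · exact hc _ _
    · exact continuous_const

theorem BoxA_cont_term (n : ℕ) (β : ℝ) (a b : Site) (per : Bool) (x y : Site) (i : Fin n) :
    Continuous fun σ : Site → Spin n =>
      (σ x).1 i * (σ y).1 i * Real.exp (β * energy n a b per σ) := by
  have h : ∀ z : Site, Continuous fun σ : Site → Spin n => (σ z).1 i := fun z =>
    (EuclideanSpace.proj (𝕜 := ℝ) i).continuous.comp
      (continuous_subtype_val.comp (continuous_apply z))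
  exact ((h x).mul (h y)).mul
    (Real.continuous_exp.comp (continuous_const.mul (BoxA_cont_energy n a b per)))

theorem BoxA_swap (n : ℕ) (h1 : 1 ≤ n) (β : ℝ) (a b : Site) (per : Bool) (x y : Site)
    (i j : Fin n) :
    ∫ σ, (σ x).1 i * (σ y).1 i * Real.exp (β * energy n a b per σ)
        ∂(Measure.infinitePi fun _ : Site => unif n) =
      ∫ σ, (σ x).1 j * (σ y).1 j * Real.exp (β * energy n a b per σ)
        ∂(Measure.infinitePi fun _ : Site => unif n) := by
  have := unif_prob n h1
  set A : EuclideanSpace ℝ (Fin n) ≃ₗᵢ[ℝ] EuclideanSpace ℝ (Fin n) :=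
    LinearIsometryEquiv.piLpCongrLeft 2 ℝ ℝ (Equiv.swap i j) with hA
  have hAi : ∀ u : EuclideanSpace ℝ (Fin n), A u i = u j := by
    intro u
    simp [hA]
  set T : Spin n → Spin n := fun u => ⟨A u.1, by simp⟩ with hT
  have hs : MeasurePreserving T (unif n) (unif n) := unif_inv n A
  have h2 := Measure.infinitePi_map_pi (μ := fun _ : Site => unif n)
    (f := fun _ => T) fun _ => hs.measurable
  simp only [hs.map_eq] at h2
  have h3 := integral_map (μ := Measure.infinitePi fun _ : Site => unif n)
    (φ := fun (σ : Site → Spin n) z => T (σ z)) (measurable_pi_lambda _ fun z =>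
      hs.measurable.comp (measurable_pi_apply z)).aemeasurable
    (BoxA_cont_term n β a b per x y i).aestronglyMeasurable
  rw [h2] at h3
  rw [h3]
  refine integral_congr_ae (Eventually.of_forall fun σ => ?_)
  have h4 : energy n a b per (fun z => T (σ z)) = energy n a b per σ := by
    simp only [energy, hT, LinearIsometryEquiv.inner_map_map]
  simp only [h4]
  simp only [hT, hAi]

/-- `integral_tilted`; `inner = ∑ i, σx i * σy i` and all `n` terms are equal because the
coordinate transposition ` (0 i)` applied at all sites preserves the product measure (`unif_inv`,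
`Measure.infinitePi_map_pi`) and the energy; finally `infinitePi` of the image measure is the image
of `infinitePi`, `β * energy = ham (box a b) (kx β a b per)` of the embedded configuration
(`dot_emb`), and freezing outside the box changes nothing since only spins in the box occur. -/
theorem gibbs_eq (n : ℕ) (h1 : 1 ≤ n) (hn : n ≤ 4) (β : ℝ) (a b : Site) (per : Bool) (x y : Site)
    (hx : x ∈ box a b) (hy : y ∈ box a b) :
    ∫ σ, inner ℝ (σ x).1 (σ y).1 ∂gibbs n β a b per =
      n * (num ((unif n).map (emb n hn)) (box a b) (box a b) (kx β a b per) (ev (sp 0 x * sp 0 y)) /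
        num ((unif n).map (emb n hn)) (box a b) (box a b) (kx β a b per) fun _ => 1) := by
  have := unif_prob n h1
  rw [BoxA_num n h1 hn _ _ _ (BoxA_cont_ev _), BoxA_num n h1 hn _ _ _ continuous_const]
  simp only [BoxA_ham, one_mul]
  have h2 : ∀ σ : Site → Spin n,
      ev (sp 0 x * sp 0 y) (frz e0 (box a b) fun z => emb n hn (σ z)) =
        (σ x).1 ⟨0, h1⟩ * (σ y).1 ⟨0, h1⟩ := by
    intro σ
    have h0 : (((0 : Fin 3).castSucc : Fin 4) : ℕ) < n := h1
    simp only [ev, sp, map_mul, MvPolynomial.eval_X, frz, hx, hy, if_true, emb, h0, dif_pos]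
    rfl
  simp only [h2]
  unfold gibbs
  rw [integral_tilted]
  have h3 : ∀ σ : Site → Spin n, (Real.exp (β * energy n a b per σ) /
        ∫ σ, Real.exp (β * energy n a b per σ) ∂(Measure.infinitePi fun _ : Site => unif n)) •
        (inner ℝ (σ x).1 (σ y).1 : ℝ) =
      (∑ i, (σ x).1 i * (σ y).1 i * Real.exp (β * energy n a b per σ)) /
        ∫ σ, Real.exp (β * energy n a b per σ) ∂(Measure.infinitePi fun _ : Site => unif n) := by
    intro σ
    rw [← Finset.sum_mul, smul_eq_mul, PiLp.inner_apply]
    simp only [RCLike.inner_apply, conj_trivial, mul_comm ((σ y).1 _)]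
    ring
  simp only [h3]
  rw [integral_div, integral_finsetSum _ fun i _ =>
    (BoxA_cont_term n β a b per x y i).integrable_of_hasCompactSupport
      (HasCompactSupport.of_compactSpace _),
    Finset.sum_congr rfl fun i _ => BoxA_swap n h1 β a b per x y i ⟨0, h1⟩]
  simp only [Finset.sum_const, Finset.card_univ, Fintype.card_fin, nsmul_eq_mul]
  ring

end Vale.Agent.P163
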