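import Vale.Agent.P163.Trans

open MeasureTheory Filter Topology

namespace Vale.Agent.P163

variable {om : Measure S4} {ν : Measure unitInterval} {η : Measure Circle}

theorem BoxB_nbr (z w : Site) : |z.1 - w.1| + |z.2 - w.2| = 1 ↔
    (w.1 = z.1 + 1 ∧ w.2 = z.2) ∨ (w.1 = z.1 - 1 ∧ w.2 = z.2) ∨ (w.1 = z.1 ∧ w.2 = z.2 + 1) ∨
      (w.1 = z.1 ∧ w.2 = z.2 - 1) := by
  rcases abs_cases (z.1 - w.1) with h | h <;> rcases abs_cases (z.2 - w.2) with h' | h' <;> omega

theorem BoxB_symb (β : ℝ) (D : Finset Site) {z : Site} (hz : z ∈ D) (w : Site) :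
    symK (nb D) (kb β) z w = if |z.1 - w.1| + |z.2 - w.2| = 1 then β else 0 := by
  unfold symK kb
  rw [abs_sub_comm w.1, abs_sub_comm w.2]
  by_cases h : |z.1 - w.1| + |z.2 - w.2| = 1
  · have h1 : z ∈ nb D := Finset.mem_biUnion.2 ⟨z, hz, by simp⟩
    have h2 : w ∈ nb D := by
      refine Finset.mem_biUnion.2 ⟨z, hz, ?_⟩
      have := (BoxB_nbr z w).1 h
      simp only [Finset.mem_insert, Finset.mem_singleton, Prod.ext_iff, Prod.fst_add, Prod.snd_add,
        Prod.fst_sub, Prod.snd_sub]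
      omega
    rw [if_pos ⟨h1, h2⟩, if_pos h, if_pos h, add_halves]
  · simp [h]

theorem BoxB_symx (β : ℝ) (a b : Site) (per : Bool) {z : Site}
    (hz : a.1 < z.1 ∧ z.1 < b.1 ∧ a.2 < z.2 ∧ z.2 < b.2) (w : Site) :
    symK (box a b) (kx β a b per) z w = if |z.1 - w.1| + |z.2 - w.2| = 1 then β else 0 := by
  obtain ⟨h1, h2, h3, h4⟩ := hz
  unfold symK kx box
  simp only [BoxB_nbr, Finset.mem_product, Finset.mem_Icc, Prod.ext_iff]
  split_ifs <;> first | omega | simp

theorem box_le_plus (h : Model om ν η) (β : ℝ) (hβ : 0 ≤ β) (a b : Site) (per : Bool)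
    (D : Finset Site) (hD : ∀ z ∈ D, a.1 < z.1 ∧ z.1 < b.1 ∧ a.2 < z.2 ∧ z.2 < b.2) (x y : Site) :
    num om (box a b) (box a b) (kx β a b per) (ev (sp 0 x * sp 0 y)) /
        num om (box a b) (box a b) (kx β a b per) (fun _ => 1) ≤
      plus om β D (ev (sp 0 x * sp 0 y)) := by
  have := h.pom
  have hK : ∀ z w, 0 ≤ kx β a b per z w := fun z w => by
    unfold kx
    refine add_nonneg ?_ ?_ <;> split_ifs <;> first | exact hβ | exact le_rfl
  have hs : D ⊆ box a b := fun z hz => by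
    obtain ⟨h1, h2, h3, h4⟩ := hD z hz
    simp only [box, Finset.mem_product, Finset.mem_Icc]
    omega
  have hc := cmpS h _ hK (box a b) D (box a b) hs [[(x, true)], [(y, true)]] [] 0 le_rfl zero_le_one
  have e : (fun σ => oA [[(x, true)], [(y, true)]] σ * (1 - 0 * oB [] σ)) =
      ev (sp 0 x * sp 0 y) := by
    funext σ
    simp [oA, gA, zeta, ev, sp]
  rw [e] at hc
  obtain ⟨c, c0, hc'⟩ := num_congr (om := om) (box a b) (nb D) D (kx β a b per) (kb β)
    fun z hz w => by rw [BoxB_symx β a b per (hD z hz), BoxB_symb β D hz]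
  rw [hc', hc'] at hc
  unfold plus
  rw [div_le_div_iff₀ (num_pos _ _ _) (num_pos _ _ _)]
  exact le_of_mul_le_mul_left (by linarith) c0

end Vale.Agent.P163
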