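import Vale.Agent.P163.DefsA

open MeasureTheory Filter Topology

namespace Vale.Agent.P163

theorem four_int {X : Type} [TopologicalSpace X] [CompactSpace X] [MeasurableSpace X]
    [OpensMeasurableSpace X] (μ : Measure X) [IsFiniteMeasure μ] {f : X → ℝ}
    (hf : Continuous f) : Integrable f μ :=
  hf.integrable_of_hasCompactSupport (HasCompactSupport.of_compactSpace f)

/-- gluing two independent samples along `D` gives a sample
(`measurePreserving_arrowProdEquivProdArrow`, `measurePreserving_pi`) -/
theorem integral_piecewise {V : Type} [Fintype V] [DecidableEq V] (ν : Measure unitInterval)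
    [IsProbabilityMeasure ν] (D : Finset V) (F : (V → unitInterval) → ℝ) (hF : Continuous F) :
    ∫ ρ, ∫ r, F (D.piecewise r ρ) ∂(Measure.pi fun _ => ν) ∂(Measure.pi fun _ => ν) =
      ∫ r, F r ∂(Measure.pi fun _ => ν) := by
  have m1 := (measurePreserving_arrowProdEquivProdArrow unitInterval unitInterval V (fun _ => ν)
    (fun _ => ν)).symm
  have m2 := measurePreserving_pi (fun _ : V => ν.prod ν) (fun _ => ν)
    (f := fun x p => if x ∈ D then p.2 else p.1) fun x => by
      split_ifs
      · exact measurePreserving_snd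
      · exact measurePreserving_fst
  have m3 : MeasurePreserving
      (fun p : (V → unitInterval) × (V → unitInterval) => D.piecewise p.2 p.1)
      ((Measure.pi fun _ : V => ν).prod (Measure.pi fun _ : V => ν))
      (Measure.pi fun _ : V => ν) := m2.comp m1
  rw [← integral_prod (fun p : (V → unitInterval) × (V → unitInterval) => F (D.piecewise p.2 p.1))
    (m3.integrable_comp_of_integrable (four_int _ hF))]
  conv_rhs => rw [← m3.map_eq]
  rw [integral_map m3.measurable.aemeasurable hF.aestronglyMeasurable]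

theorem four_real {x y z w : ℝ} (hx : 0 ≤ x) (hz : 0 ≤ z) (hxw : x ≤ w) (hyw : y ≤ w)
    (h : x * y ≤ z * w) : x + y ≤ z + w := by
  rcases (hx.trans hxw).eq_or_lt with h0 | h0
  · linarith
  · refine le_of_mul_le_mul_left ?_ h0
    nlinarith [mul_nonneg (sub_nonneg.2 hxw) (sub_nonneg.2 hyw)]

theorem four_one (ν : Measure unitInterval) [IsProbabilityMeasure ν]
    (f1 f2 f3 f4 : unitInterval → ℝ) (c1 : Continuous f1) (c2 : Continuous f2)
    (c3 : Continuous f3) (c4 : Continuous f4) (p1 : ∀ r, 0 ≤ f1 r) (p2 : ∀ r, 0 ≤ f2 r)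
    (p3 : ∀ r, 0 ≤ f3 r) (p4 : ∀ r, 0 ≤ f4 r)
    (h : ∀ r s, f1 r * f2 s ≤ f3 (r ⊓ s) * f4 (r ⊔ s)) :
    (∫ r, f1 r ∂ν) * (∫ r, f2 r ∂ν) ≤ (∫ r, f3 r ∂ν) * ∫ r, f4 r ∂ν := by
  have key : ∀ a b, a ≤ b → f1 a * f2 b + f2 a * f1 b ≤ f4 a * f3 b + f3 a * f4 b := by
    intro a b hab
    have h1 := h a b
    have h2 := h b a
    have h3 := h a a
    have h4 := h b b
    rw [inf_eq_left.2 hab, sup_eq_right.2 hab] at h1
    rw [inf_eq_right.2 hab, sup_eq_left.2 hab] at h2
    rw [inf_idem, sup_idem] at h3 h4
    refine four_real (mul_nonneg (p1 a) (p2 b)) (mul_nonneg (p4 a) (p3 b)) h1 (by linarith) ?_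
    have := mul_le_mul h3 h4 (mul_nonneg (p1 b) (p2 b)) (mul_nonneg (p3 a) (p4 a))
    linarith
  have ci : ∀ {f g : unitInterval → ℝ}, Continuous f → Continuous g →
      Integrable (fun p : unitInterval × unitInterval => f p.1 * g p.2) (ν.prod ν) :=
    fun hf hg => four_int _ ((hf.comp continuous_fst).mul (hg.comp continuous_snd))
  have h2 : ∫ p : unitInterval × unitInterval, (f1 p.1 * f2 p.2 + f2 p.1 * f1 p.2) ∂ν.prod ν ≤
      ∫ p : unitInterval × unitInterval, (f4 p.1 * f3 p.2 + f3 p.1 * f4 p.2) ∂ν.prod ν := by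
    refine integral_mono ((ci c1 c2).add (ci c2 c1)) ((ci c4 c3).add (ci c3 c4)) fun p => ?_
    rcases le_total p.1 p.2 with hp | hp
    · exact key _ _ hp
    · have := key _ _ hp
      simp only
      linarith
  rw [integral_add (ci c1 c2) (ci c2 c1), integral_add (ci c4 c3) (ci c3 c4), integral_prod_mul,
    integral_prod_mul, integral_prod_mul, integral_prod_mul] at h2
  linarith

/-- integration of one coordinate -/
noncomputable def four_T {V : Type} [DecidableEq V] (ν : Measure unitInterval) (x : V)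
    (f : (V → unitInterval) → ℝ) (ρ : V → unitInterval) : ℝ :=
  ∫ t, f (Function.update ρ x t) ∂ν

/-- dependence on the coordinates of `S` only -/
def four_dep {V : Type} (S : Finset V) (f : (V → unitInterval) → ℝ) : Prop :=
  ∀ r r', (∀ x ∈ S, r x = r' x) → f r = f r'

theorem four_dep_univ {V : Type} [Fintype V] (f : (V → unitInterval) → ℝ) :
    four_dep Finset.univ f := fun _ _ h => congrArg f (funext fun x => h x (Finset.mem_univ x))

theorem four_T_cont {V : Type} [Fintype V] [DecidableEq V] (ν : Measure unitInterval)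
    [IsProbabilityMeasure ν] (x : V) {f : (V → unitInterval) → ℝ} (hf : Continuous f) :
    Continuous (four_T ν x f) := by
  have h := continuous_parametric_integral_of_continuous (μ := ν)
    (f := fun (ρ : V → unitInterval) (t : unitInterval) => f (Function.update ρ x t))
    (hf.comp (continuous_fst.update x continuous_snd)) isCompact_univ
  simp only [Measure.restrict_univ] at h
  exact h

theorem four_T_dep {V : Type} [DecidableEq V] (ν : Measure unitInterval) (x : V) {S : Finset V}
    {f : (V → unitInterval) → ℝ} (hf : four_dep (insert x S) f) : four_dep S (four_T ν x f) := by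
  intro r r' h
  unfold four_T
  congr 1
  funext t
  refine hf _ _ fun y hy => ?_
  by_cases hyx : y = x
  · subst hyx
    simp
  · simp [hyx, h y ((Finset.mem_insert.1 hy).resolve_left hyx)]

theorem four_T_int {V : Type} [Fintype V] [DecidableEq V] (ν : Measure unitInterval)
    [IsProbabilityMeasure ν] (x : V) {f : (V → unitInterval) → ℝ} (hf : Continuous f) :
    ∫ r, four_T ν x f r ∂(Measure.pi fun _ => ν) = ∫ r, f r ∂(Measure.pi fun _ => ν) := by
  rw [← integral_piecewise ν {x} f hf]
  congr 1
  funext ρ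
  have m := measurePreserving_eval (fun _ : V => ν) x
  have c : Continuous fun t => f (Function.update ρ x t) :=
    hf.comp (continuous_const.update x continuous_id)
  unfold four_T
  conv_lhs => rw [← m.map_eq]
  rw [integral_map m.measurable.aemeasurable c.aestronglyMeasurable]
  simp only [Finset.piecewise_singleton]

theorem four_ind {V : Type} [Fintype V] [DecidableEq V] (ν : Measure unitInterval)
    [IsProbabilityMeasure ν] (S : Finset V) : ∀ (f1 f2 f3 f4 : (V → unitInterval) → ℝ),
    Continuous f1 → Continuous f2 → Continuous f3 → Continuous f4 → (∀ r, 0 ≤ f1 r) →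
    (∀ r, 0 ≤ f2 r) → (∀ r, 0 ≤ f3 r) → (∀ r, 0 ≤ f4 r) →
    (∀ r s, f1 r * f2 s ≤ f3 (r ⊓ s) * f4 (r ⊔ s)) → four_dep S f1 → four_dep S f2 →
    four_dep S f3 → four_dep S f4 →
    (∫ r, f1 r ∂(Measure.pi fun _ => ν)) * (∫ r, f2 r ∂(Measure.pi fun _ => ν)) ≤
      (∫ r, f3 r ∂(Measure.pi fun _ => ν)) * ∫ r, f4 r ∂(Measure.pi fun _ => ν) := by
  induction S using Finset.induction_on with
  | empty =>
    intro f1 f2 f3 f4 _ _ _ _ _ _ _ _ h d1 d2 d3 d4
    have e : ∀ {f : (V → unitInterval) → ℝ}, four_dep ∅ f →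
        ∫ r, f r ∂(Measure.pi fun _ => ν) = f 0 := fun {f} hf => by
      have : f = fun _ => f 0 := funext fun r => hf _ _ (by simp)
      rw [this]
      simp
    rw [e d1, e d2, e d3, e d4]
    simpa using h 0 0
  | insert x S _ ih =>
    intro f1 f2 f3 f4 c1 c2 c3 c4 p1 p2 p3 p4 h d1 d2 d3 d4
    rw [← four_T_int ν x c1, ← four_T_int ν x c2, ← four_T_int ν x c3, ← four_T_int ν x c4]
    have cu : ∀ ρ : V → unitInterval, Continuous fun t => Function.update ρ x t :=
      fun ρ => continuous_const.update x continuous_id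
    refine ih _ _ _ _ (four_T_cont ν x c1) (four_T_cont ν x c2) (four_T_cont ν x c3)
      (four_T_cont ν x c4) (fun r => integral_nonneg fun t => p1 _)
      (fun r => integral_nonneg fun t => p2 _) (fun r => integral_nonneg fun t => p3 _)
      (fun r => integral_nonneg fun t => p4 _) (fun r s => ?_) (four_T_dep ν x d1)
      (four_T_dep ν x d2) (four_T_dep ν x d3) (four_T_dep ν x d4)
    refine four_one ν _ _ _ _ (c1.comp (cu r)) (c2.comp (cu s)) (c3.comp (cu _)) (c4.comp (cu _))
      (fun t => p1 _) (fun t => p2 _) (fun t => p3 _) (fun t => p4 _) fun a b => ?_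
    have e1 : Function.update (r ⊓ s) x (a ⊓ b) = Function.update r x a ⊓ Function.update s x b := by
      funext y
      by_cases hy : y = x
      · subst hy
        simp
      · simp [hy]
    have e2 : Function.update (r ⊔ s) x (a ⊔ b) = Function.update r x a ⊔ Function.update s x b := by
      funext y
      by_cases hy : y = x
      · subst hy
        simp
      · simp [hy]
    rw [e1, e2]
    exact h _ _

/-- Four functions theorem on the cube for a product measure (Karlin and Rinott).
Either discretize (`four_functions_theorem` on `V → Fin (N+1)` with the product weights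
`w x = ∏ ν (cell (x v))`, which satisfy `w x * w y = w (x ⊓ y) * w (x ⊔ y)`, and dominated
convergence), or induct on the dimension: reduce to `V = Fin n`, integrate out one coordinate, and
use the one dimensional case, which follows by symmetrizing the double integral:
if `f1 a * f2 b ≤ f3 (min a b) * f4 (max a b)` for all `a b` then for `a ≤ b`
`f1 a * f2 b + f1 b * f2 a ≤ f3 a * f4 b + f3 b * f4 a`
(from `x, y ≤ w` and `x * y ≤ z * w` get `x + y ≤ z + w`). -/
theorem four {V : Type} [Fintype V] (ν : Measure unitInterval) [IsProbabilityMeasure ν]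
    (f1 f2 f3 f4 : (V → unitInterval) → ℝ) (c1 : Continuous f1) (c2 : Continuous f2)
    (c3 : Continuous f3) (c4 : Continuous f4) (p1 : ∀ r, 0 ≤ f1 r) (p2 : ∀ r, 0 ≤ f2 r)
    (p3 : ∀ r, 0 ≤ f3 r) (p4 : ∀ r, 0 ≤ f4 r)
    (h : ∀ r s, f1 r * f2 s ≤ f3 (r ⊓ s) * f4 (r ⊔ s)) :
    (∫ r, f1 r ∂(Measure.pi fun _ => ν)) * (∫ r, f2 r ∂(Measure.pi fun _ => ν)) ≤
      (∫ r, f3 r ∂(Measure.pi fun _ => ν)) * ∫ r, f4 r ∂(Measure.pi fun _ => ν) := by
  classical
  exact four_ind ν Finset.univ f1 f2 f3 f4 c1 c2 c3 c4 p1 p2 p3 p4 h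
    (four_dep_univ f1) (four_dep_univ f2) (four_dep_univ f3) (four_dep_univ f4)

end Vale.Agent.P163
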