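import Vale.Agent.P163.Polar
import Vale.Agent.P163.Four

open MeasureTheory Filter Topology

namespace Vale.Agent.P163

variable {V : Type} [Fintype V] [DecidableEq V] {om : Measure S4} {ν : Measure unitInterval}
  {η : Measure Circle}

theorem cmp_super {a a' b b' : ℝ} :
    a * b - min a a' * min b b' ≤ max a a' * max b b' - a' * b' := by
  rcases le_total a a' with h | h <;> rcases le_total b b' with h' | h' <;>
    simp only [min_eq_left, min_eq_right, max_eq_left, max_eq_right, h, h'] <;>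
    nlinarith [mul_nonneg (sub_nonneg.2 h) (sub_nonneg.2 h')]

theorem cmp_ratio {A1 A4 X1 X2 X3 X4 : ℝ} (h1 : 0 < X1) (h3 : 0 < X3) (hA : 0 ≤ A1)
    (hM : A1 * X4 ≤ A4 * X1) (hS : X1 * X2 ≤ X4 * X3) : A1 * X2 ≤ A4 * X3 := by
  refine le_of_mul_le_mul_left ?_ h1
  have a1 := mul_le_mul_of_nonneg_left hS hA
  have a2 := mul_le_mul_of_nonneg_right hM h3.le
  nlinarith

theorem cmp_prod_nonneg {α : Type} (l : List α) {f : α → ℝ} (hf : ∀ x, 0 ≤ f x) :
    0 ≤ (l.map f).prod := by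
  induction l with
  | nil => simp
  | cons a l ih => simpa using mul_nonneg (hf a) ih

theorem cmp_prod_le {α : Type} (l : List α) {f g : α → ℝ} (hf : ∀ x, 0 ≤ f x)
    (h : ∀ x, f x ≤ g x) : (l.map f).prod ≤ (l.map g).prod := by
  induction l with
  | nil => simp
  | cons a l ih =>
    simp only [List.map_cons, List.prod_cons]
    exact mul_le_mul (h a) ih (cmp_prod_nonneg l hf) ((hf a).trans (h a))

omit [Fintype V] in
theorem cmp_rt0 (D : Finset V) (r : V → unitInterval) (x : V) : 0 ≤ rt D r x := by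
  unfold rt
  split_ifs
  · exact (r x).2.1
  · exact zero_le_one

omit [Fintype V] in
theorem cmp_rb0 (D : Finset V) (r : V → unitInterval) (x : V) : 0 ≤ rb D r x := Real.sqrt_nonneg _

omit [Fintype V] in
theorem cmp_rb1 (D : Finset V) (r : V → unitInterval) (x : V) : rb D r x ≤ 1 :=
  Real.sqrt_le_one.2 (by nlinarith [sq_nonneg (rt D r x)])

theorem cmp_anti {a b : ℝ} (ha : 0 ≤ a) (h : a ≤ b) :
    Real.sqrt (1 - b ^ 2) ≤ Real.sqrt (1 - a ^ 2) :=
  Real.sqrt_le_sqrt (by nlinarith)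

omit [Fintype V] [DecidableEq V] in
theorem cmp_J0 {K : V → V → ℝ} (hK : ∀ x y, 0 ≤ K x y) {a : V → ℝ} (ha : ∀ x, 0 ≤ a x)
    (e : V × V) : 0 ≤ K e.1 e.2 * a e.1 * a e.2 :=
  mul_nonneg (mul_nonneg (hK _ _) (ha _)) (ha _)

omit [Fintype V] [DecidableEq V] in
theorem cmp_Jle {K : V → V → ℝ} (hK : ∀ x y, 0 ≤ K x y) {a b : V → ℝ} (ha : ∀ x, 0 ≤ a x)
    (h : ∀ x, a x ≤ b x) (e : V × V) : K e.1 e.2 * a e.1 * a e.2 ≤ K e.1 e.2 * b e.1 * b e.2 :=
  mul_le_mul (mul_le_mul_of_nonneg_left (h _) (hK _ _)) (h _) (ha _)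
    (mul_nonneg (hK _ _) ((ha _).trans (h _)))

omit [Fintype V] [DecidableEq V] in
theorem cmp_Jsup {K : V → V → ℝ} (hK : ∀ x y, 0 ≤ K x y) {a b c d : V → ℝ}
    (hc : ∀ x, c x = min (a x) (b x)) (hd : ∀ x, d x = max (a x) (b x)) (e : V × V) :
    K e.1 e.2 * a e.1 * a e.2 - K e.1 e.2 * c e.1 * c e.2 ≤
      K e.1 e.2 * d e.1 * d e.2 - K e.1 e.2 * b e.1 * b e.2 := by
  have := mul_le_mul_of_nonneg_left
    (cmp_super (a := a e.1) (a' := b e.1) (b := a e.2) (b' := b e.2)) (hK e.1 e.2)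
  rw [hc, hc, hd, hd]
  linarith

theorem cmp_xl_nil (D : Finset V) (K : V → V → ℝ) (r : V → unitInterval) :
    xl D K [] r = xy haarC (fun e => mask D (mb e))
      (fun e : V × V => K e.1 e.2 * rt D r e.1 * rt D r e.2) [] := by
  simp [xl]

theorem cmp_yl_nil (D : Finset V) (K : V → V → ℝ) (r : V → unitInterval) :
    yl η D K [] r = xy η mb (fun e : V × V => K e.1 e.2 * rb D r e.1 * rb D r e.2) [] := by
  simp [yl]

theorem cmp_xl0 {K : V → V → ℝ} (hK : ∀ x y, 0 ≤ K x y) (D : Finset V)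
    (L : List (List (V × Bool))) (r : V → unitInterval) : 0 ≤ xl D K L r :=
  mul_nonneg (cmp_prod_nonneg L fun p => cmp_prod_nonneg p fun v => cmp_rt0 D r v.1)
    (xy_nonneg haarC q3_haar _ _ (cmp_J0 hK (cmp_rt0 D r)) _)

theorem cmp_yl0 (h : Model om ν η) {K : V → V → ℝ} (hK : ∀ x y, 0 ≤ K x y) (D : Finset V)
    (q : List V) (r : V → unitInterval) : 0 ≤ yl η D K q r :=
  have := h.peta
  mul_nonneg (cmp_prod_nonneg q fun x => cmp_rb0 D r x)
    (xy_nonneg η h.q3 _ _ (cmp_J0 hK (cmp_rb0 D r)) _)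

theorem cmp_yl_le (h : Model om ν η) {K : V → V → ℝ} (hK : ∀ x y, 0 ≤ K x y) (D : Finset V)
    (q : List V) (r : V → unitInterval) {c : ℝ} (hc1 : c ≤ 1) :
    0 ≤ yl η D K [] r - c * yl η D K q r := by
  have := h.peta
  have h1 : yl η D K q r ≤ yl η D K [] r := by
    rw [cmp_yl_nil]
    refine le_trans ?_ ((le_abs_self _).trans (abs_xy_le η mb _
      (q.map fun x => (Pi.single x 1 : V → ℤ))))
    refine mul_le_of_le_one_left (xy_nonneg η h.q3 _ _ (cmp_J0 hK (cmp_rb0 D r)) _) ?_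
    simpa using cmp_prod_le q (g := fun _ => 1) (cmp_rb0 D r) (cmp_rb1 D r)
  have h2 := mul_le_mul_of_nonneg_right hc1 (cmp_yl0 h hK D q r)
  linarith

theorem cmp_X {K : V → V → ℝ} (hK : ∀ x y, 0 ≤ K x y) {D D' : Finset V} (hD : D ⊆ D')
    (L : List (List (V × Bool))) {r1 r2 r3 r4 : V → unitInterval}
    (h3 : ∀ x, rt D' r3 x = min (rt D' r1 x) (rt D r2 x))
    (h4 : ∀ x, rt D r4 x = max (rt D' r1 x) (rt D r2 x)) :
    xl D' K L r1 * xl D K [] r2 ≤ xl D K L r4 * xl D' K [] r3 := by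
  have h14 : ∀ x, rt D' r1 x ≤ rt D r4 x := fun x => h4 x ▸ le_max_left _ _
  refine cmp_ratio (X1 := xl D' K [] r1) (X4 := xl D K [] r4) ?_ ?_ (cmp_xl0 hK D' L r1) ?_ ?_
  · rw [cmp_xl_nil]; exact xy_pos _ _ _
  · rw [cmp_xl_nil]; exact xy_pos _ _ _
  · have hM := xy_M_haar D D' hD mb _ _ (cmp_J0 hK (cmp_rt0 D' r1))
      (cmp_Jle hK (cmp_rt0 D' r1) h14) (L.map mg)
    rw [List.map_map, List.map_map] at hM
    rw [cmp_xl_nil, cmp_xl_nil, xl, xl, mul_assoc, mul_assoc]
    refine mul_le_mul (cmp_prod_le L (fun p => cmp_prod_nonneg p fun v => cmp_rt0 D' r1 v.1)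
      fun p => cmp_prod_le p (fun v => cmp_rt0 D' r1 v.1) fun v => h14 v.1) ?_ ?_ ?_
    · exact le_trans (mul_le_mul_of_nonneg_right (le_abs_self _) (xy_pos _ _ _).le) hM
    · exact mul_nonneg (xy_nonneg haarC q3_haar _ _ (cmp_J0 hK (cmp_rt0 D' r1)) _)
        (xy_pos _ _ _).le
    · exact cmp_prod_nonneg L fun p => cmp_prod_nonneg p fun v => cmp_rt0 D r4 v.1
  · simp only [cmp_xl_nil]
    exact xy_S_haar D D' hD mb _ _ _ _ (cmp_J0 hK (cmp_rt0 D' r3))
      (cmp_Jle hK (cmp_rt0 D' r3) fun x => h3 x ▸ min_le_left _ _)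
      (cmp_Jle hK (cmp_rt0 D' r3) fun x => h3 x ▸ min_le_right _ _) (cmp_Jsup hK h3 h4)

theorem cmp_Y (h : Model om ν η) {K : V → V → ℝ} (hK : ∀ x y, 0 ≤ K x y)
    {D1 D2 D3 D4 : Finset V} (q : List V) {c : ℝ} (hc0 : 0 ≤ c) (hc1 : c ≤ 1)
    {r1 r2 r3 r4 : V → unitInterval}
    (h3 : ∀ x, rt D3 r3 x = min (rt D1 r1 x) (rt D2 r2 x))
    (h4 : ∀ x, rt D4 r4 x = max (rt D1 r1 x) (rt D2 r2 x)) :
    (yl η D1 K [] r1 - c * yl η D1 K q r1) * yl η D2 K [] r2 ≤
      (yl η D4 K [] r4 - c * yl η D4 K q r4) * yl η D3 K [] r3 := by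
  have := h.peta
  have g3 : ∀ x, rb D3 r3 x = max (rb D1 r1 x) (rb D2 r2 x) := fun x => by
    unfold rb
    rw [h3 x]
    rcases le_total (rt D1 r1 x) (rt D2 r2 x) with h' | h'
    · rw [min_eq_left h', max_eq_left (cmp_anti (cmp_rt0 _ _ _) h')]
    · rw [min_eq_right h', max_eq_right (cmp_anti (cmp_rt0 _ _ _) h')]
  have g4 : ∀ x, rb D4 r4 x = min (rb D1 r1 x) (rb D2 r2 x) := fun x => by
    unfold rb
    rw [h4 x]
    rcases le_total (rt D1 r1 x) (rt D2 r2 x) with h' | h'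
    · rw [max_eq_right h', min_eq_right (cmp_anti (cmp_rt0 _ _ _) h')]
    · rw [max_eq_left h', min_eq_left (cmp_anti (cmp_rt0 _ _ _) h')]
  have h41 : ∀ x, rb D4 r4 x ≤ rb D1 r1 x := fun x => g4 x ▸ min_le_left _ _
  refine cmp_ratio (X1 := yl η D1 K [] r1) (X4 := yl η D4 K [] r4) ?_ ?_
    (cmp_yl_le h hK D1 q r1 hc1) ?_ ?_
  · rw [cmp_yl_nil]; exact xy_pos _ _ _
  · rw [cmp_yl_nil]; exact xy_pos _ _ _
  · have hM := xy_M η h.q3 mb _ _ (cmp_J0 hK (cmp_rb0 D4 r4))
      (cmp_Jle hK (cmp_rb0 D4 r4) h41) (q.map fun x => (Pi.single x 1 : V → ℤ))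
    have key : yl η D4 K q r4 * yl η D1 K [] r1 ≤ yl η D1 K q r1 * yl η D4 K [] r4 := by
      rw [cmp_yl_nil, cmp_yl_nil, yl, yl, mul_assoc, mul_assoc]
      refine mul_le_mul (cmp_prod_le q (cmp_rb0 D4 r4) h41) ?_ ?_ ?_
      · exact le_trans (mul_le_mul_of_nonneg_right (le_abs_self _) (xy_pos _ _ _).le) hM
      · exact mul_nonneg (xy_nonneg η h.q3 _ _ (cmp_J0 hK (cmp_rb0 D4 r4)) _) (xy_pos _ _ _).le
      · exact cmp_prod_nonneg q (cmp_rb0 D1 r1)
    have := mul_le_mul_of_nonneg_left key hc0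
    nlinarith
  · simp only [cmp_yl_nil]
    rw [mul_comm (xy η mb (fun e : V × V => K e.1 e.2 * rb D4 r4 e.1 * rb D4 r4 e.2) [])]
    exact xy_S η h.q3 mb _ _ _ _ (cmp_J0 hK (cmp_rb0 D4 r4)) (cmp_Jle hK (cmp_rb0 D4 r4) h41)
      (cmp_Jle hK (cmp_rb0 D4 r4) fun x => g4 x ▸ min_le_right _ _) (cmp_Jsup hK g4 g3)

theorem cmp_int {X : Type} [TopologicalSpace X] [CompactSpace X] [MeasurableSpace X]
    [OpensMeasurableSpace X] (μ : Measure X) [IsFiniteMeasure μ] {f : X → ℝ}
    (hf : Continuous f) : Integrable f μ :=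
  hf.integrable_of_hasCompactSupport (HasCompactSupport.of_compactSpace f)

theorem cmp_num1 (h : Model om ν η) (D : Finset V) (K : V → V → ℝ) :
    numF om D K (fun _ => 1) = ∫ r, xl D K [] r * yl η D K [] r ∂(Measure.pi fun _ : V => ν) := by
  rw [← numF_polar h]
  simp [oA, oB]

theorem cmp_numA (h : Model om ν η) (D : Finset V) (K : V → V → ℝ) (L : List (List (V × Bool))) :
    numF om D K (oA L) = ∫ r, xl D K L r * yl η D K [] r ∂(Measure.pi fun _ : V => ν) := by
  rw [← numF_polar h]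
  simp [oB]

theorem cmp_numB (h : Model om ν η) (D : Finset V) (K : V → V → ℝ) (q : List V) :
    numF om D K (oB q) = ∫ r, xl D K [] r * yl η D K q r ∂(Measure.pi fun _ : V => ν) := by
  rw [← numF_polar h]
  simp [oA]

theorem cmp_sub (h : Model om ν η) (D : Finset V) (K : V → V → ℝ) (L : List (List (V × Bool)))
    (q : List V) (c : ℝ) :
    ∫ r, xl D K L r * (yl η D K [] r - c * yl η D K q r) ∂(Measure.pi fun _ : V => ν) =
      ∫ r, xl D K L r * yl η D K [] r ∂(Measure.pi fun _ : V => ν) -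
        c * ∫ r, xl D K L r * yl η D K q r ∂(Measure.pi fun _ : V => ν) := by
  have := h.peta
  have := h.pnu
  rw [← integral_const_mul, ← integral_sub
    (cmp_int _ ((continuous_xl D K L).fun_mul (continuous_yl D K [])))
    (cmp_int _ (continuous_const.fun_mul ((continuous_xl D K L).fun_mul (continuous_yl D K q))))]
  congr 1
  funext r
  ring

theorem cmp_num (h : Model om ν η) (D : Finset V) (K : V → V → ℝ) (L : List (List (V × Bool)))
    (q : List V) (c : ℝ) : numF om D K (fun σ => oA L σ * (1 - c * oB q σ)) =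
      ∫ r, xl D K L r * (yl η D K [] r - c * yl η D K q r) ∂(Measure.pi fun _ : V => ν) := by
  have := h.pom
  rw [cmp_sub h, ← cmp_numA h, ← numF_polar h]
  unfold numF
  have c0 := continuous_frz e0 D
  have c1 : Continuous fun σ => Real.exp (ham Finset.univ K (frz e0 D σ)) :=
    Real.continuous_exp.comp ((continuous_ham _ K).comp c0)
  have c2 : Continuous fun σ => oA L (frz e0 D σ) := (continuous_oA L).comp c0
  have c3 : Continuous fun σ => oB q (frz e0 D σ) := (continuous_oB q).comp c0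
  rw [← integral_const_mul, ← integral_sub (cmp_int _ (c2.fun_mul c1))
    (cmp_int _ (continuous_const.fun_mul ((c2.fun_mul c3).fun_mul c1)))]
  congr 1
  funext σ
  ring

omit [Fintype V] in
theorem cmp_pw_cont (D : Finset V) :
    Continuous fun p : (V → unitInterval) × (V → unitInterval) => D.piecewise p.2 p.1 := by
  refine continuous_pi fun x => ?_
  by_cases hx : x ∈ D
  · simp only [Finset.piecewise_eq_of_mem _ _ _ hx]
    fun_prop
  · simp only [Finset.piecewise_eq_of_notMem _ _ _ hx]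
    fun_prop

omit [Fintype V] in
theorem cmp_min {D D' : Finset V} (hD : D ⊆ D') (r s ρ : V → unitInterval) (x : V) :
    rt D' (D.piecewise (r ⊓ s) ρ) x = min (rt D' (D.piecewise r ρ) x) (rt D s x) := by
  unfold rt
  by_cases hx : x ∈ D
  · simp only [Finset.piecewise_eq_of_mem _ _ _ hx, if_pos hx, if_pos (hD hx), Pi.inf_apply]
    exact (Subtype.mono_coe _).map_min
  · simp only [Finset.piecewise_eq_of_notMem _ _ _ hx, if_neg hx]
    split_ifs
    · exact (min_eq_left (ρ x).2.2).symm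
    · simp

omit [Fintype V] in
theorem cmp_max {D D' : Finset V} (hD : D ⊆ D') (r s ρ : V → unitInterval) (x : V) :
    rt D (r ⊔ s) x = max (rt D' (D.piecewise r ρ) x) (rt D s x) := by
  unfold rt
  by_cases hx : x ∈ D
  · simp only [Finset.piecewise_eq_of_mem _ _ _ hx, if_pos hx, if_pos (hD hx), Pi.sup_apply]
    exact (Subtype.mono_coe _).map_max
  · simp only [Finset.piecewise_eq_of_notMem _ _ _ hx, if_neg hx]
    split_ifs
    · exact (max_eq_right (ρ x).2.2).symm
    · simp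

omit [Fintype V] in
theorem cmp_min' (D : Finset V) (r s : V → unitInterval) (x : V) :
    rt D (r ⊓ s) x = min (rt D r x) (rt D s x) := by
  unfold rt
  split_ifs
  · exact (Subtype.mono_coe _).map_min
  · simp

omit [Fintype V] in
theorem cmp_max' (D : Finset V) (r s : V → unitInterval) (x : V) :
    rt D (r ⊔ s) x = max (rt D r x) (rt D s x) := by
  unfold rt
  split_ifs
  · exact (Subtype.mono_coe _).map_max
  · simp

/-- Monotonicity in the volume.  Fix `ρ` and write `r' = D.piecewise r ρ`.  Apply `four` to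
`f1 r = xl D' K L r' * (yl D' K [] r' - c * yl D' K q r')`, `f2 s = xl D K [] s * yl D K [] s`,
`f3 r = xl D' K [] r' * yl D' K [] r'`, `f4 s = xl D K L s * (yl D K [] s - c * yl D K q s)`, then
integrate over `ρ` (`integral_piecewise`).  The pointwise condition is the product of
`xy_S_haar` (couplings `K rt rt` at ` (D', r')`, ` (D, s)`, ` (D, r ⊔ s)`, ` (D', (r ⊓ s)')`),
`xy_S` (couplings `K rb rb`, with `J1 = (D, s)`, `J2 = (D', r')`, `J3 = (D', (r ⊓ s)')`,
`J4 = (D, r ⊔ s)`), `xy_M_haar` (the ratio `xl L / xl []` at ` (D', r')` is at most the ratio at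
` (D, r ⊔ s)`) and `xy_M` (the ratio `yl q / yl []` at ` (D, r ⊔ s)` is at most the ratio at
` (D', r')`, and it is at most one by `abs_xy_le`).  The coupling inequalities are supermodularity
of ` (a, b) ↦ a * b`: coordinatewise `rt D' r' ≤ rt D (r ⊔ s)`, `rt D' (r ⊓ s)' ≤ rt D s`, and
`rt D' r' - rt D' (r ⊓ s)' = rt D (r ⊔ s) - rt D s`; for `rb` use that `rb` at `r ⊓ s` is the max
and at `r ⊔ s` the min of the values on `D`, and that `rb D = 0` off `D`. -/
theorem cmpF (h : Model om ν η) (K : V → V → ℝ) (hK : ∀ x y, 0 ≤ K x y) (D D' : Finset V)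
    (hD : D ⊆ D') (L : List (List (V × Bool))) (q : List V) (c : ℝ) (hc0 : 0 ≤ c) (hc1 : c ≤ 1) :
    numF om D' K (fun σ => oA L σ * (1 - c * oB q σ)) * numF om D K (fun _ => 1) ≤
      numF om D' K (fun _ => 1) * numF om D K (fun σ => oA L σ * (1 - c * oB q σ)) := by
  have := h.peta
  have := h.pnu
  have cF : ∀ D : Finset V, Continuous fun r => xl D K L r * (yl η D K [] r - c * yl η D K q r) :=
    fun D => (continuous_xl D K L).mul
      ((continuous_yl D K []).sub (continuous_const.mul (continuous_yl D K q)))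
  have cG : ∀ D : Finset V, Continuous fun r => xl D K [] r * yl η D K [] r :=
    fun D => (continuous_xl D K []).mul (continuous_yl D K [])
  have pF : ∀ (D : Finset V) r, 0 ≤ xl D K L r * (yl η D K [] r - c * yl η D K q r) :=
    fun D r => mul_nonneg (cmp_xl0 hK D L r) (cmp_yl_le h hK D q r hc1)
  have pG : ∀ (D : Finset V) r, 0 ≤ xl D K [] r * yl η D K [] r :=
    fun D r => mul_nonneg (cmp_xl0 hK D [] r) (cmp_yl0 h hK D [] r)
  have cp : ∀ ρ : V → unitInterval, Continuous fun r : V → unitInterval => D.piecewise r ρ :=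
    fun ρ => (cmp_pw_cont D).comp (continuous_const.prodMk continuous_id)
  rw [cmp_num h, cmp_num h, cmp_num1 h, cmp_num1 h, ← integral_piecewise ν D _ (cF D'),
    ← integral_piecewise ν D _ (cG D'), ← integral_mul_const, ← integral_mul_const]
  refine integral_mono ?_ ?_ fun ρ => ?_
  · exact (cmp_int _ ((cF D').comp (cmp_pw_cont D))).integral_prod_left.mul_const _
  · exact (cmp_int _ ((cG D').comp (cmp_pw_cont D))).integral_prod_left.mul_const _
  · refine four ν _ _ _ _ ((cF D').comp (cp ρ)) (cG D) ((cG D').comp (cp ρ)) (cF D)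
      (fun r => pF D' _) (pG D) (fun r => pG D' _) (pF D) fun r s => ?_
    have h1 := cmp_X hK hD L (cmp_min hD r s ρ) (cmp_max hD r s ρ)
    have h2 := cmp_Y h hK q hc0 hc1 (cmp_min hD r s ρ) (cmp_max hD r s ρ)
    have h3 := mul_le_mul h1 h2 (mul_nonneg (cmp_yl_le h hK _ q _ hc1) (cmp_yl0 h hK _ [] _))
      (mul_nonneg (cmp_xl0 hK _ L _) (cmp_xl0 hK _ [] _))
    linarith

/-- Negative correlation.  `four` with `f1 = xl L * yl []`, `f2 = xl [] * (yl [] - yl q)`,
`f3 = xl [] * yl []`, `f4 = xl L * (yl [] - yl q)`, all for the same `D`. -/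
theorem negF (h : Model om ν η) (K : V → V → ℝ) (hK : ∀ x y, 0 ≤ K x y) (D : Finset V)
    (L : List (List (V × Bool))) (q : List V) :
    numF om D K (fun σ => oA L σ * oB q σ) * numF om D K (fun _ => 1) ≤
      numF om D K (oA L) * numF om D K (oB q) := by
  have := h.peta
  have := h.pnu
  have cF : ∀ L, Continuous fun r => xl D K L r * (yl η D K [] r - 1 * yl η D K q r) :=
    fun L => (continuous_xl D K L).mul
      ((continuous_yl D K []).sub (continuous_const.mul (continuous_yl D K q)))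
  have cG : ∀ L, Continuous fun r => xl D K L r * yl η D K [] r :=
    fun L => (continuous_xl D K L).mul (continuous_yl D K [])
  have pF : ∀ L r, 0 ≤ xl D K L r * (yl η D K [] r - 1 * yl η D K q r) :=
    fun L r => mul_nonneg (cmp_xl0 hK D L r) (cmp_yl_le h hK D q r le_rfl)
  have pG : ∀ L r, 0 ≤ xl D K L r * yl η D K [] r :=
    fun L r => mul_nonneg (cmp_xl0 hK D L r) (cmp_yl0 h hK D [] r)
  have key := four ν _ _ _ _ (cG L) (cF []) (cG []) (cF L) (pG L) (pF []) (pG []) (pF L)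
    fun r s => by
      have h1 := cmp_X hK (Finset.Subset.refl D) L (cmp_min' D r s) (cmp_max' D r s)
      have h2 := cmp_Y h hK q zero_le_one le_rfl (r1 := s) (r2 := r) (r3 := r ⊓ s) (r4 := r ⊔ s)
        (fun x => (cmp_min' D r s x).trans (min_comm _ _))
        (fun x => (cmp_max' D r s x).trans (max_comm _ _))
      have h3 := mul_le_mul h1 h2
        (mul_nonneg (cmp_yl_le h hK _ q _ le_rfl) (cmp_yl0 h hK _ [] _))
        (mul_nonneg (cmp_xl0 hK _ L _) (cmp_xl0 hK _ [] _))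
      linarith
  rw [cmp_sub h, cmp_sub h] at key
  rw [numF_polar h, cmp_num1 h, cmp_numA h, cmp_numB h]
  linarith

/-- First Griffiths inequality (`xy_nonneg`). -/
theorem grifF (h : Model om ν η) (K : V → V → ℝ) (hK : ∀ x y, 0 ≤ K x y) (D : Finset V)
    (L : List (List (V × Bool))) (q : List V) :
    0 ≤ numF om D K (fun σ => oA L σ * oB q σ) := by
  rw [numF_polar h]
  exact integral_nonneg fun r => mul_nonneg (cmp_xl0 hK D L r) (cmp_yl0 h hK D q r)

end Vale.Agent.P163
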