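import Vale.Agent.P163.Pou

open Filter Topology Metric

namespace Vale.Agent.P163

/-- the complex coordinate -/
noncomputable def kmZ (p : Pl) : ℂ := (p.1 : ℂ) + (p.2 : ℂ) * Complex.I

/-- its conjugate -/
noncomputable def kmB (p : Pl) : ℂ := (p.1 : ℂ) - (p.2 : ℂ) * Complex.I

theorem kmZ_has (p : Pl) : HasFDerivAt kmZ
    (Complex.ofRealCLM.comp (ContinuousLinearMap.fst ℝ ℝ ℝ) +
      Complex.I • Complex.ofRealCLM.comp (ContinuousLinearMap.snd ℝ ℝ ℝ)) p := by
  have := (Complex.ofRealCLM.comp (ContinuousLinearMap.fst ℝ ℝ ℝ) +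
      Complex.I • Complex.ofRealCLM.comp (ContinuousLinearMap.snd ℝ ℝ ℝ)).hasFDerivAt (x := p)
  convert this using 1
  ext q; simp [kmZ, mul_comm]

theorem kmB_has (p : Pl) : HasFDerivAt kmB
    (Complex.ofRealCLM.comp (ContinuousLinearMap.fst ℝ ℝ ℝ) -
      Complex.I • Complex.ofRealCLM.comp (ContinuousLinearMap.snd ℝ ℝ ℝ)) p := by
  have := (Complex.ofRealCLM.comp (ContinuousLinearMap.fst ℝ ℝ ℝ) -
      Complex.I • Complex.ofRealCLM.comp (ContinuousLinearMap.snd ℝ ℝ ℝ)).hasFDerivAt (x := p)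
  convert this using 1
  ext q; simp [kmB, mul_comm]

theorem kmZ_smooth : ContDiff ℝ (⊤ : ℕ∞) kmZ := by
  unfold kmZ
  exact (Complex.ofRealCLM.contDiff.comp contDiff_fst).add
    ((Complex.ofRealCLM.contDiff.comp contDiff_snd).mul contDiff_const)

theorem kmB_smooth : ContDiff ℝ (⊤ : ℕ∞) kmB := by
  unfold kmB
  exact (Complex.ofRealCLM.contDiff.comp contDiff_fst).sub
    ((Complex.ofRealCLM.contDiff.comp contDiff_snd).mul contDiff_const)

theorem km_dbar_Z (p : Pl) : dbar kmZ p = 0 := by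
  simp [dbar, (kmZ_has p).fderiv]

theorem km_dbar_B (p : Pl) : dbar kmB p = 2 := by
  simp [dbar, (kmB_has p).fderiv]
  norm_num

theorem km_diff {f : Pl → ℂ} (hf : ContDiff ℝ (⊤ : ℕ∞) f) : Differentiable ℝ f :=
  hf.differentiable (by simp)

theorem km_dbar_mul {f g : Pl → ℂ} (hf : ContDiff ℝ (⊤ : ℕ∞) f) (hg : ContDiff ℝ (⊤ : ℕ∞) g) :
    dbar (f * g) = dbar f * g + f * dbar g := by
  ext p
  simp only [dbar, Pi.add_apply, Pi.mul_apply]
  rw [fderiv_mul (km_diff hf p) (km_diff hg p)]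
  simp
  ring

theorem km_dbar_add {f g : Pl → ℂ} (hf : ContDiff ℝ (⊤ : ℕ∞) f) (hg : ContDiff ℝ (⊤ : ℕ∞) g) :
    dbar (f + g) = dbar f + dbar g := by
  ext p
  simp only [dbar, Pi.add_apply]
  rw [fderiv_add (km_diff hf p) (km_diff hg p)]
  simp
  ring

theorem km_dbar_smul {f : Pl → ℂ} (hf : ContDiff ℝ (⊤ : ℕ∞) f) (c : ℂ) :
    dbar (c • f) = c • dbar f := by
  ext p
  simp only [dbar, Pi.smul_apply]
  rw [fderiv_const_smul (km_diff hf p)]
  simp
  ring

theorem km_dbar_Zmul {f : Pl → ℂ} (hf : ContDiff ℝ (⊤ : ℕ∞) f) :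
    dbar (kmZ * f) = kmZ * dbar f := by
  rw [km_dbar_mul kmZ_smooth hf]; ext p; simp [km_dbar_Z]

theorem km_Bmul_dbar {f : Pl → ℂ} (hf : ContDiff ℝ (⊤ : ℕ∞) f) :
    kmB * dbar f = dbar (kmB * f) + (-2 : ℂ) • f := by
  rw [km_dbar_mul kmB_smooth hf]; ext p; simp [km_dbar_B]

theorem km_dbar_smooth {f : Pl → ℂ} (hf : ContDiff ℝ (⊤ : ℕ∞) f) :
    ContDiff ℝ (⊤ : ℕ∞) (dbar f) := by
  have h : ContDiff ℝ (⊤ : ℕ∞) (fderiv ℝ f) := hf.fderiv_right (by simp)
  unfold dbar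
  exact (h.clm_apply contDiff_const).add (contDiff_const.mul (h.clm_apply contDiff_const))

theorem km_dbar_zero {f : Pl → ℂ} {p : Pl} {c : ℂ} (h : f =ᶠ[𝓝 p] fun _ => c) : dbar f p = 0 := by
  simp [dbar, h.fderiv_eq]

theorem km_tsupp_dbar (f : Pl → ℂ) : tsupport (dbar f) ⊆ tsupport f := by
  refine closure_minimal (fun p hp => ?_) (isClosed_tsupport f)
  by_contra hn
  exact hp (km_dbar_zero (notMem_tsupport_iff_eventuallyEq.1 hn))

theorem km_tst_dbar {U : Set Pl} {f : Pl → ℂ} (hf : Tst U f) : Tst U (dbar f) :=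
  ⟨⟨km_dbar_smooth hf.1.1, hf.1.2.of_isClosed_subset (isClosed_tsupport _) (km_tsupp_dbar f)⟩,
    (km_tsupp_dbar f).trans hf.2⟩

theorem km_tst_mul {U : Set Pl} {f h : Pl → ℂ} (hh : ContDiff ℝ (⊤ : ℕ∞) h) (hf : Tst U f) :
    Tst U (h * f) :=
  ⟨⟨hh.mul hf.1.1, hf.1.2.mul_left⟩, (tsupport_mul_subset_right (f := h) (g := f)).trans hf.2⟩

theorem km_tsupp_mul (h f : Pl → ℂ) : tsupport (h * f) ⊆ tsupport f :=
  tsupport_mul_subset_right (f := h) (g := f)

theorem km_tsupp_smul (c : ℂ) (f : Pl → ℂ) : tsupport (c • f) ⊆ tsupport f :=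
  km_tsupp_mul (fun _ => c) f

theorem km_tst_smul {U : Set Pl} {f : Pl → ℂ} (c : ℂ) (hf : Tst U f) : Tst U (c • f) :=
  km_tst_mul (h := fun _ => c) contDiff_const hf

theorem km_norm_dbar (f : Pl → ℂ) (p : Pl) : ‖dbar f p‖ ≤ 2 * ‖fderiv ℝ f p‖ := by
  have h1 : ‖fderiv ℝ f p (1, 0)‖ ≤ ‖fderiv ℝ f p‖ := by
    simpa using (fderiv ℝ f p).le_opNorm (1, 0)
  have h2 : ‖fderiv ℝ f p (0, 1)‖ ≤ ‖fderiv ℝ f p‖ := by
    simpa using (fderiv ℝ f p).le_opNorm (0, 1)
  refine (norm_add_le _ _).trans ?_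
  rw [norm_mul, Complex.norm_I]; linarith

theorem km_norm_Z (p w : Pl) : ‖kmZ p - kmZ w‖ ≤ 2 * dist p w := by
  have : kmZ p - kmZ w = ((p.1 - w.1 : ℝ) : ℂ) + ((p.2 - w.2 : ℝ) : ℂ) * Complex.I := by
    simp [kmZ]; ring
  rw [this]
  refine (norm_add_le _ _).trans ?_
  rw [norm_mul, Complex.norm_I, Complex.norm_real, Complex.norm_real, Prod.dist_eq]
  have h1 : ‖p.1 - w.1‖ ≤ max (dist p.1 w.1) (dist p.2 w.2) := by
    rw [← dist_eq_norm]; exact le_max_left _ _
  have h2 : ‖p.2 - w.2‖ ≤ max (dist p.1 w.1) (dist p.2 w.2) := by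
    rw [← dist_eq_norm]; exact le_max_right _ _
  linarith

theorem km_conj_B (p : Pl) : (starRingEnd ℂ) (kmB p) = kmZ p := by
  simp [kmB, kmZ]

theorem km_norm_B (p w : Pl) : ‖kmB p - kmB w‖ ≤ 2 * dist p w := by
  rw [← Complex.norm_conj, map_sub, km_conj_B, km_conj_B]; exact km_norm_Z p w

/-- hypotheses on the sesquilinear version -/
structure KmH {ι : Type} (l : Filter ι) (U : Set Pl) (S : ι → (Pl → ℂ) → (Pl → ℂ) → ℂ)
    (C : ℝ) : Prop where
  c0 : 0 ≤ C
  a1 : ∀ n f f' g, HasCompactSupport f → HasCompactSupport f' → S n (f + f') g = S n f g + S n f' g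
  a2 : ∀ n f g g', HasCompactSupport g → HasCompactSupport g' → S n f (g + g') = S n f g + S n f g'
  s1 : ∀ n (c : ℂ) f g, HasCompactSupport f → S n (c • f) g = c * S n f g
  s2 : ∀ n (c : ℂ) f g, HasCompactSupport g → S n f (c • g) = (starRingEnd ℂ) c * S n f g
  bd : ∀ (f g : Pl → ℂ) (a b r s : ℝ) (p q : Pl), 0 < r → 0 < s → (∀ z, ‖f z‖ ≤ a) →
      (∀ z, f z ≠ 0 → z ∈ closedBall p r) → (∀ z, ‖g z‖ ≤ b) →
      (∀ z, g z ≠ 0 → z ∈ closedBall q s) → ∀ᶠ n in l, ‖S n f g‖ ≤ C * (a * r) * (b * s)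
  hL : ∀ f g, Tst U f → Tst U g → Disjoint (tsupport f) (tsupport g) →
      Tendsto (fun n => S n (dbar f) g) l (𝓝 0)
  hR : ∀ f g, Tst U f → Tst U g → Disjoint (tsupport f) (tsupport g) →
      Tendsto (fun n => S n f (dbar g)) l (𝓝 0)

/-- the form with the weight z - w squared -/
noncomputable def kmT {ι : Type} (S : ι → (Pl → ℂ) → (Pl → ℂ) → ℂ) (n : ι) (f g : Pl → ℂ) : ℂ :=
  S n (kmZ * (kmZ * f)) g - 2 * S n (kmZ * f) (kmB * g) + S n f (kmB * (kmB * g))

section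
variable {ι : Type} {l : Filter ι} {U : Set Pl} {S : ι → (Pl → ℂ) → (Pl → ℂ) → ℂ} {C : ℝ}

theorem KmH.T_add1 (h : KmH l U S C) (n : ι) {f f' : Pl → ℂ} (g : Pl → ℂ)
    (hf : HasCompactSupport f) (hf' : HasCompactSupport f') :
    kmT S n (f + f') g = kmT S n f g + kmT S n f' g := by
  simp only [kmT, mul_add]
  rw [h.a1 n _ _ _ hf.mul_left.mul_left hf'.mul_left.mul_left, h.a1 n _ _ _ hf.mul_left hf'.mul_left,
    h.a1 n _ _ _ hf hf']
  ring

theorem KmH.T_add2 (h : KmH l U S C) (n : ι) (f : Pl → ℂ) {g g' : Pl → ℂ}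
    (hg : HasCompactSupport g) (hg' : HasCompactSupport g') :
    kmT S n f (g + g') = kmT S n f g + kmT S n f g' := by
  simp only [kmT, mul_add]
  rw [h.a2 n _ _ _ hg.mul_left.mul_left hg'.mul_left.mul_left, h.a2 n _ _ _ hg.mul_left hg'.mul_left,
    h.a2 n _ _ _ hg hg']
  ring

theorem KmH.T_zero2 (h : KmH l U S C) (n : ι) (f : Pl → ℂ) : kmT S n f 0 = 0 := by
  have := h.T_add2 n f (HasCompactSupport.zero (β := ℂ)) (HasCompactSupport.zero (β := ℂ))
  simpa using this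

theorem KmH.T_sum2 (h : KmH l U S C) (n : ι) (f : Pl → ℂ) (I : Finset Site) (g : Site → Pl → ℂ)
    (hg : ∀ p, HasCompactSupport (g p)) :
    HasCompactSupport (∑ p ∈ I, g p) ∧ kmT S n f (∑ p ∈ I, g p) = ∑ p ∈ I, kmT S n f (g p) := by
  classical
  induction I using Finset.induction_on with
  | empty => exact ⟨by simpa using HasCompactSupport.zero (β := ℂ), by simpa using h.T_zero2 n f⟩
  | insert a s ha ih =>
    rw [Finset.sum_insert ha, Finset.sum_insert ha]
    exact ⟨(hg a).add ih.1, by rw [h.T_add2 n f (hg a) ih.1, ih.2]⟩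

theorem KmH.T_shift (h : KmH l U S C) (n : ι) {f g : Pl → ℂ} (hf : HasCompactSupport f)
    (hg : HasCompactSupport g) (w : Pl) :
    kmT S n f g = S n (fun p => (kmZ p - kmZ w) ^ 2 * f p) g -
      2 * S n (fun p => (kmZ p - kmZ w) * f p) (fun p => (kmB p - kmB w) * g p) +
      S n f (fun p => (kmB p - kmB w) ^ 2 * g p) := by
  have e1 : (fun p => (kmZ p - kmZ w) ^ 2 * f p) =
      kmZ * (kmZ * f) + ((-2 * kmZ w) • (kmZ * f) + (kmZ w ^ 2) • f) := by
    ext p; simp; ring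
  have e2 : (fun p => (kmZ p - kmZ w) * f p) = kmZ * f + (-kmZ w) • f := by
    ext p; simp; ring
  have e3 : (fun p => (kmB p - kmB w) * g p) = kmB * g + (-kmB w) • g := by
    ext p; simp; ring
  have e4 : (fun p => (kmB p - kmB w) ^ 2 * g p) =
      kmB * (kmB * g) + ((-2 * kmB w) • (kmB * g) + (kmB w ^ 2) • g) := by
    ext p; simp; ring
  have hs : ∀ (c : ℂ) {u : Pl → ℂ}, HasCompactSupport u → HasCompactSupport (c • u) :=
    fun c u hu => hu.mul_left (f := fun _ => c)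
  have f1 : HasCompactSupport (kmZ * f) := hf.mul_left
  have f2 : HasCompactSupport (kmZ * (kmZ * f)) := f1.mul_left
  have g1 : HasCompactSupport (kmB * g) := hg.mul_left
  have g2 : HasCompactSupport (kmB * (kmB * g)) := g1.mul_left
  rw [e1, e2, e3, e4, h.a1 n _ _ _ f2 ((hs _ f1).add (hs _ hf)), h.a1 n _ _ _ (hs _ f1) (hs _ hf),
    h.a1 n _ _ _ f1 (hs _ hf), h.a2 n _ _ _ g1 (hs _ hg), h.a2 n _ _ _ g1 (hs _ hg),
    h.a2 n _ _ _ g2 ((hs _ g1).add (hs _ hg)), h.a2 n _ _ _ (hs _ g1) (hs _ hg)]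
  simp only [h.s1 n _ _ _ f1, h.s1 n _ _ _ hf, h.s2 n _ _ _ g1, h.s2 n _ _ _ hg, map_neg, map_mul,
    map_pow, km_conj_B, map_ofNat, kmT]
  ring

theorem KmH.T_far (h : KmH l U S C) {f g : Pl → ℂ} (hf : Tst U f) (hg : Tst U g)
    (hd : Disjoint (tsupport f) (tsupport g)) :
    Tendsto (fun n => kmT S n (dbar f) g) l (𝓝 0) := by
  have f1 := km_tst_mul kmZ_smooth hf
  have f2 := km_tst_mul kmZ_smooth f1
  have g1 := km_tst_mul kmB_smooth hg
  have g2 := km_tst_mul kmB_smooth g1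
  have t2 := h.hL _ _ f2 hg (hd.mono_left ((km_tsupp_mul _ _).trans (km_tsupp_mul _ _)))
  have t1 := h.hL _ _ f1 g1 (hd.mono (km_tsupp_mul _ _) (km_tsupp_mul _ _))
  have t0 := h.hL _ _ hf g2 (hd.mono_right ((km_tsupp_mul _ _).trans (km_tsupp_mul _ _)))
  rw [km_dbar_Zmul f1.1.1, km_dbar_Zmul hf.1.1] at t2
  rw [km_dbar_Zmul hf.1.1] at t1
  simpa [kmT] using (t2.sub (t1.const_mul 2)).add t0

theorem KmH.T_near (h : KmH l U S C) {f g : Pl → ℂ} (hf : HasCompactSupport f)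
    (hg : HasCompactSupport g) (w : Pl) {r A b : ℝ} (hr : 0 < r) (hA : 0 ≤ A) (hb : 0 ≤ b)
    (f1 : ∀ z, ‖f z‖ ≤ A / r) (f2 : ∀ z, f z ≠ 0 → z ∈ closedBall w (3 * r))
    (g1 : ∀ z, ‖g z‖ ≤ b) (g2 : ∀ z, g z ≠ 0 → z ∈ closedBall w r) :
    ∀ᶠ n in l, ‖kmT S n f g‖ ≤ 192 * C * A * b * r ^ 3 := by
  have hz : ∀ z, f z ≠ 0 → ‖kmZ z - kmZ w‖ ≤ 6 * r := fun z hz => by
    have := km_norm_Z z w; have := mem_closedBall.1 (f2 z hz); linarith
  have hb' : ∀ z, g z ≠ 0 → ‖kmB z - kmB w‖ ≤ 2 * r := fun z hz => by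
    have := km_norm_B z w; have := mem_closedBall.1 (g2 z hz); linarith
  have pw : ∀ (u v : Pl → ℂ) (c d : ℝ) (k : ℕ), 0 ≤ c → 0 ≤ d → (∀ z, v z ≠ 0 → ‖u z‖ ≤ c) →
      (∀ z, ‖v z‖ ≤ d) → ∀ z, ‖u z ^ k * v z‖ ≤ c ^ k * d := by
    intro u v c d k hc hd h1 h2 z
    by_cases hv : v z = 0
    · simp [hv]; positivity
    · rw [norm_mul, norm_pow]
      exact mul_le_mul (pow_le_pow_left₀ (norm_nonneg _) (h1 z hv) k) (h2 z) (norm_nonneg _)
        (by positivity)
  have hAr : 0 ≤ A / r := by positivity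
  have b2 := h.bd (fun p => (kmZ p - kmZ w) ^ 2 * f p) g _ b (3 * r) r w w (by positivity) hr
    (pw _ f _ _ 2 (by positivity) hAr hz f1) (fun z hz => f2 z (right_ne_zero_of_mul hz)) g1 g2
  have b1 := h.bd (fun p => (kmZ p - kmZ w) ^ 1 * f p) (fun p => (kmB p - kmB w) ^ 1 * g p) _ _
    (3 * r) r w w (by positivity) hr
    (pw _ f _ _ 1 (by positivity) hAr hz f1) (fun z hz => f2 z (right_ne_zero_of_mul hz))
    (pw _ g _ _ 1 (by positivity) hb hb' g1) (fun z hz => g2 z (right_ne_zero_of_mul hz))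
  have b0 := h.bd f (fun p => (kmB p - kmB w) ^ 2 * g p) _ _ (3 * r) r w w (by positivity) hr
    f1 f2 (pw _ g _ _ 2 (by positivity) hb hb' g1) (fun z hz => g2 z (right_ne_zero_of_mul hz))
  filter_upwards [b2, b1, b0] with n h2 h1 h0
  rw [h.T_shift n hf hg w]
  simp only [pow_one] at h1
  refine (norm_add_le _ _).trans ?_
  refine (add_le_add_left (norm_sub_le _ _) _).trans ?_
  rw [norm_mul, Complex.norm_ofNat]
  have e2 : C * ((6 * r) ^ 2 * (A / r) * (3 * r)) * (b * r) = 108 * (C * A * b * r ^ 3) := by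
    field_simp; ring
  have e1 : C * (6 * r * (A / r) * (3 * r)) * (2 * r * b * r) = 36 * (C * A * b * r ^ 3) := by
    field_simp; ring
  have e0 : C * (A / r * (3 * r)) * ((2 * r) ^ 2 * b * r) = 12 * (C * A * b * r ^ 3) := by
    field_simp; ring
  rw [e2] at h2; rw [e1] at h1; rw [e0] at h0
  linarith

theorem km_bound {F : Type} [NormedAddCommGroup F] {f : Pl → F} (hc : Continuous f)
    (hs : HasCompactSupport f) : ∃ a : ℝ, 0 ≤ a ∧ ∀ z, ‖f z‖ ≤ a := by
  obtain ⟨a, ha⟩ := hc.bounded_above_of_compact_support hs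
  exact ⟨a, (norm_nonneg _).trans (ha 0), ha⟩

theorem KmH.T_piece (h : KmH l U S C) {η : Pl → ℂ} (hη : Tst U η) :
    ∃ A : ℝ, 0 ≤ A ∧ ∀ (g : Pl → ℂ) (w : Pl) (r b : ℝ), 0 < r → r ≤ 1 → 0 ≤ b → Tst U g →
      (∀ z, ‖g z‖ ≤ b) → tsupport g ⊆ closedBall w r →
      ∀ᶠ n in l, ‖kmT S n (dbar η) g‖ ≤ (A * b + 1) * r ^ 3 := by
  obtain ⟨c, hc, hcut⟩ := cutoff
  obtain ⟨a0, ha0, h0⟩ := km_bound hη.1.1.continuous hη.1.2
  obtain ⟨a1, ha1, h1⟩ := km_bound (hη.1.1.continuous_fderiv (by simp)) (hη.1.2.fderiv ℝ)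
  refine ⟨192 * C * (2 * (a1 + a0 * c)), by have := h.c0; positivity, ?_⟩
  intro g w r b hr hr1 hb hg g1 g2
  obtain ⟨χ, hχ, χ1, χ2, χ3, χ4⟩ := hcut w r hr
  have hx : ContDiff ℝ (⊤ : ℕ∞) (cx χ) := Complex.ofRealCLM.contDiff.comp hχ.1
  have hy : ContDiff ℝ (⊤ : ℕ∞) (1 - cx χ) := contDiff_const.sub hx
  have tn := km_tst_mul hx hη
  have tf := km_tst_mul hy hη
  have e : η = cx χ * η + (1 - cx χ) * η := by ring
  have hd : Disjoint (tsupport ((1 - cx χ) * η)) (tsupport g) := by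
    refine Set.disjoint_left.2 fun z hz hz' => ?_
    refine (notMem_tsupport_iff_eventuallyEq.2 ?_) hz
    have : ball w (2 * r) ∈ 𝓝 z :=
      isOpen_ball.mem_nhds (closedBall_subset_ball (by linarith) (g2 hz'))
    filter_upwards [this] with y hy
    simp [cx, χ1 y (ball_subset_closedBall hy)]
  have far := h.T_far tf hg hd
  have hfd : ∀ z, ‖fderiv ℝ (cx χ) z‖ ≤ c / r := fun z => by
    have : fderiv ℝ (cx χ) z = Complex.ofRealCLM.comp (fderiv ℝ χ z) :=
      (Complex.ofRealCLM.hasFDerivAt.comp z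
        (hχ.1.differentiable (by simp) z).hasFDerivAt).fderiv
    rw [this]
    refine (ContinuousLinearMap.opNorm_comp_le _ _).trans ?_
    rw [Complex.ofRealCLM_norm, one_mul]; exact χ4 z
  have near := h.T_near (km_tst_dbar tn).1.2 hg.1.2 w hr (A := 2 * (a1 + a0 * c)) (by positivity) hb
    (fun z => by
      refine (km_norm_dbar _ z).trans ?_
      rw [fderiv_mul (km_diff hx z) (km_diff hη.1.1 z)]
      have n1 : ‖cx χ z • fderiv ℝ η z‖ ≤ a1 := by
        rw [norm_smul]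
        have : ‖cx χ z‖ ≤ 1 := by simpa [cx] using χ3 z
        nlinarith [h1 z, norm_nonneg (fderiv ℝ η z), norm_nonneg (cx χ z)]
      have n2 : ‖η z • fderiv ℝ (cx χ) z‖ ≤ a0 * (c / r) := by
        rw [norm_smul]
        exact mul_le_mul (h0 z) (hfd z) (norm_nonneg _) ha0
      have n3 : a1 ≤ a1 / r := by rw [le_div_iff₀ hr]; nlinarith
      have := norm_add_le (cx χ z • fderiv ℝ η z) (η z • fderiv ℝ (cx χ) z)
      have e : 2 * (a1 + a0 * c) / r = 2 * (a1 / r + a0 * (c / r)) := by ring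
      rw [e]; linarith)
    (fun z hz => by
      have := km_tsupp_dbar _ (subset_tsupport _ hz)
      refine χ2 ?_
      have h2 := tsupport_mul_subset_left (f := cx χ) (g := η) this
      refine closure_mono (fun y hy => ?_) h2
      simpa [cx] using hy)
    g1 (fun z hz => g2 (subset_tsupport _ hz))
  have far' : ∀ᶠ n in l, ‖kmT S n (dbar ((1 - cx χ) * η)) g‖ ≤ r ^ 3 := by
    have := (tendsto_zero_iff_norm_tendsto_zero.1 far).eventually
      (ge_mem_nhds (show (0 : ℝ) < r ^ 3 by positivity))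
    exact this
  filter_upwards [near, far'] with n hn hf
  rw [e, km_dbar_add tn.1.1 tf.1.1, h.T_add1 n g (km_tst_dbar tn).1.2 (km_tst_dbar tf).1.2]
  refine (norm_add_le _ _).trans ?_
  nlinarith

theorem KmH.T_zero (h : KmH l U S C) {η G : Pl → ℂ} (hη : Tst U η) (hG : Tst U G) :
    Tendsto (fun n => kmT S n (dbar η) G) l (𝓝 0) := by
  obtain ⟨A, hA, hp⟩ := h.T_piece hη
  obtain ⟨b, hb, g1⟩ := km_bound hG.1.1.continuous hG.1.2
  obtain ⟨R, hR0, hR⟩ := hG.1.2.isCompact.isBounded.subset_closedBall_lt 0 (0 : Pl)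
  rw [tendsto_zero_iff_norm_tendsto_zero]
  refine tendsto_order.2 ⟨fun a ha => Eventually.of_forall fun n => ha.trans_le (norm_nonneg _),
    fun ε hε => ?_⟩
  set M := (A * b + 1) * (2 * R + 5) ^ 2 with hM
  have hM0 : 0 < M := by positivity
  set r := min 1 (ε / (2 * M)) with hr
  have hr0 : 0 < r := lt_min one_pos (by positivity)
  have hr1 : r ≤ 1 := min_le_left _ _
  have hr2 : r ≤ ε / (2 * M) := min_le_right _ _
  obtain ⟨ρ, ρ1, ρ2, ρ3, ρ4⟩ := pou r hr0
  set N : ℕ := ⌈R / r⌉₊ + 1 with hN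
  set I : Finset Site := Finset.Icc (-(N : ℤ)) N ×ˢ Finset.Icc (-(N : ℤ)) N with hI
  have hx : ∀ p, ContDiff ℝ (⊤ : ℕ∞) (cx (ρ p)) := fun p => Complex.ofRealCLM.contDiff.comp (ρ1 p).1
  have eG : G = ∑ p ∈ I, cx (ρ p) * G := by
    ext z
    rw [Finset.sum_apply]
    simp only [Pi.mul_apply, ← Finset.sum_mul]
    by_cases hz : G z = 0
    · simp [hz]
    have h1 : ∑ p ∈ I, ρ p z = 1 := by
      refine ρ4 z I fun p hp => ?_
      have h2 := mem_closedBall.1 (ρ2 p (subset_tsupport _ hp))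
      have h3 := mem_closedBall.1 (hR (subset_tsupport _ hz))
      rw [Prod.dist_eq, max_le_iff, Real.dist_eq, Real.dist_eq, abs_le, abs_le] at h2 h3
      simp only [Prod.fst_zero, Prod.snd_zero] at h2 h3
      have h4 : R / r ≤ ⌈R / r⌉₊ := Nat.le_ceil _
      rw [div_le_iff₀ hr0] at h4
      have key : ∀ (k : ℤ) (t : ℝ), -R ≤ t - 0 → t - 0 ≤ R → -r ≤ t - r * k → t - r * k ≤ r →
          k ∈ Finset.Icc (-(N : ℤ)) N := by
        intro k t a1 a2 a3 a4
        have b1 : (k : ℝ) ≤ N := by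
          rw [hN]; push_cast
          by_contra hc; push Not at hc; nlinarith
        have b2 : -(N : ℝ) ≤ k := by
          rw [hN]; push_cast
          by_contra hc; push Not at hc; nlinarith
        rw [Finset.mem_Icc]; constructor
        · exact_mod_cast b2
        · exact_mod_cast b1
      exact Finset.mem_product.2 ⟨key _ _ h3.1.1 h3.1.2 h2.1.1 h2.1.2,
        key _ _ h3.2.1 h3.2.2 h2.2.1 h2.2.2⟩
    have : ∑ p ∈ I, cx (ρ p) z = 1 := by
      simp only [cx]; exact_mod_cast h1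
    rw [this, one_mul]
  have hcard : (I.card : ℝ) * r ^ 2 ≤ (2 * R + 5) ^ 2 := by
    have h1 : I.card = (2 * N + 1) ^ 2 := by
      rw [hI, Finset.card_product, Int.card_Icc]
      have : ((N : ℤ) + 1 - -(N : ℤ)).toNat = 2 * N + 1 := by omega
      rw [this]; ring
    have h2 : (⌈R / r⌉₊ : ℝ) < R / r + 1 := Nat.ceil_lt_add_one (by positivity)
    have h3 : (2 * N + 1 : ℝ) * r ≤ 2 * R + 5 := by
      rw [hN]; push_cast
      have : R / r * r = R := by field_simp
      nlinarith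
    rw [h1]; push_cast
    rw [← mul_pow]
    exact pow_le_pow_left₀ (by positivity) h3 2
  have hev : ∀ᶠ n in l, ∀ p ∈ I, ‖kmT S n (dbar η) (cx (ρ p) * G)‖ ≤ (A * b + 1) * r ^ 3 := by
    refine (Filter.eventually_all_finset I).2 fun p _ => ?_
    refine hp _ ((r * p.1, r * p.2) : Pl) r b hr0 hr1 hb (km_tst_mul (hx p) hG) (fun z => ?_) ?_
    · rw [Pi.mul_apply, norm_mul]
      have : ‖cx (ρ p) z‖ ≤ 1 := by
        simp only [cx, Complex.norm_real, Real.norm_eq_abs]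
        exact abs_le.2 ⟨by linarith [(ρ3 p z).1], (ρ3 p z).2⟩
      nlinarith [g1 z, norm_nonneg (G z), norm_nonneg (cx (ρ p) z)]
    · refine (tsupport_mul_subset_left (f := cx (ρ p)) (g := G)).trans (Set.Subset.trans ?_ (ρ2 p))
      refine closure_mono fun y hy => ?_
      simpa [cx] using hy
  filter_upwards [hev] with n hn
  rw [eG, (h.T_sum2 n _ I _ fun p => (km_tst_mul (hx p) hG).1.2).2]
  refine ((norm_sum_le _ _).trans (Finset.sum_le_card_nsmul _ _ _ hn)).trans_lt ?_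
  rw [nsmul_eq_mul]
  have h1 : (I.card : ℝ) * ((A * b + 1) * r ^ 3) = (A * b + 1) * (I.card * r ^ 2) * r := by ring
  have h2 : (A * b + 1) * (I.card * r ^ 2) * r ≤ M * r :=
    mul_le_mul_of_nonneg_right (mul_le_mul_of_nonneg_left hcard (by positivity)) hr0.le
  have h3 : M * r ≤ ε / 2 := by
    have := mul_le_mul_of_nonneg_left hr2 hM0.le
    have e : M * (ε / (2 * M)) = ε / 2 := by field_simp
    linarith
  linarith

theorem KmH.main (h : KmH l U S C) {U' : Set Pl} (hU' : IsOpen U') (hUU : U' ⊆ U) {η G : Pl → ℂ}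
    (hη : Tst U η) (hG : Tst U' G) (h1 : ∀ z ∈ U', η z = 1) :
    Tendsto (fun n => S n (dbar η) G) l (𝓝 0) := by
  have up : ∀ {g}, Tst U' g → Tst U g := fun hg => ⟨hg.1, hg.2.trans hUU⟩
  have hs : tsupport (dbar η) ⊆ U'ᶜ := by
    refine closure_minimal (fun p hp hp' => hp ?_) hU'.isClosed_compl
    exact km_dbar_zero (c := 1) (by filter_upwards [hU'.mem_nhds hp'] with y hy using h1 y hy)
  have d0 := km_tst_dbar hη
  have d1 := km_tst_mul kmZ_smooth d0
  have d2 := km_tst_mul kmZ_smooth d1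
  have hd : ∀ {f g : Pl → ℂ}, tsupport f ⊆ tsupport (dbar η) → Tst U' g →
      Disjoint (tsupport f) (tsupport g) := fun hf hg =>
    Set.disjoint_left.2 fun z hz hz' => hs (hf hz) (hg.2 hz')
  have u0 : ∀ {g}, Tst U' g → Tendsto (fun n => S n (dbar η) (dbar g)) l (𝓝 0) :=
    fun hg => h.hR _ _ d0 (up hg) (hd subset_rfl hg)
  have u1 : ∀ {g}, Tst U' g → Tendsto (fun n => S n (kmZ * dbar η) (dbar g)) l (𝓝 0) :=
    fun hg => h.hR _ _ d1 (up hg) (hd (km_tsupp_mul _ _) hg)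
  have u2 : ∀ {g}, Tst U' g → Tendsto (fun n => S n (kmZ * (kmZ * dbar η)) (dbar g)) l (𝓝 0) :=
    fun hg => h.hR _ _ d2 (up hg) (hd ((km_tsupp_mul _ _).trans (km_tsupp_mul _ _)) hg)
  have ex : ∀ n f {g}, Tst U' g → S n f (kmB * dbar g) = S n f (dbar (kmB * g)) - 2 * S n f g := by
    intro n f g hg
    rw [km_Bmul_dbar hg.1.1, h.a2 n _ _ _ (km_tst_dbar (km_tst_mul kmB_smooth hg)).1.2
      (km_tst_smul _ hg).1.2, h.s2 n _ _ _ hg.1.2]
    simp only [map_neg, map_ofNat]; ring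
  have W : ∀ {g}, Tst U' g →
      Tendsto (fun n => S n (kmZ * dbar η) g - S n (dbar η) (kmB * g)) l (𝓝 0) := by
    intro g hg
    have g1 := km_tst_mul kmB_smooth hg
    have g2 := km_tst_mul kmB_smooth g1
    have t := h.T_zero hη (up (km_tst_dbar hg))
    have := (((t.sub (u2 hg)).add ((u1 g1).const_mul 2)).sub (u0 g2)).const_mul (1 / 4)
    simp only [sub_zero, mul_zero, add_zero] at this
    refine this.congr fun n => ?_
    have e : kmB * (kmB * dbar g) = kmB * dbar (kmB * g) + (-2 : ℂ) • (kmB * g) := by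
      rw [km_Bmul_dbar hg.1.1]; ext p; simp; ring
    rw [kmT, ex n _ hg, e, h.a2 n _ _ _ (km_tst_mul kmB_smooth (km_tst_dbar g1)).1.2
      (km_tst_smul _ g1).1.2, h.s2 n _ _ _ g1.1.2, ex n _ g1]
    simp only [map_neg, map_ofNat]; ring
  have := (((W (km_tst_dbar hG)).sub (u1 hG)).add (u0 (km_tst_mul kmB_smooth hG))).const_mul (1 / 2)
  simp only [sub_zero, mul_zero, add_zero] at this
  refine this.congr fun n => ?_
  rw [ex n _ hG]; ring

end

/-- No singularity on the diagonal away from contact terms.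
Put `S n f g = B f g + B (I f) (I g) + I * (B f (I g) - B (I f) g)`, complex linear in `f` and
conjugate linear in `g`, `z p = p.1 + p.2 I`, `U k G = S (z^k * dbar η) G` and
`T G = U 2 G - 2 U 1 (conj z * G) + U 0 (conj z ^2 * G)`.
(1) `T G → 0` for `G ∈ Tst U'`: split `G = ∑ ρ p * G` with `pou r`; for the piece with centre `w`
split `η = η χ + η (1 - χ)` with `cutoff w r`.  Since `z^k dbar f = dbar (z^k f)`, the far part
tends to zero by `hL`.  The near part is unchanged when `z` is replaced by `z - z w`, so by `hbd`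
it is eventually `O (r^2 * (1/r) * r * r) = O (r^3)`; there are `O (r⁻²)` pieces; let `r → 0`.
(2) `U k (dbar χ) → 0` for `χ ∈ Tst U'` by `hR` (`tsupport (dbar η)` misses the open set `U'`).
(3) `dbar (conj z * χ) = conj z * dbar χ + 2 χ`.  (1) for `dbar χ` and (2) give
`U 1 χ - U 0 (conj z * χ) → 0`; this for `dbar χ` gives `U 0 χ → 0`.  Take real parts. -/
theorem km {ι : Type} (l : Filter ι) (U U' : Set Pl) (hU' : IsOpen U') (hUU : U' ⊆ U)
    (B : ι → (Pl → ℂ) → (Pl → ℂ) → ℝ) (C : ℝ)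
    (ha1 : ∀ n f f' g, HasCompactSupport f → HasCompactSupport f' →
      B n (f + f') g = B n f g + B n f' g)
    (ha2 : ∀ n f g g', HasCompactSupport g → HasCompactSupport g' →
      B n f (g + g') = B n f g + B n f g')
    (hs1 : ∀ n (c : ℝ) f g, HasCompactSupport f → B n (c • f) g = c * B n f g)
    (hs2 : ∀ n (c : ℝ) f g, HasCompactSupport g → B n f (c • g) = c * B n f g)
    (hbd : ∀ (f g : Pl → ℂ) (a b r s : ℝ) (p q : Pl), 0 < r → 0 < s → (∀ z, ‖f z‖ ≤ a) →
      (∀ z, f z ≠ 0 → z ∈ closedBall p r) → (∀ z, ‖g z‖ ≤ b) →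
      (∀ z, g z ≠ 0 → z ∈ closedBall q s) → ∀ᶠ n in l, |B n f g| ≤ C * (a * r) * (b * s))
    (hL : ∀ f g, Tst U f → Tst U g → Disjoint (tsupport f) (tsupport g) →
      Tendsto (fun n => B n (dbar f) g) l (𝓝 0))
    (hR : ∀ f g, Tst U f → Tst U g → Disjoint (tsupport f) (tsupport g) →
      Tendsto (fun n => B n f (dbar g)) l (𝓝 0))
    (η G : Pl → ℂ) (hη : Tst U η) (hG : Tst U' G) (h1 : ∀ z ∈ U', η z = 1) :
    Tendsto (fun n => B n (dbar η) G + B n (Complex.I • dbar η) (Complex.I • G)) l (𝓝 0) := by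
  have hs : ∀ (c : ℂ) {u : Pl → ℂ}, HasCompactSupport u → HasCompactSupport (c • u) :=
    fun c u hu => hu.mul_left (f := fun _ => c)
  have hsr : ∀ (c : ℝ) {u : Pl → ℂ}, HasCompactSupport u → HasCompactSupport (c • u) :=
    fun c u hu => by
      have : c • u = (c : ℂ) • u := by ext p; simp
      rw [this]; exact hs _ hu
  have dec : ∀ (c : ℂ) (u : Pl → ℂ), c • u = c.re • u + c.im • (Complex.I • u) := by
    intro c u; ext p
    simp only [Pi.smul_apply, Pi.add_apply, smul_eq_mul, Complex.real_smul]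
    conv_lhs => rw [← Complex.re_add_im c]
    ring
  have decI : ∀ (c : ℂ) (u : Pl → ℂ),
      Complex.I • c • u = (-c.im) • u + c.re • (Complex.I • u) := by
    intro c u; rw [smul_smul, dec]; simp
  have c1 : ∀ n (c : ℂ) f g, HasCompactSupport f →
      B n (c • f) g = c.re * B n f g + c.im * B n (Complex.I • f) g ∧
      B n (Complex.I • c • f) g = -c.im * B n f g + c.re * B n (Complex.I • f) g := by
    intro n c f g hf
    rw [decI, dec c, ha1 n _ _ _ (hsr _ hf) (hsr _ (hs _ hf)),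
      ha1 n _ _ _ (hsr _ hf) (hsr _ (hs _ hf))]
    simp only [hs1 n _ _ _ hf, hs1 n _ _ _ (hs _ hf), and_self]
  have c2 : ∀ n (c : ℂ) f g, HasCompactSupport g →
      B n f (c • g) = c.re * B n f g + c.im * B n f (Complex.I • g) ∧
      B n f (Complex.I • c • g) = -c.im * B n f g + c.re * B n f (Complex.I • g) := by
    intro n c f g hg
    rw [decI, dec c, ha2 n _ _ _ (hsr _ hg) (hsr _ (hs _ hg)),
      ha2 n _ _ _ (hsr _ hg) (hsr _ (hs _ hg))]
    simp only [hs2 n _ _ _ hg, hs2 n _ _ _ (hs _ hg), and_self]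
  set S : ι → (Pl → ℂ) → (Pl → ℂ) → ℂ := fun n f g =>
    ⟨B n f g + B n (Complex.I • f) (Complex.I • g),
      B n f (Complex.I • g) - B n (Complex.I • f) g⟩ with hS
  have lim : ∀ {u v : ι → (Pl → ℂ)}, Tendsto (fun n => B n (u n) (v n)) l (𝓝 0) →
      Tendsto (fun n => B n (Complex.I • u n) (Complex.I • v n)) l (𝓝 0) →
      Tendsto (fun n => B n (u n) (Complex.I • v n)) l (𝓝 0) →
      Tendsto (fun n => B n (Complex.I • u n) (v n)) l (𝓝 0) →
      Tendsto (fun n => S n (u n) (v n)) l (𝓝 0) := by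
    intro u v t1 t2 t3 t4
    have a := (Complex.continuous_ofReal.tendsto _).comp (t1.add t2)
    have b := ((Complex.continuous_ofReal.tendsto _).comp (t3.sub t4)).mul_const Complex.I
    have := a.add b
    simp only [add_zero, sub_zero, Complex.ofReal_zero, zero_mul] at this
    refine this.congr fun n => ?_
    apply Complex.ext <;> simp [hS]
  have H : KmH l U S (4 * |C|) := by
    refine ⟨by positivity, ?_, ?_, ?_, ?_, ?_, ?_, ?_⟩
    · intro n f f' g hf hf'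
      apply Complex.ext <;>
        simp only [hS, smul_add, ha1 n _ _ _ hf hf', ha1 n _ _ _ (hs _ hf) (hs _ hf'),
          Complex.add_re, Complex.add_im] <;> ring
    · intro n f g g' hg hg'
      apply Complex.ext <;>
        simp only [hS, smul_add, ha2 n _ _ _ hg hg', ha2 n _ _ _ (hs _ hg) (hs _ hg'),
          Complex.add_re, Complex.add_im] <;> ring
    · intro n c f g hf
      apply Complex.ext <;>
        simp only [hS, (c1 n c f _ hf).1, (c1 n c f _ hf).2, Complex.mul_re, Complex.mul_im] <;>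
        ring
    · intro n c f g hg
      apply Complex.ext <;>
        simp only [hS, (c2 n c _ g hg).1, (c2 n c _ g hg).2, Complex.mul_re, Complex.mul_im,
          Complex.conj_re, Complex.conj_im] <;> ring
    · intro f g a b r s p q hr hs' f1 f2 g1 g2
      have f1' : ∀ z, ‖(Complex.I • f) z‖ ≤ a := fun z => by simpa using f1 z
      have f2' : ∀ z, (Complex.I • f) z ≠ 0 → z ∈ closedBall p r :=
        fun z hz => f2 z (right_ne_zero_of_mul hz)
      have g1' : ∀ z, ‖(Complex.I • g) z‖ ≤ b := fun z => by simpa using g1 z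
      have g2' : ∀ z, (Complex.I • g) z ≠ 0 → z ∈ closedBall q s :=
        fun z hz => g2 z (right_ne_zero_of_mul hz)
      have ha : 0 ≤ a := (norm_nonneg _).trans (f1 0)
      have hb : 0 ≤ b := (norm_nonneg _).trans (g1 0)
      filter_upwards [hbd f g a b r s p q hr hs' f1 f2 g1 g2,
        hbd _ _ a b r s p q hr hs' f1' f2' g1' g2', hbd _ _ a b r s p q hr hs' f1 f2 g1' g2',
        hbd _ _ a b r s p q hr hs' f1' f2' g1 g2] with n e1 e2 e3 e4
      have hC : C * (a * r) * (b * s) ≤ |C| * (a * r) * (b * s) := by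
        gcongr; exact le_abs_self C
      refine (Complex.norm_le_abs_re_add_abs_im _).trans ?_
      simp only [hS]
      have := abs_add_le (B n f g) (B n (Complex.I • f) (Complex.I • g))
      have := abs_sub (B n f (Complex.I • g)) (B n (Complex.I • f) g)
      linarith
    · intro f g hf hg hd
      have fI := km_tst_smul Complex.I hf
      have gI := km_tst_smul Complex.I hg
      have e := km_dbar_smul hf.1.1 Complex.I
      refine lim (hL _ _ hf hg hd) ?_ (hL _ _ hf gI (hd.mono_right (km_tsupp_smul _ _))) ?_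
      · rw [← e]; exact hL _ _ fI gI (hd.mono (km_tsupp_smul _ _) (km_tsupp_smul _ _))
      · rw [← e]; exact hL _ _ fI hg (hd.mono_left (km_tsupp_smul _ _))
    · intro f g hf hg hd
      have fI := km_tst_smul Complex.I hf
      have gI := km_tst_smul Complex.I hg
      have e := km_dbar_smul hg.1.1 Complex.I
      refine lim (hR _ _ hf hg hd) ?_ ?_ (hR _ _ fI hg (hd.mono_left (km_tsupp_smul _ _)))
      · rw [← e]; exact hR _ _ fI gI (hd.mono (km_tsupp_smul _ _) (km_tsupp_smul _ _))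
      · rw [← e]; exact hR _ _ hf gI (hd.mono_right (km_tsupp_smul _ _))
  have := (Complex.continuous_re.tendsto _).comp (H.main hU' hUU hη hG h1)
  simpa [hS, Function.comp_def] using this

end Vale.Agent.P163
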