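import Vale.Agent.P163.FormB
import Vale.Agent.P163.KM

open MvPolynomial Filter Topology Metric

namespace Vale.Agent.P163

variable {β : ℝ} {E : Alg →ₗ[ℝ] ℝ}

theorem comm_tsupp_cx (φ : Pl → ℝ) : tsupport (cx φ) = tsupport φ := by
  unfold tsupport
  congr 1
  ext p; simp [cx]

theorem comm_pt_bx {l : ℕ} (hl : 1 ≤ l) {x : Site} (hx : x ∈ bx l) :
    pt l x ∈ closedBall (0 : Pl) (3 / 2) := by
  rw [mem_bx] at hx
  have hl' : (1 : ℝ) ≤ l := by exact_mod_cast hl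
  have key : ∀ t : ℤ, |t| ≤ l → |((t : ℝ) + 1 / 2) / l| ≤ 3 / 2 := by
    intro t ht
    have ht' : |(t : ℝ)| ≤ l := by exact_mod_cast ht
    rw [abs_div, abs_of_pos (by linarith : (0 : ℝ) < l), div_le_iff₀ (by linarith), abs_le]
    rw [abs_le] at ht'
    constructor <;> linarith [ht'.1, ht'.2]
  rw [mem_closedBall_zero_iff, Prod.norm_def, max_le_iff]
  exact ⟨key _ hx.1, key _ hx.2⟩

theorem comm_pt_shift {l : ℕ} (hl : 1 ≤ l) (m : ℕ) (x : Site) :
    pt l x = pt l (x - (2 * (m : ℤ) * l, 0)) + (2 * (m : ℝ), 0) := by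
  have hl' : (l : ℝ) ≠ 0 := by positivity
  ext
  · simp [pt]; field_simp; ring
  · simp [pt]

theorem comm_tr_fb (i : Fin 3) (l : ℕ) (s : Site) :
    tr s (fb E i l) = (Real.sqrt (vb E l))⁻¹ • sf i (sh s (ind (bx l))) := by
  rw [fb, map_smul, sf, tr_lc _ (fun s x => tr_sp s i x)]; rfl

theorem comm_fb_loc {l : ℕ} (hl : 1 ≤ l) (i : Fin 3) :
    fb E i l ∈ loc {x | pt l x ∈ closedBall (0 : Pl) (3 / 2)} := by
  refine Subalgebra.smul_mem _ (lc_mem_loc _ _ fun x hx => sp_mem_loc i ?_) _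
  rw [ind_apply] at hx
  exact comm_pt_bx hl (by by_contra h; simp [h] at hx)

theorem comm_trfb_loc {l : ℕ} (hl : 1 ≤ l) (m : ℕ) (i : Fin 3) :
    tr (2 * (m : ℤ) * l, 0) (fb E i l) ∈
      loc {x | pt l x ∈ closedBall ((2 * (m : ℝ), 0) : Pl) (3 / 2)} := by
  refine act_mem_loc (comm_fb_loc hl i) _ fun x hx => ?_
  simp only [Set.mem_ofPred_eq] at hx ⊢
  rw [comm_pt_shift hl m, add_sub_cancel_right, mem_closedBall, dist_eq_norm, add_sub_cancel_right]
  exact mem_closedBall_zero_iff.1 hx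

theorem comm_far {m : ℕ} (hm : 6 ≤ m) {z : Pl}
    (hz : z ∈ closedBall ((2 * (m : ℝ), 0) : Pl) (3 / 2)) : 10 < ‖z‖ := by
  have hm' : (6 : ℝ) ≤ m := by exact_mod_cast hm
  have h1 : |z.1 - 2 * m| ≤ 3 / 2 := by
    rw [mem_closedBall, Prod.dist_eq, max_le_iff] at hz
    exact hz.1
  have h2 : |z.1| ≤ ‖z‖ := norm_fst_le z
  rw [abs_le] at h1
  linarith [le_abs_self z.1, h1.1]

theorem comm_sub_uu {m : ℕ} (hm : 6 ≤ m) {z : Pl} (h1 : 3 / 2 < ‖z‖) (h2 : ‖z‖ ≤ 10) :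
    z ∈ uu m := by
  rintro (h | h)
  · exact absurd (mem_closedBall_zero_iff.1 h) (not_le.2 h1)
  · exact absurd (comm_far hm h) (not_lt.2 h2)

theorem State.comm_exact (h : State β E) (hβ : 0 < β) (m : ℕ) (hm : 6 ≤ m) {η ψ : Pl → ℝ}
    (hη : Sm η) (hψ : Sm ψ) (h1 : tsupport η ⊆ closedBall (0 : Pl) 7 \ ball 0 2)
    (h2 : ∀ z ∈ ball (0 : Pl) 6 \ closedBall 0 3, η z = 1)
    (h3 : ∀ z ∈ closedBall (0 : Pl) 4, ψ z = 1) (h4 : tsupport ψ ⊆ closedBall (0 : Pl) 5)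
    {l : ℕ} (hl : 2 ≤ l) :
    E (jj 0 1 (fun μ => grad μ (smp l η)) * jj 0 2 (fun μ => grad μ (smp l ψ)) * ff E m l) =
      -(gb E l m / vb E l / β ^ 2) := by
  have hl0 : 0 < l := by omega
  have hl1 : 1 ≤ l := hl0
  have η0 : ∀ z, ‖z‖ < 2 ∨ 7 < ‖z‖ → η z = 0 := by
    intro z hz
    by_contra hn
    have := h1 (subset_tsupport _ hn)
    simp only [Set.mem_sdiff, mem_closedBall_zero_iff, mem_ball_zero_iff, not_lt] at this
    rcases hz with hz | hz <;> linarith [this.1, this.2]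
  have ψ0 : ∀ z, 5 < ‖z‖ → ψ z = 0 := by
    intro z hz
    by_contra hn
    exact absurd (mem_closedBall_zero_iff.1 (h4 (subset_tsupport _ hn))) (not_le.2 hz)
  have a1 : genf 0 1 (smp l η) (fb E 2 l) = 0 :=
    genf_eq_zero _ _ (comm_fb_loc hl1 2) _ fun x hx => by
      rw [smp_apply hl0 hη.2]
      exact η0 _ (Or.inl ((mem_closedBall_zero_iff.1 hx).trans_lt (by norm_num)))
  have a2 : genf 0 1 (smp l η) (tr (2 * (m : ℤ) * l, 0) (fb E 1 l)) = 0 :=
    genf_eq_zero _ _ (comm_trfb_loc hl1 m 1) _ fun x hx => by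
      rw [smp_apply hl0 hη.2]
      exact η0 _ (Or.inr (by linarith [comm_far hm hx]))
  have a3 : genf 0 1 (smp l η) (jj 0 2 fun μ => grad μ (smp l ψ)) =
      -jj 1 2 fun μ => grad μ (smp l ψ) := by
    refine genf_jj _ _ fun μ x hx => ?_
    rw [grad_apply, smp_apply hl0 hψ.2, smp_apply hl0 hψ.2, sub_ne_zero] at hx
    have hd : dist (pt l (x + ee μ)) (pt l x) ≤ 1 / 2 := by
      have := dist_pt hl0 x (x + ee μ) 1 (by fin_cases μ <;> simp [bl, ee])
      refine this.trans ?_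
      have hl' : (2 : ℝ) ≤ l := by exact_mod_cast hl
      push_cast
      exact one_div_le_one_div_of_le (by norm_num) hl'
    rw [dist_eq_norm] at hd
    have n1 := norm_sub_norm_le (pt l (x + ee μ)) (pt l x)
    have n2 := norm_sub_norm_le (pt l x) (pt l (x + ee μ))
    rw [norm_sub_rev] at n2
    have b1 : 4 < ‖pt l x‖ ∨ 4 < ‖pt l (x + ee μ)‖ := by
      by_contra hc; push Not at hc
      exact hx (by rw [h3 _ (mem_closedBall_zero_iff.2 hc.1), h3 _ (mem_closedBall_zero_iff.2 hc.2)])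
    have b2 : ‖pt l x‖ ≤ 5 ∨ ‖pt l (x + ee μ)‖ ≤ 5 := by
      by_contra hc; push Not at hc
      exact hx (by rw [ψ0 _ hc.1, ψ0 _ hc.2])
    rw [smp_apply hl0 hη.2, smp_apply hl0 hη.2]
    constructor <;> refine h2 _ ?_ <;>
      simp only [Set.mem_sdiff, mem_closedBall_zero_iff, mem_ball_zero_iff, not_le] <;>
      rcases b1 with b1 | b1 <;> rcases b2 with b2 | b2 <;> constructor <;> linarith
  have a4 : genf 1 2 (smp l ψ) (tr (2 * (m : ℤ) * l, 0) (fb E 1 l)) = 0 :=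
    genf_eq_zero _ _ (comm_trfb_loc hl1 m 1) _ fun x hx => by
      rw [smp_apply hl0 hψ.2]
      exact ψ0 _ (by linarith [comm_far hm hx])
  have a5 : genf 1 2 (smp l ψ) (fb E 2 l) = fb E 1 l := by
    rw [fb, Derivation.map_smul, genf_sf 1 2 2 _ _ fun x hx => ?_]
    · simp [fb]
    · rw [ind_apply] at hx
      have hx' : x ∈ bx l := by by_contra h; simp [h] at hx
      rw [smp_apply hl0 hψ.2]
      exact h3 _ (closedBall_subset_closedBall (by norm_num) (comm_pt_bx hl1 hx'))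
  have w1 := h.wardf 0 1 (smp l η) (jj 0 2 (fun μ => grad μ (smp l ψ)) * ff E m l)
  have w2 := h.wardf 1 2 (smp l ψ) (ff E m l)
  have e1 : genf 0 1 (smp l η) (jj 0 2 (fun μ => grad μ (smp l ψ)) * ff E m l) =
      -(jj 1 2 (fun μ => grad μ (smp l ψ)) * ff E m l) := by
    rw [Derivation.leibniz, a3, ff, Derivation.leibniz, a1, a2]
    simp only [smul_eq_mul]; ring
  have e2 : E (genf 1 2 (smp l ψ) (ff E m l)) = gb E l m / vb E l := by
    rw [ff, Derivation.leibniz, a4, a5, comm_tr_fb, smul_zero, zero_add, smul_eq_mul, fb,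
      smul_mul_smul_comm, map_smul, smul_eq_mul]
    rw [mul_comm (sf 1 _), h.two1, ← mul_inv, Real.mul_self_sqrt (h.vb_nonneg l), gb]
    field_simp
  rw [e1, map_neg, ← mul_assoc] at w1
  rw [e2] at w2
  rw [w2]
  field_simp
  linarith

/-- two curls decouple when one test function is supported away from the blocks and from the
gradient of the other: `bb_curl`, `dbar_I`, `bb_left` with `f = I • cx φ`, `g = I • dbar (cx ψ)` -/
theorem State.cc_left (h : State β E) (hβ : 0 < β) (m : ℕ) (hm : 2 ≤ m) {φ ψ : Pl → ℝ}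
    (hφ : Sm φ) (hψ : Sm ψ) (h1 : tsupport φ ⊆ uu m) (h2 : tsupport (dbar (cx ψ)) ⊆ uu m)
    (hd : Disjoint (tsupport φ) (tsupport (dbar (cx ψ)))) :
    Tendsto (fun l => E (cv 0 1 l φ * cv 0 2 l ψ * ff E m l)) atTop (𝓝 0) := by
  have t := h.bb_left hβ m hm (Complex.I • cx φ) (Complex.I • dbar (cx ψ))
    (km_tst_smul _ ⟨hφ.toCx, by rwa [comm_tsupp_cx]⟩) (km_tst_smul _ ⟨hψ.toCx.toDbar, h2⟩)
    (hd.mono ((km_tsupp_smul _ _).trans (comm_tsupp_cx φ).le) (km_tsupp_smul _ _))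
  rw [dbar_I hφ.toCx] at t
  simpa using (h.bb_curl m hφ hψ).add t

theorem State.cc_right (h : State β E) (hβ : 0 < β) (m : ℕ) (hm : 2 ≤ m) {φ ψ : Pl → ℝ}
    (hφ : Sm φ) (hψ : Sm ψ) (h1 : tsupport ψ ⊆ uu m) (h2 : tsupport (dbar (cx φ)) ⊆ uu m)
    (hd : Disjoint (tsupport ψ) (tsupport (dbar (cx φ)))) :
    Tendsto (fun l => E (cv 0 1 l φ * cv 0 2 l ψ * ff E m l)) atTop (𝓝 0) := by
  have t := h.bb_right hβ m hm (Complex.I • dbar (cx φ)) (Complex.I • cx ψ)
    (km_tst_smul _ ⟨hφ.toCx.toDbar, h2⟩) (km_tst_smul _ ⟨hψ.toCx, by rwa [comm_tsupp_cx]⟩)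
    (hd.symm.mono (km_tsupp_smul _ _) ((km_tsupp_smul _ _).trans (comm_tsupp_cx ψ).le))
  rw [dbar_I hψ.toCx] at t
  simpa using (h.bb_curl m hφ hψ).add t

/-- The commutator of two loop integrals.  `km` with `U = uu m`,
`U' = ball 0 6 \ closedBall 0 3`, `G = dbar (cx ψ)`, together with `bb_curl`, `bb_grad`, and two
exact Ward identities for large `l`:
`β * E (jj 0 1 (grad η) * (jj 0 2 (grad ψ) * ff)) = - E (jj 1 2 (grad ψ) * ff)` (`genf_jj`; `η`
vanishes on both blocks) and `β * E (jj 1 2 (grad ψ) * ff) = gb E l m / vb E l` (`genf_sf`,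
`two1`; `ψ` is one on the first block and zero on the second). -/
theorem State.commutator (h : State β E) (hβ : 0 < β) (m : ℕ) (hm : 6 ≤ m) {η ψ : Pl → ℝ}
    (hη : Sm η) (hψ : Sm ψ) (h1 : tsupport η ⊆ closedBall (0 : Pl) 7 \ ball 0 2)
    (h2 : ∀ z ∈ ball (0 : Pl) 6 \ closedBall 0 3, η z = 1)
    (h3 : ∀ z ∈ closedBall (0 : Pl) 4, ψ z = 1) (h4 : tsupport ψ ⊆ closedBall (0 : Pl) 5) :
    Tendsto (fun l => E (cv 0 1 l η * cv 0 2 l ψ * ff E m l) - gb E l m / vb E l / β ^ 2)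
      atTop (𝓝 0) := by
  obtain ⟨C, hC⟩ := h.bb_bound m
  have hm2 : 2 ≤ m := by omega
  have hG : Tst (ball (0 : Pl) 6 \ closedBall 0 3) (dbar (cx ψ)) := by
    refine ⟨hψ.toCx.toDbar, fun z hz => ?_⟩
    have z1 : ‖z‖ ≤ 5 :=
      mem_closedBall_zero_iff.1 (h4 ((comm_tsupp_cx ψ).le (tsupport_dbar _ hz)))
    have z2 : z ∉ ball (0 : Pl) 4 := by
      refine closure_minimal (s := Function.support (dbar (cx ψ))) (t := (ball (0 : Pl) 4)ᶜ)
        (fun p hp hp' => hp ?_) isOpen_ball.isClosed_compl hz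
      refine km_dbar_zero (c := 1) ?_
      filter_upwards [isOpen_ball.mem_nhds hp'] with y hy
      simp [cx, h3 y (ball_subset_closedBall hy)]
    simp only [Set.mem_sdiff, mem_closedBall_zero_iff, mem_ball_zero_iff, not_le, not_lt] at z2 ⊢
    constructor <;> linarith
  have t := km atTop (uu m) (ball (0 : Pl) 6 \ closedBall 0 3) (isOpen_ball.sdiff isClosed_closedBall)
    (fun z hz => by
      simp only [Set.mem_sdiff, mem_closedBall_zero_iff, mem_ball_zero_iff, not_le] at hz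
      exact comm_sub_uu hm (by linarith [hz.2]) (by linarith [hz.1]))
    (fun l => bb E m l) C
    (fun n f f' g hf hf' => by simp only [bb, jv_add _ _ _ hf hf', add_mul, map_add])
    (fun n f g g' hg hg' => by simp only [bb, jv_add _ _ _ hg hg', add_mul, mul_add, map_add])
    (fun n c f g hf => by simp only [bb, jv_smul _ _ _ _ hf, smul_mul_assoc, map_smul, smul_eq_mul])
    (fun n c f g hg => by
      simp only [bb, jv_smul _ _ _ _ hg, smul_mul_assoc, mul_smul_comm, map_smul, smul_eq_mul])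
    hC (h.bb_left hβ m hm2) (h.bb_right hβ m hm2) (cx η) (dbar (cx ψ))
    ⟨hη.toCx, fun z hz => by
      have := h1 ((comm_tsupp_cx η).le hz)
      simp only [Set.mem_sdiff, mem_closedBall_zero_iff, mem_ball_zero_iff, not_lt] at this
      exact comm_sub_uu hm (by linarith [this.2]) (by linarith [this.1])⟩
    hG (fun z hz => by simp [cx, h2 z hz])
  have := (t.add (h.bb_curl m hη hψ)).add (h.bb_grad m hη hψ)
  simp only [add_zero] at this
  refine this.congr' ?_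
  filter_upwards [eventually_ge_atTop 2] with l hl
  rw [h.comm_exact hβ m hm hη hψ h1 h2 h3 h4 hl]
  ring

end Vale.Agent.P163
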