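import Vale.Agent.P163.DefsA

open MeasureTheory Filter Topology

namespace Vale.Agent.P163

/-! Abstract Ginibre inequalities.  Let `Cn` be the closure in the Banach algebra `C(X, ℝ)` of the
finite sums of nonnegative multiples of products of the functions `u i + v i`, `u i - v i`.
`Cn` is closed under sums, products, nonnegative scalars and `exp` (power series in the Banach
algebra, `NormedSpace.exp`, or uniform convergence), it contains `u i = ((u+v)+(u-v))/2`, and
the integral is nonnegative on it (hypothesis `hQ` and continuity of the integral).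
If `A + B` and `A - B` lie in `Cn` then `A ^ n + B ^ n`, `A ^ n - B ^ n` do (induction with
`U u ± V v = ((U+V)(u ± v) + (U-V)(u ∓ v))/2`), hence `exp A - exp B` does. -/

section ConeAux
variable {X : Type} [TopologicalSpace X] [CompactSpace X]

/-- closed cones that are stable under products -/
structure ConeIs (S : Set C(X, ℝ)) : Prop where
  one : (1 : C(X, ℝ)) ∈ S
  add : ∀ {f g}, f ∈ S → g ∈ S → f + g ∈ S
  mul : ∀ {f g}, f ∈ S → g ∈ S → f * g ∈ S
  smul : ∀ {c : ℝ} {f}, 0 ≤ c → f ∈ S → c • f ∈ S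
  closed : IsClosed S

/-- the exponential of a continuous function -/
noncomputable def coneEx (f : C(X, ℝ)) : C(X, ℝ) := ⟨fun x => Real.exp (f x), by fun_prop⟩

theorem cone_hasSum (f : C(X, ℝ)) :
    HasSum (fun n : ℕ => ((n.factorial : ℝ)⁻¹) • f ^ n) (coneEx f) := by
  have h1 := NormedSpace.exp_series_hasSum_exp' (𝕂 := ℝ) f
  have h2 : NormedSpace.exp f = coneEx f := by
    ext x
    have h3 := (ContinuousMap.evalCLM ℝ x : C(X, ℝ) →L[ℝ] ℝ).hasSum h1
    have h4 := NormedSpace.exp_series_hasSum_exp' (𝕂 := ℝ) (f x)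
    rw [← Real.exp_eq_exp_ℝ] at h4
    exact h3.unique h4
  rwa [h2] at h1

variable {S : Set C(X, ℝ)}

theorem ConeIs.zero (h : ConeIs S) : (0 : C(X, ℝ)) ∈ S := by
  simpa using h.smul le_rfl h.one

theorem ConeIs.sum (h : ConeIs S) {κ : Type} (s : Finset κ) {f : κ → C(X, ℝ)}
    (hf : ∀ e, f e ∈ S) : ∑ e ∈ s, f e ∈ S :=
  Finset.sum_induction f (· ∈ S) (fun _ _ => h.add) h.zero fun e _ => hf e

theorem ConeIs.of_hasSum (h : ConeIs S) {f : ℕ → C(X, ℝ)} {g : C(X, ℝ)} (hs : HasSum f g)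
    (hf : ∀ n, f n ∈ S) : g ∈ S :=
  h.closed.mem_of_tendsto hs.tendsto_sum_nat (Eventually.of_forall fun _ => h.sum _ hf)

theorem ConeIs.pair (h : ConeIs S) {A B a b : C(X, ℝ)} (h1 : A + B ∈ S) (h2 : A - B ∈ S)
    (h3 : a + b ∈ S) (h4 : a - b ∈ S) : A * a + B * b ∈ S ∧ A * a - B * b ∈ S := by
  constructor
  · have : A * a + B * b = (1 / 2 : ℝ) • ((A + B) * (a + b) + (A - B) * (a - b)) := by
      ext x; simp; ring
    rw [this]
    exact h.smul (by norm_num) (h.add (h.mul h1 h3) (h.mul h2 h4))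
  · have : A * a - B * b = (1 / 2 : ℝ) • ((A + B) * (a - b) + (A - B) * (a + b)) := by
      ext x; simp; ring
    rw [this]
    exact h.smul (by norm_num) (h.add (h.mul h1 h4) (h.mul h2 h3))

theorem ConeIs.one_pair (h : ConeIs S) : (1 : C(X, ℝ)) + 1 ∈ S ∧ (1 : C(X, ℝ)) - 1 ∈ S :=
  ⟨h.add h.one h.one, by simpa using h.zero⟩

theorem ConeIs.left (h : ConeIs S) {A B : C(X, ℝ)} (h1 : A + B ∈ S) (h2 : A - B ∈ S) : A ∈ S := by
  have : A = (1 / 2 : ℝ) • ((A + B) + (A - B)) := by ext x; simp; ring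
  rw [this]
  exact h.smul (by norm_num) (h.add h1 h2)

theorem ConeIs.ex_sub (h : ConeIs S) {A B : C(X, ℝ)} (h1 : A + B ∈ S) (h2 : A - B ∈ S) :
    coneEx A - coneEx B ∈ S := by
  have hp : ∀ n : ℕ, A ^ n + B ^ n ∈ S ∧ A ^ n - B ^ n ∈ S := fun n => by
    induction n with
    | zero => simpa only [pow_zero] using h.one_pair
    | succ n ih => simpa only [pow_succ] using h.pair ih.1 ih.2 h1 h2
  refine h.of_hasSum ((cone_hasSum A).sub (cone_hasSum B)) fun n => ?_
  rw [← smul_sub]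
  exact h.smul (by positivity) (hp n).2

theorem ConeIs.ex (h : ConeIs S) {A : C(X, ℝ)} (h1 : A ∈ S) : coneEx A ∈ S := by
  refine h.of_hasSum (cone_hasSum A) fun n => h.smul (by positivity) ?_
  induction n with
  | zero => simpa only [pow_zero] using h.one
  | succ n ih => simpa only [pow_succ] using h.mul ih h1

theorem ConeIs.prod_pair (h : ConeIs S) {ι : Type} {U V : ι → C(X, ℝ)}
    (h1 : ∀ i, U i + V i ∈ S) (h2 : ∀ i, U i - V i ∈ S) (l : List ι) :
    (l.map U).prod + (l.map V).prod ∈ S ∧ (l.map U).prod - (l.map V).prod ∈ S := by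
  induction l with
  | nil => simpa only [List.map_nil, List.prod_nil] using h.one_pair
  | cons i l ih => simpa only [List.map_cons, List.prod_cons] using h.pair (h1 i) (h2 i) ih.1 ih.2

omit [CompactSpace X] in
theorem cone_prod_apply {ι : Type} (U : ι → C(X, ℝ)) (l : List ι) (x : X) :
    (l.map U).prod x = (l.map fun i => U i x).prod := by
  induction l with
  | nil => rfl
  | cons i l ih => simp only [List.map_cons, List.prod_cons, ContinuousMap.mul_apply, ih]

variable [MeasurableSpace X] [BorelSpace X] (μ : Measure X) [IsFiniteMeasure μ]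

theorem cone_integrable (f : C(X, ℝ)) : Integrable f μ :=
  (BoundedContinuousFunction.mkOfCompact f).integrable μ

theorem cone_cont_int : Continuous fun f : C(X, ℝ) => ∫ x, f x ∂μ := by
  refine (LipschitzWith.of_dist_le_mul (K := (μ.real Set.univ).toNNReal) fun f g => ?_).continuous
  rw [Real.dist_eq, ← integral_sub (cone_integrable μ f) (cone_integrable μ g),
    ← Real.norm_eq_abs, Real.coe_toNNReal _ measureReal_nonneg, dist_eq_norm, mul_comm]
  exact norm_integral_le_of_norm_le_const (ae_of_all _ fun x => (f - g).norm_coe_le_norm x)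

theorem cone_exists {ι : Type} (w : ι → C(X, ℝ))
    (hQ : ∀ l : List ι, 0 ≤ ∫ x, (l.map fun e => w e x).prod ∂μ) :
    ∃ S : Set C(X, ℝ), ConeIs S ∧ (∀ e, w e ∈ S) ∧ ∀ f ∈ S, 0 ≤ ∫ x, f x ∂μ := by
  let P : Set C(X, ℝ) := {f | ∀ l : List ι, 0 ≤ ∫ x, (f * (l.map w).prod) x ∂μ}
  have hP1 : (1 : C(X, ℝ)) ∈ P := fun l => by
    simpa only [one_mul, cone_prod_apply] using hQ l
  refine ⟨{f | ∀ g ∈ P, f * g ∈ P}, ⟨fun g hg => by simpa using hg, fun {f f'} hf hf' g hg l => ?_,
    fun {f f'} hf hf' g hg => ?_, fun {c f} hc hf g hg l => ?_, ?_⟩, fun e g hg l => ?_,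
    fun f hf => ?_⟩
  · rw [add_mul, add_mul]
    simp only [ContinuousMap.add_apply]
    rw [integral_add (cone_integrable μ _) (cone_integrable μ _)]
    exact add_nonneg (hf g hg l) (hf' g hg l)
  · rw [mul_assoc]
    exact hf _ (hf' g hg)
  · rw [smul_mul_assoc, smul_mul_assoc]
    simp only [ContinuousMap.smul_apply, smul_eq_mul]
    rw [integral_const_mul]
    exact mul_nonneg hc (hf g hg l)
  · have hPc : IsClosed P := by
      simp only [P, Set.ofPred_forall]
      exact isClosed_iInter fun l =>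
        isClosed_le continuous_const ((cone_cont_int μ).comp (by fun_prop))
    simp only [Set.ofPred_forall]
    exact isClosed_iInter fun g => isClosed_iInter fun _ =>
      hPc.preimage (f := fun f : C(X, ℝ) => f * g) (by fun_prop)
  · have := hg (e :: l)
    rwa [List.map_cons, List.prod_cons, ← mul_assoc, mul_comm g] at this
  · simpa using hf 1 hP1 []

theorem cone_exists2 {ι : Type} (U V : ι → C(X, ℝ))
    (hQ : ∀ l : List (ι × Bool), 0 ≤ ∫ x, (l.map fun e => U e.1 x + sg e.2 * V e.1 x).prod ∂μ) :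
    ∃ S : Set C(X, ℝ), ConeIs S ∧ (∀ i, U i + V i ∈ S) ∧ (∀ i, U i - V i ∈ S) ∧
      ∀ f g : C(X, ℝ), f - g ∈ S → ∫ x, g x ∂μ ≤ ∫ x, f x ∂μ := by
  obtain ⟨S, hS, hw, hi⟩ := cone_exists μ (fun e : ι × Bool => U e.1 + sg e.2 • V e.1) hQ
  refine ⟨S, hS, fun i => ?_, fun i => ?_, fun f g hfg => ?_⟩
  · simpa [sg] using hw (i, true)
  · simpa [sg, sub_eq_add_neg] using hw (i, false)
  · have := hi _ hfg
    simp only [ContinuousMap.sub_apply] at this
    rwa [integral_sub (cone_integrable μ _) (cone_integrable μ _), sub_nonneg] at this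

end ConeAux

/-- With `d = J1 - J4`, `g = J2 - J4`, `e = J3 - J2 - d` the difference of the integrands is
`exp (J4 (u+v) + g u) * (exp ((d+e) u) - exp (d v))`. -/
theorem cone_S {X ι κ : Type} [TopologicalSpace X] [CompactSpace X] [MeasurableSpace X]
    [BorelSpace X] (μ : Measure X) [IsFiniteMeasure μ] [Fintype κ] (u v : ι → X → ℝ)
    (hu : ∀ i, Continuous (u i)) (hv : ∀ i, Continuous (v i))
    (hQ : ∀ l : List (ι × Bool), 0 ≤ ∫ x, (l.map fun e => u e.1 x + sg e.2 * v e.1 x).prod ∂μ)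
    (t : κ → ι) (J1 J2 J3 J4 : κ → ℝ) (h4 : ∀ e, 0 ≤ J4 e) (h41 : ∀ e, J4 e ≤ J1 e)
    (h42 : ∀ e, J4 e ≤ J2 e) (h : ∀ e, J1 e - J4 e ≤ J3 e - J2 e) :
    ∫ x, Real.exp (∑ e, (J1 e * v (t e) x + J2 e * u (t e) x)) ∂μ ≤
      ∫ x, Real.exp (∑ e, (J3 e * u (t e) x + J4 e * v (t e) x)) ∂μ := by
  let U : ι → C(X, ℝ) := fun i => ⟨u i, hu i⟩
  let V : ι → C(X, ℝ) := fun i => ⟨v i, hv i⟩
  obtain ⟨S, hS, hp, hm, hi⟩ := cone_exists2 μ U V hQ
  have hU : ∀ i, U i ∈ S := fun i => hS.left (hp i) (hm i)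
  let A : C(X, ℝ) := ∑ e, (J3 e - J2 e) • U (t e)
  let B : C(X, ℝ) := ∑ e, (J1 e - J4 e) • V (t e)
  let W : C(X, ℝ) := ∑ e, (J4 e • (U (t e) + V (t e)) + (J2 e - J4 e) • U (t e))
  have hW : W ∈ S := hS.sum _ fun e =>
    hS.add (hS.smul (h4 e) (hp _)) (hS.smul (sub_nonneg.2 (h42 e)) (hU _))
  have h1 : A + B ∈ S := by
    have : A + B = ∑ e, ((J1 e - J4 e) • (U (t e) + V (t e)) +
        (J3 e - J2 e - (J1 e - J4 e)) • U (t e)) := by
      rw [← Finset.sum_add_distrib]
      exact Finset.sum_congr rfl fun e _ => by module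
    rw [this]
    exact hS.sum _ fun e =>
      hS.add (hS.smul (sub_nonneg.2 (h41 e)) (hp _)) (hS.smul (sub_nonneg.2 (h e)) (hU _))
  have h2 : A - B ∈ S := by
    have : A - B = ∑ e, ((J1 e - J4 e) • (U (t e) - V (t e)) +
        (J3 e - J2 e - (J1 e - J4 e)) • U (t e)) := by
      rw [← Finset.sum_sub_distrib]
      exact Finset.sum_congr rfl fun e _ => by module
    rw [this]
    exact hS.sum _ fun e =>
      hS.add (hS.smul (sub_nonneg.2 (h41 e)) (hm _)) (hS.smul (sub_nonneg.2 (h e)) (hU _))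
  have h3 := hS.mul (hS.ex hW) (hS.ex_sub h1 h2)
  rw [mul_sub] at h3
  have h5 := hi _ _ h3
  have e1 : ∀ x, (coneEx W * coneEx B) x =
      Real.exp (∑ e, (J1 e * v (t e) x + J2 e * u (t e) x)) := fun x => by
    simp only [coneEx, ContinuousMap.mul_apply, ContinuousMap.coe_mk, ← Real.exp_add, W, B,
      ContinuousMap.coe_sum, Finset.sum_apply, ContinuousMap.add_apply, ContinuousMap.smul_apply,
      smul_eq_mul, U, V, ← Finset.sum_add_distrib]
    congr 1
    exact Finset.sum_congr rfl fun e _ => by ring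
  have e2 : ∀ x, (coneEx W * coneEx A) x =
      Real.exp (∑ e, (J3 e * u (t e) x + J4 e * v (t e) x)) := fun x => by
    simp only [coneEx, ContinuousMap.mul_apply, ContinuousMap.coe_mk, ← Real.exp_add, W, A,
      ContinuousMap.coe_sum, Finset.sum_apply, ContinuousMap.add_apply, ContinuousMap.smul_apply,
      smul_eq_mul, U, V, ← Finset.sum_add_distrib]
    congr 1
    exact Finset.sum_congr rfl fun e _ => by ring
  simpa only [e1, e2] using h5

/-- `∏ u ± ∏ v` and `exp (J' (u+v) + (J-J') u)` lie in the cone. -/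
theorem cone_M {X ι κ : Type} [TopologicalSpace X] [CompactSpace X] [MeasurableSpace X]
    [BorelSpace X] (μ : Measure X) [IsFiniteMeasure μ] [Fintype κ] (u v : ι → X → ℝ)
    (hu : ∀ i, Continuous (u i)) (hv : ∀ i, Continuous (v i))
    (hQ : ∀ l : List (ι × Bool), 0 ≤ ∫ x, (l.map fun e => u e.1 x + sg e.2 * v e.1 x).prod ∂μ)
    (t : κ → ι) (J J' : κ → ℝ) (h0 : ∀ e, 0 ≤ J' e) (h : ∀ e, J' e ≤ J e) (l : List ι) :
    |∫ x, (l.map fun i => v i x).prod * Real.exp (∑ e, (J e * u (t e) x + J' e * v (t e) x)) ∂μ| ≤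
      ∫ x, (l.map fun i => u i x).prod *
        Real.exp (∑ e, (J e * u (t e) x + J' e * v (t e) x)) ∂μ := by
  let U : ι → C(X, ℝ) := fun i => ⟨u i, hu i⟩
  let V : ι → C(X, ℝ) := fun i => ⟨v i, hv i⟩
  obtain ⟨S, hS, hp, hm, hi⟩ := cone_exists2 μ U V hQ
  have hU : ∀ i, U i ∈ S := fun i => hS.left (hp i) (hm i)
  let W : C(X, ℝ) := ∑ e, (J' e • (U (t e) + V (t e)) + (J e - J' e) • U (t e))
  have hW : W ∈ S := hS.sum _ fun e =>
    hS.add (hS.smul (h0 e) (hp _)) (hS.smul (sub_nonneg.2 (h e)) (hU _))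
  have e1 : ∀ x, coneEx W x = Real.exp (∑ e, (J e * u (t e) x + J' e * v (t e) x)) := fun x => by
    simp only [coneEx, ContinuousMap.coe_mk, W,
      ContinuousMap.coe_sum, Finset.sum_apply, ContinuousMap.add_apply, ContinuousMap.smul_apply,
      smul_eq_mul, U, V]
    congr 1
    exact Finset.sum_congr rfl fun e _ => by ring
  obtain ⟨h1, h2⟩ := hS.prod_pair hp hm l
  have h3 := hS.mul h1 (hS.ex hW)
  have h4 := hS.mul h2 (hS.ex hW)
  rw [add_mul, ← sub_neg_eq_add] at h3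
  rw [sub_mul] at h4
  have h5 := hi _ _ h3
  have h6 := hi _ _ h4
  simp only [ContinuousMap.mul_apply, ContinuousMap.neg_apply, cone_prod_apply, e1, integral_neg,
    U, V, ContinuousMap.coe_mk] at h5 h6
  exact abs_le.2 ⟨by linarith, h6⟩

end Vale.Agent.P163
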