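import Vale.Agent.P163.Comm

open MvPolynomial Filter Topology Metric

namespace Vale.Agent.P163

variable {β : ℝ} {E : Alg →ₗ[ℝ] ℝ}

theorem deform_tsupp {φ : Pl → ℝ} {W : Set Pl} (hW : IsOpen W) (h : ∀ z ∈ W, φ z = 0) :
    tsupport φ ⊆ Wᶜ :=
  closure_minimal (fun z hz hz' => hz (h z hz')) hW.isClosed_compl

theorem deform_tsupp_dbar {φ : Pl → ℝ} {W : Set Pl} (hW : IsOpen W) (h : ∀ z ∈ W, φ z = 1) :
    tsupport (dbar (cx φ)) ⊆ Wᶜ := by
  refine closure_minimal (s := Function.support (dbar (cx φ))) (fun p hp hp' => hp ?_)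
    hW.isClosed_compl
  refine km_dbar_zero (c := 1) ?_
  filter_upwards [hW.mem_nhds hp'] with y hy
  simp [cx, h y hy]

theorem deform_zero {φ : Pl → ℝ} {c : Pl} {r : ℝ} (h : tsupport φ ⊆ closedBall c r) {z : Pl}
    (hz : r < dist z c) : φ z = 0 := by
  by_contra hn
  exact absurd (mem_closedBall.1 (h (subset_tsupport _ hn))) (not_le.2 hz)

theorem deform_sm_sub {φ ψ : Pl → ℝ} (hφ : Sm φ) (hψ : Sm ψ) : Sm fun p => φ p - ψ p :=
  ⟨hφ.1.sub hψ.1, by
    have := hφ.2.add (hψ.2.comp_left (g := fun t : ℝ => -t) (by simp))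
    simpa [sub_eq_add_neg, Function.comp_def, Pi.add_def] using this⟩

theorem deform_cv_sub (i j : Fin 3) (l : ℕ) {φ ψ : Pl → ℝ} (hφ : Sm φ) (hψ : Sm ψ) :
    cv i j l (fun p => φ p - ψ p) = cv i j l φ - cv i j l ψ := by
  rw [cv, smp_sub l hφ.2 hψ.2, map_sub]; rfl

/-- Take `ψ`, `φ1` from `even_bump 4 5`, `even_bump 6 7`, `φm p = φ0 (p - (2m, 0))`, `Φ` from
`big (2m + 8) ε'`, and `η = φ1 - φ0` in `commutator`.  Write `c φ ψ` for the curl curl correlation.
`c φ1 ψ = c Φ ψ - c φm ψ - c (Φ - φm - φ1) ψ`, `c φm ψ = c φm φ0 + c φm (ψ - φ0)`, and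
`c φ0 ψ = c φ0 Φ - c φ0 φm - c φ0 (Φ - φm - ψ)`; the terms with `Φ` alone are small by `cv_bound`,
`smp_h1f`, the last terms tend to zero by `cc_left`, `cc_right`.  Finally
`cv l φm = tr (2 m l, 0) (cv l φ0)` (`smp_shift`, `tr_lc`). -/
theorem State.deform (h : State β E) (hβ : 0 < β) (m : ℕ) (hm : 6 ≤ m) {φ0 : Pl → ℝ}
    (hφ : Sm φ0) (h1 : ∀ z ∈ closedBall (0 : Pl) 2, φ0 z = 1)
    (h2 : tsupport φ0 ⊆ closedBall (0 : Pl) 3) (ε : ℝ) (hε : 0 < ε) :
    ∀ᶠ l : ℕ in atTop, gb E l m / vb E l ≤ β ^ 2 *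
      (|E (cv 0 2 l φ0 * fb E 2 l * tr (2 * (m : ℤ) * l, 0) (cv 0 1 l φ0 * fb E 1 l))| +
       |E (cv 0 1 l φ0 * fb E 2 l * tr (2 * (m : ℤ) * l, 0) (cv 0 2 l φ0 * fb E 1 l))|) + ε := by
  have hm2 : 2 ≤ m := by omega
  have hm' : (6 : ℝ) ≤ m := by exact_mod_cast hm
  obtain ⟨ψ, hψ, ψ1, ψ2, -⟩ := even_bump 4 5 (by norm_num) (by norm_num)
  obtain ⟨φ1, hφ1, φ11, φ12, -⟩ := even_bump 6 7 (by norm_num) (by norm_num)
  set c : Pl := (2 * (m : ℝ), 0) with hc
  set φm : Pl → ℝ := fun p => φ0 (p - c) with hφm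
  have hsm : Sm φm := ⟨hφ.1.comp (contDiff_id.sub contDiff_const),
    hφ.2.comp_homeomorph (Homeomorph.subRight c)⟩
  have m1 : ∀ z ∈ closedBall c 2, φm z = 1 := fun z hz =>
    h1 _ (by rwa [mem_closedBall_zero_iff, ← dist_eq_norm])
  have m2 : tsupport φm ⊆ closedBall c 3 := by
    refine closure_minimal (fun z hz => ?_) isClosed_closedBall
    have := h2 (subset_tsupport _ hz)
    rwa [mem_closedBall_zero_iff, ← dist_eq_norm] at this
  have hcn : dist (0 : Pl) c = 2 * m := by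
    rw [dist_comm, dist_zero_right, hc, Prod.norm_def]
    simp
  have tri : ∀ z : Pl, 12 ≤ dist z 0 + dist z c := fun z => by
    have := dist_triangle_left (0 : Pl) c z
    linarith
  have tri2 : ∀ z : Pl, dist z 0 ≤ dist z c + 2 * m := fun z => by
    have := dist_triangle z c 0
    rw [dist_comm c, hcn] at this; exact this
  have huu : ∀ z : Pl, 2 ≤ dist z 0 → 2 ≤ dist z c → z ∈ uu m := by
    rintro z a b (h | h) <;> have := mem_closedBall.1 h <;> linarith
  obtain ⟨C, hC0, hC⟩ := h.cv_bound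
  obtain ⟨K1, hK1⟩ := smp_h1f hψ
  obtain ⟨K2, hK2⟩ := smp_h1f hφ
  set ε1 := ε / (6 * β ^ 2) with hε1
  have ε0 : 0 < ε1 := by positivity
  set K := Real.sqrt (max K1 K2) + 1 with hK
  have K0 : 0 < K := by positivity
  obtain ⟨Φ, hΦ, Φ1, Φ2⟩ := big (2 * m + 8) ((ε1 / ((C + 1) * K)) ^ 2) (by positivity)
  have Φ0 : ∀ z : Pl, dist z 0 ≤ 2 * m + 8 → Φ z = 1 := fun z hz => Φ1 z (mem_closedBall.2 hz)
  have dψ : ∀ z ∈ tsupport (dbar (cx ψ)), 4 ≤ dist z 0 ∧ dist z 0 ≤ 5 := fun z hz =>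
    ⟨not_lt.1 (deform_tsupp_dbar isOpen_ball (fun y hy => ψ1 y (ball_subset_closedBall hy)) hz),
      mem_closedBall.1 (ψ2 ((comm_tsupp_cx ψ).le (tsupport_dbar _ hz)))⟩
  have d0 : ∀ z ∈ tsupport (dbar (cx φ0)), 2 ≤ dist z 0 ∧ dist z 0 ≤ 3 := fun z hz =>
    ⟨not_lt.1 (deform_tsupp_dbar isOpen_ball (fun y hy => h1 y (ball_subset_closedBall hy)) hz),
      mem_closedBall.1 (h2 ((comm_tsupp_cx φ0).le (tsupport_dbar _ hz)))⟩
  have dm : ∀ z ∈ tsupport (dbar (cx φm)), 2 ≤ dist z c ∧ dist z c ≤ 3 := fun z hz =>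
    ⟨not_lt.1 (deform_tsupp_dbar isOpen_ball (fun y hy => m1 y (ball_subset_closedBall hy)) hz),
      mem_closedBall.1 (m2 ((comm_tsupp_cx φm).le (tsupport_dbar _ hz)))⟩
  have sη := deform_sm_sub hφ1 hφ
  have s1 := deform_sm_sub (deform_sm_sub hΦ hsm) hφ1
  have s2 := deform_sm_sub hψ hφ
  have s3 := deform_sm_sub (deform_sm_sub hΦ hsm) hψ
  have away : ∀ {χ : Pl → ℝ} {a b : ℝ}, (∀ z ∈ closedBall (0 : Pl) a, χ z = 1) →
      tsupport χ ⊆ closedBall (0 : Pl) b → a ≤ 7 → b ≤ 7 →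
      ∀ z ∈ tsupport (fun p => Φ p - φm p - χ p), a ≤ dist z 0 ∧ 2 ≤ dist z c := by
    intro χ a b c1 c2 ha hb z hz
    have := deform_tsupp (φ := fun p => Φ p - φm p - χ p) (W := ball 0 a ∪ ball c 2)
      (isOpen_ball.union isOpen_ball) (by
        rintro y (hy | hy)
        · have := mem_ball.1 hy
          simp only [Φ0 y (by linarith), c1 y (ball_subset_closedBall hy),
            deform_zero m2 (show 3 < dist y c by linarith [tri y])]
          norm_num
        · have := mem_ball.1 hy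
          simp only [Φ0 y (by linarith [tri2 y]), m1 y (ball_subset_closedBall hy),
            deform_zero c2 (show b < dist y 0 by linarith [tri y])]
          norm_num) hz
    simp only [Set.mem_compl_iff, Set.mem_union, mem_ball, not_or, not_lt] at this
    exact this
  have inner : ∀ {χ : Pl → ℝ} {a b : ℝ}, (∀ z ∈ closedBall (0 : Pl) a, χ z = 1) →
      tsupport χ ⊆ closedBall (0 : Pl) b → 2 ≤ a → 3 ≤ b →
      ∀ z ∈ tsupport (fun p => χ p - φ0 p), 2 ≤ dist z 0 ∧ dist z 0 ≤ b := by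
    intro χ a b c1 c2 ha hb z hz
    have := deform_tsupp (φ := fun p => χ p - φ0 p) (W := ball 0 2 ∪ (closedBall 0 b)ᶜ)
      (isOpen_ball.union isClosed_closedBall.isOpen_compl) (by
        rintro y (hy | hy)
        · have := mem_ball.1 hy
          simp only [h1 y (ball_subset_closedBall hy), c1 y (mem_closedBall.2 (by linarith))]
          norm_num
        · have : b < dist y 0 := not_le.1 hy
          simp only [deform_zero c2 this, deform_zero h2 (show 3 < dist y 0 by linarith)]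
          norm_num) hz
    simp only [Set.mem_compl_iff, Set.mem_union, mem_ball, mem_closedBall, not_or, not_lt,
      not_not] at this
    exact this
  have t0 := h.commutator hβ m hm sη hψ
    (fun z hz => by
      have := inner φ11 φ12 (by norm_num) (by norm_num) z hz
      exact ⟨mem_closedBall.2 this.2, fun h => absurd (mem_ball.1 h) (not_lt.2 this.1)⟩)
    (fun z hz => by
      rw [φ11 z (ball_subset_closedBall hz.1), deform_zero h2 (not_le.1 hz.2), sub_zero]) ψ1 ψ2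
  have t1 := h.cc_left hβ m hm2 s1 hψ
    (fun z hz => by
      have := away φ11 φ12 (by norm_num) le_rfl z hz
      exact huu z (by linarith [this.1]) this.2)
    (fun z hz => by have := dψ z hz; exact huu z (by linarith [this.1]) (by linarith [tri z]))
    (Set.disjoint_left.2 fun z hz hz' => by
      have := away φ11 φ12 (by norm_num) le_rfl z hz
      linarith [this.1, (dψ z hz').2])
  have t2 := h.cc_right hβ m hm2 hsm s2
    (fun z hz => by
      have := inner ψ1 ψ2 (by norm_num) (by norm_num) z hz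
      exact huu z this.1 (by linarith [tri z]))
    (fun z hz => by have := dm z hz; exact huu z (by linarith [tri z]) this.1)
    (Set.disjoint_left.2 fun z hz hz' => by
      have := inner ψ1 ψ2 (by norm_num) (by norm_num) z hz
      linarith [this.2, (dm z hz').2, tri z])
  have t3 := h.cc_right hβ m hm2 hφ s3
    (fun z hz => by
      have := away ψ1 ψ2 (by norm_num) (by norm_num) z hz
      exact huu z (by linarith [this.1]) this.2)
    (fun z hz => by have := d0 z hz; exact huu z this.1 (by linarith [tri z]))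
    (Set.disjoint_left.2 fun z hz hz' => by
      have := away ψ1 ψ2 (by norm_num) (by norm_num) z hz
      linarith [this.1, (d0 z hz').2])
  have small : ∀ {u : ℕ → ℝ}, Tendsto u atTop (𝓝 0) → ∀ᶠ l in atTop, |u l| ≤ ε1 := fun hu =>
    (tendsto_zero_iff_abs_tendsto_zero _ |>.1 hu).eventually (ge_mem_nhds ε0)
  have bigb : ∀ a b : ℝ, a ≤ (ε1 / ((C + 1) * K)) ^ 2 → b ≤ max K1 K2 →
      C * Real.sqrt a * Real.sqrt b ≤ ε1 := by
    intro a b ha hb
    have e1 : Real.sqrt a ≤ ε1 / ((C + 1) * K) := Real.sqrt_le_iff.2 ⟨by positivity, ha⟩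
    have e2 : Real.sqrt b ≤ K := (Real.sqrt_le_sqrt hb).trans (by rw [hK]; linarith)
    calc C * Real.sqrt a * Real.sqrt b ≤ (C + 1) * (ε1 / ((C + 1) * K)) * K := by
          gcongr; linarith
      _ = ε1 := by field_simp
  filter_upwards [small t0, small t1, small t2, small t3, hK1, hK2, Φ2] with l a0 a1 a2 a3 k1 k2 kΦ
  have b1 := (hC m l Φ ψ).trans (bigb _ _ kΦ (k1.trans (le_max_left _ _)))
  have b2 := ((hC m l φ0 Φ).trans (mul_right_comm _ _ _).le).trans
    (bigb _ _ kΦ (k2.trans (le_max_right _ _)))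
  have sh : ∀ i j, cv i j l φm = tr (2 * (m : ℤ) * l, 0) (cv i j l φ0) := fun i j => by
    rw [cv, cv, tr_lc _ (fun s x => tr_rot s i j x), hφm, hc, smp_shift l m hφ.2]
  have e1 : cv 0 2 l φ0 * fb E 2 l * tr (2 * (m : ℤ) * l, 0) (cv 0 1 l φ0 * fb E 1 l) =
      cv 0 1 l φm * cv 0 2 l φ0 * ff E m l := by rw [sh, map_mul, ff]; ring
  have e2 : cv 0 1 l φ0 * fb E 2 l * tr (2 * (m : ℤ) * l, 0) (cv 0 2 l φ0 * fb E 1 l) =
      cv 0 1 l φ0 * cv 0 2 l φm * ff E m l := by rw [sh, map_mul, ff]; ring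
  rw [e1, e2]
  rw [deform_cv_sub _ _ _ hφ1 hφ] at a0
  rw [deform_cv_sub _ _ _ (deform_sm_sub hΦ hsm) hφ1, deform_cv_sub _ _ _ hΦ hsm] at a1
  rw [deform_cv_sub _ _ _ hψ hφ] at a2
  rw [deform_cv_sub _ _ _ (deform_sm_sub hΦ hsm) hψ, deform_cv_sub _ _ _ hΦ hsm] at a3
  simp only [sub_mul, mul_sub, map_sub] at a0 a1 a2 a3
  rw [_root_.abs_le] at a0 a1 a2 a3 b1 b2
  have n1 := neg_abs_le (E (cv 0 1 l φm * cv 0 2 l φ0 * ff E m l))
  have n2 := neg_abs_le (E (cv 0 1 l φ0 * cv 0 2 l φm * ff E m l))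
  have n3 := le_abs_self (E (cv 0 1 l φ0 * cv 0 2 l φm * ff E m l))
  have key : gb E l m / vb E l / β ^ 2 ≤ |E (cv 0 1 l φm * cv 0 2 l φ0 * ff E m l)| +
      |E (cv 0 1 l φ0 * cv 0 2 l φm * ff E m l)| + 6 * ε1 := by
    linarith [a0.1, a0.2, a1.1, a1.2, a2.1, a2.2, a3.1, a3.2, b1.1, b1.2, b2.1, b2.2]
  rw [div_le_iff₀ (by positivity)] at key
  have e : 6 * ε1 * β ^ 2 = ε := by rw [hε1]; field_simp
  nlinarith

end Vale.Agent.P163
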