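import Vale.Agent.P163.Defs

open MeasureTheory Filter Topology

namespace Vale.Agent.P163

/-! ### Spins in the unit sphere of four space, polar coordinates, finite volume integrals -/

abbrev S4 := {v : Fin 4 → ℝ // ∑ i, v i ^ 2 = 1}

instance : CompactSpace S4 := by
  refine isCompact_iff_compactSpace.1 ?_
  refine Metric.isCompact_of_isClosed_isBounded ?_ ?_
  · exact isClosed_eq (by fun_prop) continuous_const
  · refine (Metric.isBounded_closedBall (x := (0 : Fin 4 → ℝ)) (r := 1)).subset fun v hv => ?_
    rw [mem_closedBall_zero_iff, pi_norm_le_iff_of_nonneg zero_le_one]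
    intro i
    have h : v i ^ 2 ≤ 1 := by
      have h1 : v i ^ 2 ≤ ∑ i, v i ^ 2 :=
        Finset.single_le_sum (f := fun i => v i ^ 2) (fun _ _ => sq_nonneg _) (Finset.mem_univ i)
      exact h1.trans (le_of_eq hv)
    exact (sq_le_one_iff_abs_le_one _).1 h

noncomputable instance : MeasurableSpace Circle := borel Circle
instance : BorelSpace Circle := ⟨rfl⟩

/-- normalized Haar measure of the circle -/
noncomputable def haarC : Measure Circle := Measure.haarMeasure ⊤

instance : IsProbabilityMeasure haarC := ⟨by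
  simpa [haarC] using Measure.haarMeasure_self (G := Circle) (K₀ := ⊤)⟩

instance : Measure.IsHaarMeasure haarC := by unfold haarC; infer_instance

/-- the uniform measure on the two points 1 and -1 -/
noncomputable def isingC : Measure Circle :=
  (2 : ENNReal)⁻¹ • (Measure.dirac 1 + Measure.dirac (-1))

/-- the north pole -/
def e0 : S4 := ⟨![1, 0, 0, 0], by simp [Fin.sum_univ_four]⟩

/-- inner product -/
def dot (u v : S4) : ℝ := ∑ i, u.1 i * v.1 i

/-- polar coordinates -/
noncomputable def pol1 (r : unitInterval) (a b : Circle) : S4 :=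
  ⟨![(r : ℝ) * (a : ℂ).re, (r : ℝ) * (a : ℂ).im, Real.sqrt (1 - (r : ℝ) ^ 2) * (b : ℂ).re,
      Real.sqrt (1 - (r : ℝ) ^ 2) * (b : ℂ).im], by
    have ha : (a : ℂ).re ^ 2 + (a : ℂ).im ^ 2 = 1 := by
      have := Circle.normSq_coe a; rw [Complex.normSq_apply] at this; nlinarith
    have hb : (b : ℂ).re ^ 2 + (b : ℂ).im ^ 2 = 1 := by
      have := Circle.normSq_coe b; rw [Complex.normSq_apply] at this; nlinarith
    have hr : Real.sqrt (1 - (r : ℝ) ^ 2) ^ 2 = 1 - (r : ℝ) ^ 2 :=
      Real.sq_sqrt (by nlinarith [r.2.1, r.2.2])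
    simp only [Fin.sum_univ_four, Matrix.cons_val_zero, Matrix.cons_val_one, Matrix.cons_val]
    rw [mul_pow, mul_pow, mul_pow, mul_pow, hr]
    linear_combination (r : ℝ) ^ 2 * ha + (1 - (r : ℝ) ^ 2) * hb⟩

/-- polar coordinates at every site -/
noncomputable def pol {V : Type} (r : V → unitInterval) (a b : V → Circle) (x : V) : S4 :=
  pol1 (r x) (a x) (b x)

/-- a linear isometry acting on the sphere -/
def sph (g : (Fin 4 → ℝ) →ₗ[ℝ] (Fin 4 → ℝ)) (hg : ∀ v, ∑ i, g v i ^ 2 = ∑ i, v i ^ 2)
    (u : S4) : S4 := ⟨g u.1, (hg u.1).trans u.2⟩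

/-- real part of a character of a torus, with a phase -/
noncomputable def rc {V : Type} [Fintype V] (φ : Circle) (m : V → ℤ) (θ : V → Circle) : ℝ :=
  ((φ * ∏ x, θ x ^ m x : Circle) : ℂ).re

/-- sign of a Boolean -/
def sg (b : Bool) : ℝ := if b = true then 1 else -1

/-- restriction of a multi-index to `D` -/
def mask {V : Type} [DecidableEq V] (D : Finset V) (m : V → ℤ) (x : V) : ℤ :=
  if x ∈ D then m x else 0

/-- the Ginibre condition for a single site measure -/
def Q3 (η : Measure Circle) : Prop :=
  ∀ (V : Type) [Fintype V] (l : List ((V → ℤ) × Bool)),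
    0 ≤ ∫ p : (V → Circle) × (V → Circle),
      (l.map fun e => rc 1 e.1 p.1 + sg e.2 * rc 1 e.1 p.2).prod
        ∂((Measure.pi fun _ => η).prod (Measure.pi fun _ => η))

/-- unnormalized expectation of a product of cosines in a plane rotator type model -/
noncomputable def xy {V κ : Type} [Fintype V] [Fintype κ] (η : Measure Circle) (m : κ → V → ℤ)
    (J : κ → ℝ) (l : List (V → ℤ)) : ℝ :=
  ∫ θ, (l.map fun k => rc 1 k θ).prod * Real.exp (∑ e, J e * rc 1 (m e) θ)
    ∂(Measure.pi fun _ : V => η)

/-- the single site measure has a polar decomposition and is invariant under O(3) -/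
structure Model (om : Measure S4) (ν : Measure unitInterval) (η : Measure Circle) : Prop where
  pom : IsProbabilityMeasure om
  pnu : IsProbabilityMeasure ν
  peta : IsProbabilityMeasure η
  q3 : Q3 η
  polar : MeasurePreserving (fun p : unitInterval × Circle × Circle => pol1 p.1 p.2.1 p.2.2)
    (ν.prod (haarC.prod η)) om
  inv : ∀ (g : (Fin 4 → ℝ) →ₗ[ℝ] (Fin 4 → ℝ)) (hg : ∀ v, ∑ i, g v i ^ 2 = ∑ i, v i ^ 2),
    (∀ v, g v 3 = v 3) → MeasurePreserving (sph g hg) om om

/-- spins outside `D` are frozen to `b` -/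
def frz {V : Type} [DecidableEq V] (b : S4) (D : Finset V) (σ : V → S4) (x : V) : S4 :=
  if x ∈ D then σ x else b

/-- Hamiltonian (with the sign and the inverse temperature included) -/
def ham {V : Type} (Λ : Finset V) (K : V → V → ℝ) (σ : V → S4) : ℝ :=
  ∑ x ∈ Λ, ∑ y ∈ Λ, K x y * dot (σ x) (σ y)

/-- unnormalized expectation on a finite vertex set, plus boundary condition outside `D` -/
noncomputable def numF {V : Type} [Fintype V] [DecidableEq V] (om : Measure S4) (D : Finset V)
    (K : V → V → ℝ) (f : (V → S4) → ℝ) : ℝ :=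
  ∫ σ, f (frz e0 D σ) * Real.exp (ham Finset.univ K (frz e0 D σ)) ∂(Measure.pi fun _ : V => om)

/-- unnormalized expectation on the lattice, plus boundary condition outside `D` -/
noncomputable def num (om : Measure S4) (Λ D : Finset Site) (K : Site → Site → ℝ)
    (f : (Site → S4) → ℝ) : ℝ :=
  ∫ σ, f (frz e0 D σ) * Real.exp (ham Λ K (frz e0 D σ)) ∂(Measure.infinitePi fun _ : Site => om)

/-- first two components as a complex number, or its conjugate -/
noncomputable def zeta (b : Bool) (u : S4) : ℂ := ⟨u.1 0, sg b * u.1 1⟩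

/-- generators of the increasing observables -/
noncomputable def gA {V : Type} (p : List (V × Bool)) (σ : V → S4) : ℝ :=
  (p.map fun v => zeta v.2 (σ v.1)).prod.re

/-- increasing observables -/
noncomputable def oA {V : Type} (L : List (List (V × Bool))) (σ : V → S4) : ℝ :=
  (L.map fun p => gA p σ).prod

/-- decreasing observables -/
noncomputable def oB {V : Type} (q : List V) (σ : V → S4) : ℝ := (q.map fun x => (σ x).1 2).prod

/-- frozen radii -/
noncomputable def rt {V : Type} [DecidableEq V] (D : Finset V) (r : V → unitInterval) (x : V) : ℝ :=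
  if x ∈ D then r x else 1

/-- frozen transverse radii -/
noncomputable def rb {V : Type} [DecidableEq V] (D : Finset V) (r : V → unitInterval) (x : V) : ℝ :=
  Real.sqrt (1 - rt D r x ^ 2)

/-- character of a bond -/
def mb {V : Type} [DecidableEq V] (e : V × V) : V → ℤ := Pi.single e.1 1 - Pi.single e.2 1

/-- character of a generator -/
def mg {V : Type} [DecidableEq V] (p : List (V × Bool)) : V → ℤ :=
  (p.map fun v => (Pi.single v.1 (if v.2 = true then 1 else -1) : V → ℤ)).sum

/-- longitudinal factor at fixed radii -/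
noncomputable def xl {V : Type} [Fintype V] [DecidableEq V] (D : Finset V) (K : V → V → ℝ)
    (L : List (List (V × Bool))) (r : V → unitInterval) : ℝ :=
  (L.map fun p => (p.map fun v => rt D r v.1).prod).prod *
    xy haarC (fun e => mask D (mb e)) (fun e : V × V => K e.1 e.2 * rt D r e.1 * rt D r e.2)
      (L.map fun p => mask D (mg p))

/-- transverse factor at fixed radii -/
noncomputable def yl {V : Type} [Fintype V] [DecidableEq V] (η : Measure Circle) (D : Finset V)
    (K : V → V → ℝ) (q : List V) (r : V → unitInterval) : ℝ :=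
  (q.map fun x => rb D r x).prod *
    xy η mb (fun e : V × V => K e.1 e.2 * rb D r e.1 * rb D r e.2)
      (q.map fun x => (Pi.single x 1 : V → ℤ))

/-- evaluation of a polynomial observable -/
noncomputable def ev (P : Alg) (σ : Site → S4) : ℝ :=
  MvPolynomial.eval (fun v : Site × Fin 3 => (σ v.1).1 (Fin.castSucc v.2)) P

/-- nearest neighbour couplings, each bond counted twice with weight one half -/
noncomputable def kb (β : ℝ) (x y : Site) : ℝ :=
  if |x.1 - y.1| + |x.2 - y.2| = 1 then β / 2 else 0

/-- `D` together with its neighbours -/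
def nb (D : Finset Site) : Finset Site :=
  D.biUnion fun x => {x, x + (1, 0), x - (1, 0), x + (0, 1), x - (0, 1)}

/-- expectation with plus boundary condition -/
noncomputable def plus (om : Measure S4) (β : ℝ) (D : Finset Site) (f : (Site → S4) → ℝ) : ℝ :=
  num om (nb D) D (kb β) f / num om (nb D) D (kb β) fun _ => 1

/-- extension of a configuration on `W` by the north pole -/
def ext0 (W : Finset Site) (τ : W → S4) (x : Site) : S4 := if h : x ∈ W then τ ⟨x, h⟩ else e0

/-- symmetrized couplings, cut off outside `Λ` -/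
def symK (Λ : Finset Site) (K : Site → Site → ℝ) (x y : Site) : ℝ :=
  if x ∈ Λ ∧ y ∈ Λ then K x y + K y x else 0

/-- couplings of the free or periodic box -/
noncomputable def kx (β : ℝ) (a b : Site) (per : Bool) (x y : Site) : ℝ :=
  (if x.1 < b.1 then (if y = (x.1 + 1, x.2) then β else 0)
    else if per = true then (if y = (a.1, x.2) then β else 0) else 0) +
  (if x.2 < b.2 then (if y = (x.1, x.2 + 1) then β else 0)
    else if per = true then (if y = (x.1, a.2) then β else 0) else 0)

/-- rotation of the first plane by `a` and of the second plane by `b` -/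
noncomputable def tw (a b : Circle) (u : S4) : S4 :=
  ⟨![(a : ℂ).re * u.1 0 - (a : ℂ).im * u.1 1, (a : ℂ).im * u.1 0 + (a : ℂ).re * u.1 1,
      (b : ℂ).re * u.1 2 - (b : ℂ).im * u.1 3, (b : ℂ).im * u.1 2 + (b : ℂ).re * u.1 3], by
    have ha : (a : ℂ).re ^ 2 + (a : ℂ).im ^ 2 = 1 := by
      have := Circle.normSq_coe a; rw [Complex.normSq_apply] at this; nlinarith
    have hb : (b : ℂ).re ^ 2 + (b : ℂ).im ^ 2 = 1 := by
      have := Circle.normSq_coe b; rw [Complex.normSq_apply] at this; nlinarith
    have hu := u.2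
    simp only [Fin.sum_univ_four, Matrix.cons_val_zero, Matrix.cons_val_one, Matrix.cons_val] at hu ⊢
    linear_combination (u.1 0 ^ 2 + u.1 1 ^ 2) * ha + (u.1 2 ^ 2 + u.1 3 ^ 2) * hb + hu⟩

/-- embedding of the spheres of dimension two and three -/
noncomputable def emb (n : ℕ) (hn : n ≤ 4) (u : Spin n) : S4 :=
  ⟨fun i => if h : (i : ℕ) < n then u.1 ⟨i, h⟩ else 0, by
    have hu : ∑ i, u.1 i ^ 2 = 1 := by
      have h1 : ‖u.1‖ = 1 := by simp
      have h2 := EuclideanSpace.real_norm_sq_eq u.1
      rw [h1] at h2; linarith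
    rw [← hu]
    have : ∑ i : Fin n, u.1 i ^ 2 = ∑ i : Fin n,
        (fun j : Fin 4 => (if h : (j : ℕ) < n then u.1 ⟨j, h⟩ else 0) ^ 2) (Fin.castLE hn i) := by
      refine Finset.sum_congr rfl fun i _ => ?_
      simp
    rw [this]
    symm
    refine Finset.sum_of_injOn (Fin.castLE hn) (Fin.castLE_injective hn).injOn (by simp) ?_
      (fun _ _ => rfl)
    intro j _ hj
    have : ¬ (j : ℕ) < n := fun h => hj ⟨⟨j, h⟩, by simp, by ext; simp⟩
    simp [this]⟩

end Vale.Agent.P163
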