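import Vale.Agent.P163.Polar

open MeasureTheory Filter Topology

namespace Vale.Agent.P163

variable {V : Type} [Fintype V] [DecidableEq V] {om : Measure S4} {ν : Measure unitInterval}
  {η : Measure Circle}

theorem Dia_single (θ : V → Circle) (x : V) :
    ∏ z, θ z ^ (Pi.single x 1 : V → ℤ) z = θ x := by
  rw [Finset.prod_eq_single x]
  · simp
  · intro z _ hz
    simp [Pi.single_eq_of_ne hz]
  · simp

theorem Dia_rc (φ : Circle) (θ : V → Circle) (x y : V) : rc φ (mb (x, y)) θ =
    (φ : ℂ).re * ((θ x : ℂ).re * (θ y : ℂ).re + (θ x : ℂ).im * (θ y : ℂ).im) +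
      (φ : ℂ).im * ((θ x : ℂ).re * (θ y : ℂ).im - (θ x : ℂ).im * (θ y : ℂ).re) := by
  have h : ∏ z, θ z ^ mb (x, y) z = θ x * (θ y)⁻¹ := by
    simp only [mb, Pi.sub_apply, zpow_sub, Finset.prod_mul_distrib, Finset.prod_inv_distrib,
      Dia_single]
  unfold rc
  rw [h]
  simp only [Circle.coe_mul, Circle.coe_inv_eq_conj, Complex.mul_re, Complex.mul_im,
    Complex.conj_re, Complex.conj_im]
  ring

theorem Dia_mask (φ : Circle) (D : Finset V) (m : V → ℤ) (a : V → Circle) :
    rc φ (mask D m) a = rc φ m fun z => if z ∈ D then a z else 1 := by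
  unfold rc
  congr 3
  refine Finset.prod_congr rfl fun z _ => ?_
  by_cases hz : z ∈ D <;> simp [mask, hz]

omit [Fintype V] in
theorem Dia_comp (D : Finset V) (r : V → unitInterval) (a b : V → Circle) (x : V) :
    (frz e0 D (pol r a b) x).1 0 = rt D r x * ((if x ∈ D then a x else 1 : Circle) : ℂ).re ∧
    (frz e0 D (pol r a b) x).1 1 = rt D r x * ((if x ∈ D then a x else 1 : Circle) : ℂ).im ∧
    (frz e0 D (pol r a b) x).1 2 = rb D r x * (b x : ℂ).re ∧
    (frz e0 D (pol r a b) x).1 3 = rb D r x * (b x : ℂ).im := by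
  by_cases hx : x ∈ D
  · simp [frz, pol, pol1, rt, rb, hx]
  · simp [frz, e0, rt, rb, hx]

omit [Fintype V] in
theorem Dia_rt (D : Finset V) (r : V → unitInterval) (x : V) : 0 ≤ rt D r x ∧ rt D r x ≤ 1 := by
  unfold rt
  split_ifs
  · exact ⟨(r x).2.1, (r x).2.2⟩
  · exact ⟨zero_le_one, le_rfl⟩

theorem Dia_phase {s : ℝ} (hs : |s| ≤ 1) :
    ((Circle.exp (Real.arcsin s) : Circle) : ℂ).re = Real.sqrt (1 - s ^ 2) ∧
      ((Circle.exp (Real.arcsin s) : Circle) : ℂ).im = s := by
  rw [Circle.coe_exp, Complex.exp_ofReal_mul_I_re, Complex.exp_ofReal_mul_I_im, Real.cos_arcsin,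
    Real.sin_arcsin (abs_le.1 hs).1 (abs_le.1 hs).2]
  exact ⟨rfl, rfl⟩

theorem Dia_bond (D : Finset V) (r : V → unitInterval) (a b : V → Circle) (x y : V) {k s : ℝ}
    (hk : 0 ≤ k) (hs : |s| ≤ 1) :
    k * s * ((frz e0 D (pol r a b) x).1 0 * (frz e0 D (pol r a b) y).1 1 -
        (frz e0 D (pol r a b) x).1 1 * (frz e0 D (pol r a b) y).1 0) +
      k * dot (frz e0 D (pol r a b) x) (frz e0 D (pol r a b) y) ≤
    k * s ^ 2 +
      k * rt D r x * rt D r y * rc (Circle.exp (Real.arcsin s)) (mask D (mb (x, y))) a +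
      k * rb D r x * rb D r y * rc 1 (mb (x, y)) b := by
  obtain ⟨x0, x1, x2, x3⟩ := Dia_comp D r a b x
  obtain ⟨y0, y1, y2, y3⟩ := Dia_comp D r a b y
  obtain ⟨p1, p2⟩ := Dia_phase hs
  have hc := abs_rc_le 1 (mask D (mb (x, y))) a
  rw [Dia_mask, Dia_rc] at hc
  rw [Dia_mask, Dia_rc, Dia_rc, p1, p2]
  simp only [dot, Fin.sum_univ_four, x0, x1, x2, x3, y0, y1, y2, y3, Circle.coe_one,
    Complex.one_re, Complex.one_im, one_mul, zero_mul, add_zero] at hc ⊢
  generalize ((if x ∈ D then a x else 1 : Circle) : ℂ) = u at hc ⊢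
  generalize ((if y ∈ D then a y else 1 : Circle) : ℂ) = v at hc ⊢
  have hs2 : s ^ 2 ≤ 1 := (sq_le_one_iff_abs_le_one s).2 hs
  have q0 : 0 ≤ Real.sqrt (1 - s ^ 2) := Real.sqrt_nonneg _
  have q1 : Real.sqrt (1 - s ^ 2) ^ 2 = 1 - s ^ 2 := Real.sq_sqrt (by linarith)
  generalize Real.sqrt (1 - s ^ 2) = q at q0 q1
  have q2 : q ≤ 1 := by nlinarith [sq_nonneg s]
  have q3 : 1 - q ≤ s ^ 2 := by nlinarith
  obtain ⟨tx0, tx1⟩ := Dia_rt D r x
  obtain ⟨ty0, ty1⟩ := Dia_rt D r y
  have t0 : 0 ≤ rt D r x * rt D r y := mul_nonneg tx0 ty0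
  have t1 : rt D r x * rt D r y ≤ 1 := mul_le_one₀ tx1 ty0 ty1
  have c1 : rt D r x * rt D r y * (u.re * v.re + u.im * v.im) ≤ 1 :=
    (mul_le_mul_of_nonneg_left (abs_le.1 hc).2 t0).trans (by linarith)
  have c2 : (1 - q) * (rt D r x * rt D r y * (u.re * v.re + u.im * v.im)) ≤ s ^ 2 :=
    (mul_le_mul_of_nonneg_left c1 (by linarith)).trans (by linarith)
  have c3 := mul_le_mul_of_nonneg_left c2 hk
  nlinarith [c3]

/-- Diamagnetic bound.  Use `integral_pol`.  For `σ = frz e0 D (pol r a b)` put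
`c = σx0 σy0 + σx1 σy1 = rt x rt y re (a' x / a' y)` and
`J = σx0 σy1 - σx1 σy0 = - rt x rt y im (a' x / a' y)`.  With the phase
`φ = sqrt (1 - s^2) + i s` one has `rt rt re (φ a' x / a' y) = sqrt (1 - s^2) c + s J`, and
`c + s J ≤ sqrt (1 - s^2) c + s J + s^2` because `|c| ≤ 1` and `0 ≤ 1 - sqrt (1 - s^2) ≤ s^2`.
Then `xy_dia` for the multi-indices `mask D (mb e)` at fixed `r`, `b`. -/
theorem diaF (h : Model om ν η) (D : Finset V) (K : V → V → ℝ) (hK : ∀ x y, 0 ≤ K x y)
    (s : V → V → ℝ) (hs : ∀ x y, |s x y| ≤ 1) :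
    numF om D K (fun σ => Real.exp (∑ x, ∑ y, K x y * s x y *
        ((σ x).1 0 * (σ y).1 1 - (σ x).1 1 * (σ y).1 0))) ≤
      Real.exp (∑ x, ∑ y, K x y * s x y ^ 2) * numF om D K fun _ => 1 := by
  have := h.peta
  have := h.pnu
  have e1 : numF om D K (fun _ => 1) =
      ∫ r, xl D K [] r * yl η D K [] r ∂(Measure.pi fun _ : V => ν) := by
    rw [← numF_polar h D K [] []]
    simp [oA, oB]
  have hc : ∀ (x : V) (i : Fin 4), Continuous fun σ : V → S4 => (frz e0 D σ x).1 i :=
    fun x i => (continuous_apply i).comp (continuous_subtype_val.comp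
      ((continuous_apply x).comp (continuous_frz e0 D)))
  rw [e1, ← integral_const_mul]
  unfold numF
  have hF : Continuous fun σ : V → S4 => Real.exp (∑ x, ∑ y, K x y * s x y *
      ((frz e0 D σ x).1 0 * (frz e0 D σ y).1 1 - (frz e0 D σ x).1 1 * (frz e0 D σ y).1 0)) *
        Real.exp (ham Finset.univ K (frz e0 D σ)) :=
    (Real.continuous_exp.comp (continuous_finsetSum _ fun x _ =>
      continuous_finsetSum _ fun y _ => continuous_const.mul (((hc x 0).mul (hc y 1)).sub
        ((hc x 1).mul (hc y 0))))).mul (Real.continuous_exp.comp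
          ((continuous_ham Finset.univ K).comp (continuous_frz e0 D)))
  refine (integral_pol h _ hF).le.trans ?_
  refine integral_mono_of_nonneg (Eventually.of_forall fun r => integral_nonneg fun a =>
    integral_nonneg fun b => by positivity) (xy_int _ (continuous_const.mul
      ((continuous_xl D K []).mul (continuous_yl D K [])))) (Eventually.of_forall fun r => ?_)
  simp only [xl, yl, List.map_nil, List.prod_nil, one_mul]
  have hJ : ∀ e : V × V, 0 ≤ K e.1 e.2 * rt D r e.1 * rt D r e.2 := fun e =>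
    mul_nonneg (mul_nonneg (hK _ _) (Dia_rt D r _).1) (Dia_rt D r _).1
  have hd := xy_dia (fun e : V × V => mask D (mb e)) _ hJ
    fun e => Circle.exp (Real.arcsin (s e.1 e.2))
  have hy := (xy_pos η mb fun e : V × V => K e.1 e.2 * rb D r e.1 * rb D r e.2).le
  refine le_trans ?_ (mul_le_mul_of_nonneg_left (mul_le_mul_of_nonneg_right hd hy)
    (Real.exp_pos _).le)
  rw [← integral_mul_const, ← integral_const_mul]
  refine integral_mono_of_nonneg (Eventually.of_forall fun a =>
    integral_nonneg fun b => by positivity) (xy_int _ (continuous_const.mul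
      ((Real.continuous_exp.comp (continuous_finsetSum _ fun e _ =>
        continuous_const.mul (continuous_rc _ _))).mul continuous_const)))
    (Eventually.of_forall fun a => ?_)
  simp only [xy, List.map_nil, List.prod_nil, one_mul]
  rw [← integral_const_mul, ← integral_const_mul]
  refine integral_mono_of_nonneg (Eventually.of_forall fun b => by positivity)
    (xy_int _ (continuous_const.mul (continuous_const.mul (xy_cont_exp _ _))))
    (Eventually.of_forall fun b => ?_)
  simp only [← Real.exp_add]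
  refine Real.exp_le_exp.2 ?_
  simp only [ham, Fintype.sum_prod_type, ← Finset.sum_add_distrib]
  refine Finset.sum_le_sum fun x _ => Finset.sum_le_sum fun y _ => ?_
  have := Dia_bond D r a b x y (hK x y) (hs x y)
  linarith

end Vale.Agent.P163
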