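import Vale.Agent.P163.MW
import Vale.Agent.P163.Samp

open MvPolynomial Filter Topology Metric

namespace Vale.Agent.P163

variable {β : ℝ} {E : Alg →ₗ[ℝ] ℝ}

theorem formA_re {f : Pl → ℂ} (hf : HasCompactSupport f) :
    HasCompactSupport fun p => (f p).re := hf.comp_left (g := Complex.re) Complex.zero_re

theorem formA_im {f : Pl → ℂ} (hf : HasCompactSupport f) :
    HasCompactSupport fun p => (f p).im := hf.comp_left (g := Complex.im) Complex.zero_im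

theorem formA_vec {V W : Fin 2 → Site →₀ ℝ} (h0 : V 0 = W 0) (h1 : V 1 = W 1) : V = W := by
  funext μ
  fin_cases μ
  exacts [h0, h1]

theorem jv_add (i j : Fin 3) (l : ℕ) {f g : Pl → ℂ} (hf : HasCompactSupport f)
    (hg : HasCompactSupport g) : jv i j l (f + g) = jv i j l f + jv i j l g := by
  unfold jv
  rw [← jj_add]
  congr 1
  refine formA_vec ?_ ?_
  · show (l : ℝ)⁻¹ • smp l (fun p => (f p).re + (g p).re) = _ + _
    rw [smp_add l (formA_re hf) (formA_re hg), smul_add]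
    rfl
  · show (l : ℝ)⁻¹ • smp l (fun p => (f p).im + (g p).im) = _ + _
    rw [smp_add l (formA_im hf) (formA_im hg), smul_add]
    rfl

theorem jv_smul (i j : Fin 3) (l : ℕ) (c : ℝ) {f : Pl → ℂ} (hf : HasCompactSupport f) :
    jv i j l (c • f) = c • jv i j l f := by
  unfold jv
  rw [← jj_smul]
  congr 1
  have e1 : (fun p => ((c • f) p).re) = fun p => c * (f p).re := by
    funext p
    simp
  have e2 : (fun p => ((c • f) p).im) = fun p => c * (f p).im := by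
    funext p
    simp
  rw [e1, e2, smp_smul l c (formA_re hf), smp_smul l c (formA_im hf)]
  exact formA_vec (smul_comm _ _ _) (smul_comm _ _ _)

theorem cv_add (i j : Fin 3) (l : ℕ) {φ ψ : Pl → ℝ} (hφ : HasCompactSupport φ)
    (hψ : HasCompactSupport ψ) : cv i j l (fun p => φ p + ψ p) = cv i j l φ + cv i j l ψ := by
  unfold cv
  rw [smp_add l hφ hψ, map_add]

theorem Sm.toCx {φ : Pl → ℝ} (hφ : Sm φ) : Sm (cx φ) := by
  exact ⟨Complex.ofRealCLM.contDiff.comp hφ.1,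
    hφ.2.comp_left (g := fun t : ℝ => (t : ℂ)) Complex.ofReal_zero⟩

theorem Sm.toDbar {f : Pl → ℂ} (hf : Sm f) : Sm (dbar f) := by
  have h1 : ContDiff ℝ (⊤ : ℕ∞) (fderiv ℝ f) := hf.1.fderiv_right (by simp)
  refine ⟨(h1.clm_apply contDiff_const).add
    (contDiff_const.mul (h1.clm_apply contDiff_const)), ?_⟩
  exact ((hf.2.fderiv_apply ℝ _).add (hf.2.fderiv_apply ℝ ((0, 1) : Pl)).mul_left :)

theorem tsupport_dbar (f : Pl → ℂ) : tsupport (dbar f) ⊆ tsupport f := by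
  refine closure_minimal (fun p hp => ?_) (isClosed_tsupport f)
  by_contra hc
  have h1 : fderiv ℝ f p = 0 := by
    by_contra h2
    exact hc (support_fderiv_subset ℝ h2)
  exact hp (by simp [dbar, h1])

theorem formA_diff {F : Type} [NormedAddCommGroup F] [NormedSpace ℝ F] {f : Pl → F}
    (hf : ContDiff ℝ (⊤ : ℕ∞) f) : Differentiable ℝ f := hf.differentiable (by simp)

theorem formA_fderiv_cx {φ : Pl → ℝ} (hφ : Differentiable ℝ φ) (p v : Pl) :
    fderiv ℝ (cx φ) p v = (fderiv ℝ φ p v : ℂ) := by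
  have h : HasFDerivAt (cx φ) (Complex.ofRealCLM.comp (fderiv ℝ φ p)) p :=
    Complex.ofRealCLM.hasFDerivAt.comp p (hφ p).hasFDerivAt
  rw [h.fderiv]
  rfl

theorem dbar_cx {φ : Pl → ℝ} (hφ : Sm φ) (p : Pl) :
    dbar (cx φ) p = (pd 0 φ p : ℂ) + Complex.I * (pd 1 φ p : ℂ) := by
  have hd := formA_diff hφ.1
  unfold dbar pd
  rw [formA_fderiv_cx hd, formA_fderiv_cx hd]
  simp [ee]

theorem dbar_decomp {f : Pl → ℂ} (hf : Sm f) :
    dbar f = dbar (cx fun p => (f p).re) + Complex.I • dbar (cx fun p => (f p).im) := by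
  have hd := formA_diff hf.1
  have h1 : ∀ p v, fderiv ℝ (fun p => (f p).re) p v = (fderiv ℝ f p v).re := by
    intro p v
    have h : HasFDerivAt (fun p => (f p).re) (Complex.reCLM.comp (fderiv ℝ f p)) p :=
      Complex.reCLM.hasFDerivAt.comp p (hd p).hasFDerivAt
    rw [h.fderiv]
    rfl
  have h2 : ∀ p v, fderiv ℝ (fun p => (f p).im) p v = (fderiv ℝ f p v).im := by
    intro p v
    have h : HasFDerivAt (fun p => (f p).im) (Complex.imCLM.comp (fderiv ℝ f p)) p :=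
      Complex.imCLM.hasFDerivAt.comp p (hd p).hasFDerivAt
    rw [h.fderiv]
    rfl
  have d1 : Differentiable ℝ fun p => (f p).re := Complex.reCLM.differentiable.comp hd
  have d2 : Differentiable ℝ fun p => (f p).im := Complex.imCLM.differentiable.comp hd
  funext p
  simp only [Pi.add_apply, Pi.smul_apply, smul_eq_mul, dbar, formA_fderiv_cx d1,
    formA_fderiv_cx d2, h1, h2]
  apply Complex.ext <;> simp <;> ring

theorem dbar_I {f : Pl → ℂ} (hf : Sm f) : dbar (Complex.I • f) = Complex.I • dbar f := by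
  have hd := formA_diff hf.1
  funext p
  simp only [Pi.smul_apply, smul_eq_mul, dbar]
  rw [fderiv_const_smul (hd p)]
  simp only [ContinuousLinearMap.smul_apply, smul_eq_mul]
  ring

theorem JB.n8_jv {i j : Fin 3} (hJ : JB E i j) : ∃ c : ℝ, 0 ≤ c ∧
    ∀ (f : Pl → ℂ) (a r : ℝ) (p : Pl), 0 < r → (∀ z, ‖f z‖ ≤ a) →
      (∀ z, f z ≠ 0 → z ∈ closedBall p r) → ∀ᶠ l in atTop, N8 E (jv i j l f) (c * (a * r)) := by
  obtain ⟨c, hc, H⟩ := hJ.n8
  refine ⟨c * 5, by positivity, fun f a r p hr ha hf => ?_⟩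
  have ha0 : 0 ≤ a := (norm_nonneg _).trans (ha 0)
  filter_upwards [nsq_smp_le (fun z => (f z).re) a r hr p
      (fun z => (Complex.abs_re_le_norm _).trans (ha z))
      (fun z hz => hf z fun h0 => hz (by simp [h0])),
    nsq_smp_le (fun z => (f z).im) a r hr p
      (fun z => (Complex.abs_im_le_norm _).trans (ha z))
      (fun z hz => hf z fun h0 => hz (by simp [h0]))] with l h1 h2
  refine (H _).mono ?_
  rw [mul_assoc]
  refine mul_le_mul_of_nonneg_left (Real.sqrt_le_iff.2 ⟨by positivity, ?_⟩) hc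
  rw [Fin.sum_univ_two]
  refine (add_le_add h1 h2).trans ?_
  nlinarith [sq_nonneg (a * r)]

theorem formA_small {i j : Fin 3} (hJ : JB E i j) (V : ℕ → Fin 2 → Site →₀ ℝ)
    (h : ∀ μ, Tendsto (fun l => nsq (V l μ)) atTop (𝓝 0)) (ε : ℝ) (hε : 0 < ε) :
    ∀ᶠ l in atTop, N8 E (jj i j (V l)) ε := by
  obtain ⟨c, hc, H⟩ := hJ.n8
  have h1 : Tendsto (fun l => c * Real.sqrt (∑ μ, nsq (V l μ))) atTop
      (𝓝 (c * Real.sqrt (∑ _μ : Fin 2, 0))) :=
    (tendsto_finsetSum _ fun μ _ => h μ).sqrt.const_mul c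
  have h2 : c * Real.sqrt (∑ _μ : Fin 2, 0) < ε := by simpa using hε
  filter_upwards [h1.eventually (gt_mem_nhds h2)] with l hl
  exact (H (V l)).mono hl.le

/-- `grad_smp` -/
theorem JB.n8_grad {i j : Fin 3} (hJ : JB E i j) {φ : Pl → ℝ} (hφ : Sm φ) (ε : ℝ) (hε : 0 < ε) :
    ∀ᶠ l in atTop, N8 E (jv i j l (dbar (cx φ)) - jj i j fun μ => grad μ (smp l φ)) ε := by
  have e1 : (fun p => (dbar (cx φ) p).re) = pd 0 φ := by
    funext p
    simp [dbar_cx hφ]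
  have e2 : (fun p => (dbar (cx φ) p).im) = pd 1 φ := by
    funext p
    simp [dbar_cx hφ]
  refine (formA_small hJ (fun l μ => -(grad μ (smp l φ) - (l : ℝ)⁻¹ • smp l (pd μ φ)))
    (fun μ => by simpa only [nsq_neg] using grad_smp hφ μ) ε hε).mono fun l hl => ?_
  unfold jv
  rw [e1, e2, ← jj_sub]
  convert hl using 2
  exact formA_vec (neg_sub _ _).symm (neg_sub _ _).symm

/-- `lc_rot`, `bgrad_smp` -/
theorem JB.n8_curl {i j : Fin 3} (hJ : JB E i j) {φ : Pl → ℝ} (hφ : Sm φ) (ε : ℝ) (hε : 0 < ε) :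
    ∀ᶠ l in atTop, N8 E (jv i j l (Complex.I • dbar (cx φ)) + cv i j l φ) ε := by
  have e1 : (fun p => ((Complex.I • dbar (cx φ)) p).re) = fun p => -1 * pd 1 φ p := by
    funext p
    simp [dbar_cx hφ]
  have e2 : (fun p => ((Complex.I • dbar (cx φ)) p).im) = pd 0 φ := by
    funext p
    simp [dbar_cx hφ]
  refine (formA_small hJ (fun l => ![bgrad 1 (smp l φ) - (l : ℝ)⁻¹ • smp l (pd 1 φ),
    -(bgrad 0 (smp l φ) - (l : ℝ)⁻¹ • smp l (pd 0 φ))]) (fun μ => ?_) ε hε).mono fun l hl => ?_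
  · fin_cases μ
    · exact bgrad_smp hφ 1
    · have := bgrad_smp hφ 0
      simp only [← nsq_neg (bgrad 0 _ - _)] at this
      exact this
  · unfold jv cv
    rw [e1, e2, lc_rot, ← jj_add, smp_smul l (-1) (hφ.toPd 1).2]
    convert hl using 2
    refine formA_vec ?_ ?_
    · show (l : ℝ)⁻¹ • (-1 : ℝ) • smp l (pd 1 φ) + bgrad 1 (smp l φ) =
        bgrad 1 (smp l φ) - (l : ℝ)⁻¹ • smp l (pd 1 φ)
      module
    · show (l : ℝ)⁻¹ • smp l (pd 0 φ) + -bgrad 0 (smp l φ) =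
        -(bgrad 0 (smp l φ) - (l : ℝ)⁻¹ • smp l (pd 0 φ))
      module

theorem formA_ff (h : State β E) (m l : ℕ) {P Q : Alg} {a b : ℝ} (hP : N8 E P a)
    (hQ : N8 E Q b) : |E (P * Q * ff E m l)| ≤ a * b * 2 * 2 :=
  h.n8_mul4 hP hQ (h.n8_fb l 2 (by decide)) (h.n8_tr (h.n8_fb l 1 (by decide)) _)

theorem State.bb_bound (h : State β E) (m : ℕ) : ∃ C : ℝ,
    ∀ (f g : Pl → ℂ) (a b r s : ℝ) (p q : Pl), 0 < r → 0 < s → (∀ z, ‖f z‖ ≤ a) →
      (∀ z, f z ≠ 0 → z ∈ closedBall p r) → (∀ z, ‖g z‖ ≤ b) →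
      (∀ z, g z ≠ 0 → z ∈ closedBall q s) →
      ∀ᶠ l in atTop, |bb E m l f g| ≤ C * (a * r) * (b * s) := by
  obtain ⟨c, -, H⟩ := h.jbd.n8_jv
  obtain ⟨c', -, H'⟩ := h.jb02.n8_jv
  refine ⟨c * c' * 4, fun f g a b r s p q hr hs ha hf hb hg => ?_⟩
  filter_upwards [H f a r p hr ha hf, H' g b s q hs hb hg] with l h1 h2
  exact (formA_ff h m l h1 h2).trans (le_of_eq (by ring))

theorem formA_lim (h : State β E) (m : ℕ) {X Z : ℕ → Alg} {b : ℝ}
    (hX : ∀ ε : ℝ, 0 < ε → ∀ᶠ l in atTop, N8 E (X l) ε) (hZ : ∀ᶠ l in atTop, N8 E (Z l) b) :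
    Tendsto (fun l => E (X l * Z l * ff E m l)) atTop (𝓝 0) := by
  obtain ⟨l0, hl0⟩ := hZ.exists
  have hb : 0 ≤ b := hl0.1
  rw [Metric.tendsto_nhds]
  intro ε hε
  filter_upwards [hX (ε / (4 * b + 1)) (by positivity), hZ] with l h1 h2
  rw [Real.dist_eq, sub_zero]
  refine (formA_ff h m l h1 h2).trans_lt ?_
  have e : ε / (4 * b + 1) * b * 2 * 2 = ε * (4 * b) / (4 * b + 1) := by ring
  rw [e, div_lt_iff₀ (by positivity)]
  nlinarith

theorem formA_bd {i j : Fin 3} (hJ : JB E i j) {w : Pl → ℂ} (hw : Sm w) :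
    ∃ b : ℝ, ∀ᶠ l in atTop, N8 E (jv i j l w) b := by
  obtain ⟨c, -, H⟩ := hJ.n8_jv
  obtain ⟨a, ha⟩ := hw.1.continuous.bounded_above_of_compact_support hw.2
  obtain ⟨r, hr, hs⟩ := hw.2.isCompact.isBounded.subset_closedBall_lt 0 (0 : Pl)
  exact ⟨_, H w a r 0 hr ha fun z hz => hs (subset_tsupport _ hz)⟩

theorem formA_three (h : State β E) (m : ℕ) {X Z : ℕ → Alg} {v w : Pl → ℂ} (hv : Sm v)
    (hw : Sm w) (hX : ∀ ε : ℝ, 0 < ε → ∀ᶠ l in atTop, N8 E (X l) ε)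
    (hZ : ∀ ε : ℝ, 0 < ε → ∀ᶠ l in atTop, N8 E (Z l) ε) :
    Tendsto (fun l => E (X l * Z l * ff E m l) - E (X l * jv 0 2 l w * ff E m l) -
      E (Z l * jv 0 1 l v * ff E m l)) atTop (𝓝 0) := by
  obtain ⟨a, ha⟩ := formA_bd h.jbd hv
  obtain ⟨b, hb⟩ := formA_bd h.jb02 hw
  have := ((formA_lim h m hX (hZ 1 one_pos)).sub (formA_lim h m hX hb)).sub (formA_lim h m hZ ha)
  simpa using this

theorem formA_smI {w : Pl → ℂ} (hw : Sm w) : Sm (Complex.I • w) :=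
  ⟨hw.1.const_smul Complex.I, hw.2.smul_left (f := fun _ => Complex.I)⟩

theorem State.bb_curl (h : State β E) (m : ℕ) {φ ψ : Pl → ℝ} (hφ : Sm φ) (hψ : Sm ψ) :
    Tendsto (fun l => E (cv 0 1 l φ * cv 0 2 l ψ * ff E m l) -
      bb E m l (Complex.I • dbar (cx φ)) (Complex.I • dbar (cx ψ))) atTop (𝓝 0) := by
  refine (formA_three h m (formA_smI hφ.toCx.toDbar) (formA_smI hψ.toCx.toDbar)
    (h.jbd.n8_curl hφ) (h.jb02.n8_curl hψ)).congr fun l => ?_
  unfold bb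
  simp only [← map_sub]
  refine congrArg E ?_
  ring

theorem State.bb_grad (h : State β E) (m : ℕ) {φ ψ : Pl → ℝ} (hφ : Sm φ) (hψ : Sm ψ) :
    Tendsto (fun l => E (jj 0 1 (fun μ => grad μ (smp l φ)) * jj 0 2 (fun μ => grad μ (smp l ψ)) *
      ff E m l) - bb E m l (dbar (cx φ)) (dbar (cx ψ))) atTop (𝓝 0) := by
  refine (formA_three h m hφ.toCx.toDbar hψ.toCx.toDbar
    (h.jbd.n8_grad hφ) (h.jb02.n8_grad hψ)).congr fun l => ?_
  unfold bb
  simp only [← map_sub]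
  refine congrArg E ?_
  ring

theorem State.cv_bound (h : State β E) : ∃ C : ℝ, 0 ≤ C ∧ ∀ (m l : ℕ) (φ ψ : Pl → ℝ),
    |E (cv 0 1 l φ * cv 0 2 l ψ * ff E m l)| ≤
      C * Real.sqrt (h1f (smp l φ)) * Real.sqrt (h1f (smp l ψ)) := by
  obtain ⟨c, hc, H⟩ := h.jbd.n8_rot
  obtain ⟨c', hc', H'⟩ := h.jb02.n8_rot
  refine ⟨c * c' * 4, by positivity, fun m l φ ψ => ?_⟩
  exact (formA_ff h m l (H (smp l φ)) (H' (smp l ψ))).trans (le_of_eq (by ring))

end Vale.Agent.P163
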