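import Vale.Agent.P163.FormA
import Vale.Agent.P163.Dec

open MvPolynomial Filter Topology Metric

namespace Vale.Agent.P163

variable {β : ℝ} {E : Alg →ₗ[ℝ] ℝ}

/-! By `dbar_decomp` it suffices to treat `dbar (cx η)` and `I • dbar (cx η)` for real `η`.
First case: replace `jv` by `jj (grad (smp l η))` (`JB.n8_grad`) and use `wardf`; the generator
kills the other three factors for large `l` (`genf_eq_zero`, `sep_pt`).  Second case: replace `jv`
by `- cv` (`JB.n8_curl`), split the other current into its two components and apply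
`State.decouple` with the compact sets `tsupport g`, `closedBall 0 (3/2)`,
`closedBall (2m, 0) (3/2)` (`JB.n8`, `nsq_mono`, `nsq_smp_le`, `n8_piece`). -/

theorem formb_n8_cur {i j : Fin 3} (hJ : JB E i j) : ∃ c : ℝ, 0 ≤ c ∧
    ∀ (μ : Fin 2) (V : Site →₀ ℝ), N8 E (lc (cur i j μ) V) (c * Real.sqrt (nsq V)) := by
  obtain ⟨c, hc, h⟩ := hJ.n8
  refine ⟨c, hc, fun μ V => ?_⟩
  have h1 := h (Pi.single μ V)
  have h0 : nsq 0 = 0 := by simp [nsq]
  have e1 : jj i j (Pi.single μ V) = lc (cur i j μ) V := by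
    unfold jj
    rw [Finset.sum_eq_single μ (fun ν _ hν => by rw [Pi.single_eq_of_ne hν, map_zero])
      (fun hμ => absurd (Finset.mem_univ μ) hμ), Pi.single_eq_same]
  have e2 : ∑ ν, nsq ((Pi.single μ V : Fin 2 → Site →₀ ℝ) ν) = nsq V := by
    rw [Finset.sum_eq_single μ (fun ν _ hν => by rw [Pi.single_eq_of_ne hν, h0])
      (fun hμ => absurd (Finset.mem_univ μ) hμ), Pi.single_eq_same]
  rwa [e1, e2] at h1

/-- the two components of a complex vector field -/
noncomputable def formbC (g : Pl → ℂ) (μ : Fin 2) (p : Pl) : ℝ := ![(g p).re, (g p).im] μ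

theorem formb_C_le (g : Pl → ℂ) (μ : Fin 2) (p : Pl) : |formbC g μ p| ≤ ‖g p‖ := by
  fin_cases μ
  · exact Complex.abs_re_le_norm _
  · exact Complex.abs_im_le_norm _

theorem formb_C_ne {g : Pl → ℂ} {μ : Fin 2} {p : Pl} (h : formbC g μ p ≠ 0) : g p ≠ 0 := by
  intro h0
  have := formb_C_le g μ p
  rw [h0, norm_zero] at this
  exact h (abs_nonpos_iff.1 this)

theorem formb_C_supp (g : Pl → ℂ) (μ : Fin 2) : tsupport (formbC g μ) ⊆ tsupport g :=
  closure_mono fun _ hp => formb_C_ne hp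

theorem formb_C_cpt {g : Pl → ℂ} (hg : HasCompactSupport g) (μ : Fin 2) :
    HasCompactSupport (formbC g μ) :=
  hg.of_isClosed_subset (isClosed_tsupport _) (formb_C_supp g μ)

theorem formb_jv (i j : Fin 3) (l : ℕ) (g : Pl → ℂ) :
    jv i j l g = ∑ μ, lc (cur i j μ) ((l : ℝ)⁻¹ • smp l (formbC g μ)) := by
  unfold jv jj
  rw [Fin.sum_univ_two, Fin.sum_univ_two]
  rfl

theorem formb_V_ne {l : ℕ} (hl : 0 < l) {g : Pl → ℂ} (hg : HasCompactSupport g) {μ : Fin 2}
    {x : Site} (hx : ((l : ℝ)⁻¹ • smp l (formbC g μ)) x ≠ 0) : pt l x ∈ tsupport g := by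
  rw [Finsupp.smul_apply, smp_apply hl (formb_C_cpt hg μ), smul_eq_mul] at hx
  exact subset_tsupport _ (formb_C_ne (right_ne_zero_of_mul hx))

theorem formb_pt {l : ℕ} (hl : 0 < l) (m : ℕ) {x : Site}
    (hx : sh (2 * (m : ℤ) * l, 0) (ind (bx l)) x ≠ 0) :
    pt l x ∈ closedBall ((2 * (m : ℝ), 0) : Pl) (3 / 2) := by
  rw [sh_apply, ind_apply] at hx
  have h1 : x - (2 * (m : ℤ) * l, 0) ∈ bx l := by
    by_contra h
    exact hx (if_neg h)
  obtain ⟨h2, h3⟩ := (mem_bx _ _).1 h1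
  have l1 : (1 : ℝ) ≤ l := by exact_mod_cast hl
  have l0 : (0 : ℝ) < l := by linarith
  have h2' : |(x.1 : ℝ) - 2 * m * l| ≤ l := by exact_mod_cast h2
  have h3' : |(x.2 : ℝ) - 0| ≤ l := by exact_mod_cast h3
  have key : ∀ a c : ℝ, |a - c * l| ≤ l → dist ((a + 1 / 2) / l) c ≤ 3 / 2 := fun a c h => by
    have e : (a + 1 / 2) / l - c = (a - c * l + 1 / 2) / l := by
      field_simp
      ring
    rw [Real.dist_eq, e, abs_div, abs_of_pos l0, div_le_iff₀ l0]
    obtain ⟨k1, k2⟩ := abs_le.1 h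
    rw [abs_le]
    constructor <;> linarith
  rw [mem_closedBall, Prod.dist_eq, max_le_iff]
  exact ⟨key _ _ h2', key _ _ (by rwa [zero_mul])⟩

theorem formb_sh0 (l : ℕ) (f : Site →₀ ℝ) : sh (2 * ((0 : ℕ) : ℤ) * l, 0) f = f := by
  ext x
  rw [sh_apply]
  simp only [Nat.cast_zero, mul_zero, zero_mul, Prod.mk_zero_zero, sub_zero]

theorem formb_pt0 {l : ℕ} (hl : 0 < l) {x : Site} (hx : ind (bx l) x ≠ 0) :
    pt l x ∈ closedBall (0 : Pl) (3 / 2) := by
  have h := formb_pt hl 0 (x := x) (by rwa [formb_sh0])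
  simpa only [Nat.cast_zero, mul_zero, Prod.mk_zero_zero] using h

theorem formb_ff (m l : ℕ) : ff E m l = lc (sp 2) ((Real.sqrt (vb E l))⁻¹ • ind (bx l)) *
    lc (sp 1) ((Real.sqrt (vb E l))⁻¹ • sh (2 * (m : ℤ) * l, 0) (ind (bx l))) := by
  unfold ff fb sf
  rw [map_smul, map_smul, map_smul, tr_lc _ (fun s x => tr_sp s 1 x)]

theorem formb_bl (μ : Fin 2) (x : Site) : x ∈ bl x 1 ∧ x + ee μ ∈ bl x 1 := by
  fin_cases μ <;> simp [bl, ee]

theorem formb_bl2 {x y : Site} (h : y ∈ bl x 1) : y ∈ bl x 2 :=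
  ⟨h.1.trans one_le_two, h.2.trans one_le_two⟩

theorem formb_small (h : State β E) {i j : Fin 3} (hJ : JB E i j) (m : ℕ) {g : Pl → ℂ}
    (hg : Sm g) (P : ℕ → Alg) (hP : ∀ ε : ℝ, 0 < ε → ∀ᶠ l in atTop, N8 E (P l) ε) :
    Tendsto (fun l => E (P l * jv i j l g * ff E m l)) atTop (𝓝 0) := by
  obtain ⟨c, hc, h1⟩ := hJ.n8_jv
  obtain ⟨a, ha⟩ := hg.2.exists_bound_of_continuous hg.1.continuous
  obtain ⟨r, hr, hr'⟩ := samp_rad hg.2
  have ha0 : 0 ≤ a := (norm_nonneg _).trans (ha 0)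
  have hK : 0 ≤ c * (a * r) := by positivity
  rw [Metric.tendsto_nhds]
  intro ε hε
  filter_upwards [h1 g a r 0 hr ha hr', hP (ε / (4 * (c * (a * r)) + 1)) (by positivity)]
    with l k1 k2
  have k3 := h.n8_mul4 k2 k1 (h.n8_fb l 2 (by decide))
    (h.n8_tr (h.n8_fb l 1 (by decide)) (2 * (m : ℤ) * l, 0))
  rw [Real.dist_eq, sub_zero]
  refine lt_of_le_of_lt k3 ?_
  have k4 : ε / (4 * (c * (a * r)) + 1) * (4 * (c * (a * r)) + 1) = ε := by
    field_simp
  have k5 : 0 < ε / (4 * (c * (a * r)) + 1) := by positivity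
  linarith

theorem formb_grad (h : State β E) (hβ : 0 < β) {i j i' j' : Fin 3} (hJ : JB E i j)
    (hJ' : JB E i' j') (m : ℕ) {η : Pl → ℝ} {g : Pl → ℂ} (hη : Sm η) (hη' : tsupport η ⊆ uu m)
    (hg : Sm g) (hd : Disjoint (tsupport η) (tsupport g)) :
    Tendsto (fun l => E (jv i j l (dbar (cx η)) * jv i' j' l g * ff E m l)) atTop (𝓝 0) := by
  refine (formb_small h hJ' m hg _ (hJ.n8_grad hη)).congr' ?_
  filter_upwards [sep_pt hg.2 (isClosed_tsupport η) hd.symm, eventually_gt_atTop 0] with l hs hl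
  have hz : ∀ x, pt l x ∉ tsupport η → x ∈ {x | smp l η x = 0} := fun x hx => by
    rw [Set.mem_ofPred_eq, smp_apply hl hη.2]
    exact image_eq_zero_of_notMem_tsupport hx
  have h1 : jv i' j' l g * ff E m l ∈ loc {x | smp l η x = 0} := by
    rw [formb_jv, formb_ff]
    refine mul_mem (sum_mem fun μ _ => lc_mem_loc _ _ fun x hx => ?_)
      (mul_mem (lc_mem_loc _ _ fun x hx => sp_mem_loc _ (hz x fun k => ?_))
        (lc_mem_loc _ _ fun x hx => sp_mem_loc _ (hz x fun k => ?_)))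
    · have k := formb_V_ne hl hg.2 hx
      exact cur_mem_loc _ _ _ (hz _ (hs x _ (formb_bl2 (formb_bl μ x).1) k))
        (hz _ (hs x _ (formb_bl2 (formb_bl μ x).2) k))
    · exact hη' k (Or.inl (formb_pt0 hl (right_ne_zero_of_mul hx)))
    · exact hη' k (Or.inr (formb_pt hl m (right_ne_zero_of_mul hx)))
  have h2 := h.wardf i j (smp l η) (jv i' j' l g * ff E m l)
  rw [genf_eq_zero i j h1 _ fun x hx => hx, map_zero] at h2
  have h3 := (mul_eq_zero.1 h2.symm).resolve_left hβ.ne'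
  rw [sub_mul, sub_mul, map_sub, mul_assoc (jj _ _ _), h3, sub_zero]

theorem formb_piece (h : State β E) (l : ℕ) (s : Site) (i : Fin 3) (hi : i ≠ 0)
    (p : Site → Prop) [DecidablePred p] :
    N8 E (lc (sp i) (((Real.sqrt (vb E l))⁻¹ • sh s (ind (bx l))).filter p)) 2 := by
  rw [Finsupp.filter_smul, map_smul]
  have h0 : ∀ x, 0 ≤ sh s (ind (bx l)) x := fun x => by
    rw [sh_apply, ind_apply]
    split_ifs <;> norm_num
  refine h.n8_piece l s _ (fun x => ?_) (fun x => ?_) i hi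
  · rw [Finsupp.filter_apply]
    split_ifs
    exacts [h0 x, le_rfl]
  · rw [Finsupp.filter_apply]
    split_ifs
    exacts [le_rfl, h0 x]

theorem formb_cv (h : State β E) {i j i' j' : Fin 3} (hJ : JB E i j)
    (hJ' : JB E i' j') (m : ℕ) (hm : 2 ≤ m) {η : Pl → ℝ} {g : Pl → ℂ} (hη : Sm η)
    (hη' : tsupport η ⊆ uu m) (hg : Tst (uu m) g) (hd : Disjoint (tsupport η) (tsupport g))
    (μ : Fin 2) :
    Tendsto (fun l : ℕ => E (cv i j l η * lc (cur i' j' μ) ((l : ℝ)⁻¹ • smp l (formbC g μ)) *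
      ff E m l)) atTop (𝓝 0) := by
  obtain ⟨c, hc, h1⟩ := formb_n8_cur hJ'
  obtain ⟨a, ha⟩ := hg.1.2.exists_bound_of_continuous hg.1.1.continuous
  obtain ⟨r, hr, hr'⟩ := samp_rad hg.1.2
  have u1 : ∀ {A : Set Pl}, A ⊆ uu m → Disjoint A (closedBall (0 : Pl) (3 / 2)) := fun hA =>
    Set.disjoint_left.2 fun z hz hz' => hA hz (Or.inl hz')
  have u2 : ∀ {A : Set Pl}, A ⊆ uu m →
      Disjoint A (closedBall ((2 * (m : ℝ), 0) : Pl) (3 / 2)) := fun hA =>
    Set.disjoint_left.2 fun z hz hz' => hA hz (Or.inr hz')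
  have u3 : Disjoint (closedBall (0 : Pl) (3 / 2))
      (closedBall ((2 * (m : ℝ), 0) : Pl) (3 / 2)) := by
    refine closedBall_disjoint_closedBall ?_
    have m2 : (2 : ℝ) ≤ m := by exact_mod_cast hm
    rw [Prod.dist_eq]
    refine lt_max_of_lt_left ?_
    rw [Real.dist_eq, Prod.fst_zero, zero_sub, abs_neg, abs_of_nonneg (by positivity)]
    linarith
  have main := h.decouple hJ η hη
    ![tsupport g, closedBall (0 : Pl) (3 / 2), closedBall ((2 * (m : ℝ), 0) : Pl) (3 / 2)]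
    (fun k => ?_) (fun k => ?_) (fun k k' hk => ?_) ![cur i' j' μ, sp 2, sp 1] (fun k x => ?_)
    ![fun l => (l : ℝ)⁻¹ • smp l (formbC g μ), fun l => (Real.sqrt (vb E l))⁻¹ • ind (bx l),
      fun l => (Real.sqrt (vb E l))⁻¹ • sh (2 * (m : ℤ) * l, 0) (ind (bx l))]
    (c * Real.sqrt (9 * a ^ 2 * r ^ 2) + 2) ?_
  · refine main.congr fun l => ?_
    rw [formb_ff, mul_assoc, mul_assoc (cv i j l η)]
    rfl
  · fin_cases k
    exacts [hg.1.2, isCompact_closedBall _ _, isCompact_closedBall _ _]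
  · fin_cases k
    exacts [hd, u1 hη', u2 hη']
  · fin_cases k <;> fin_cases k'
    exacts [absurd rfl hk, u1 hg.2, u2 hg.2, (u1 hg.2).symm, absurd rfl hk, u3, (u2 hg.2).symm,
      u3.symm, absurd rfl hk]
  · fin_cases k
    exacts [cur_mem_loc _ _ _ (formb_bl μ x).1 (formb_bl μ x).2, sp_mem_loc _ (formb_bl μ x).1,
      sp_mem_loc _ (formb_bl μ x).1]
  · have hK : 0 ≤ c * Real.sqrt (9 * a ^ 2 * r ^ 2) := by positivity
    filter_upwards [nsq_smp_le (formbC g μ) a r hr 0 (fun z => (formb_C_le g μ z).trans (ha z))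
      fun z hz => hr' z (formb_C_ne hz), eventually_gt_atTop 0] with l k1 hl k
    fin_cases k
    · refine ⟨fun x hx => formb_V_ne hl hg.1.2 hx, fun S => (h1 μ _).mono ?_⟩
      refine le_trans (mul_le_mul_of_nonneg_left (Real.sqrt_le_sqrt ?_) hc)
        (le_add_of_nonneg_right zero_le_two)
      refine le_trans (nsq_mono _ _ fun x => ?_) k1
      rw [Finsupp.filter_apply]
      split_ifs
      · exact le_rfl
      · rw [abs_zero]
        exact abs_nonneg _
    · refine ⟨fun x hx => formb_pt0 hl (right_ne_zero_of_mul hx), fun S => ?_⟩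
      classical
      have k2 := formb_piece h l (2 * ((0 : ℕ) : ℤ) * l, 0) 2 (by decide) (· ∈ S)
      rw [formb_sh0] at k2
      exact k2.mono (le_add_of_nonneg_left hK)
    · refine ⟨fun x hx => formb_pt hl m (right_ne_zero_of_mul hx), fun S => ?_⟩
      classical
      exact (formb_piece h l (2 * (m : ℤ) * l, 0) 1 (by decide) (· ∈ S)).mono
        (le_add_of_nonneg_left hK)

theorem formb_curl (h : State β E) {i j i' j' : Fin 3} (hJ : JB E i j)
    (hJ' : JB E i' j') (m : ℕ) (hm : 2 ≤ m) {η : Pl → ℝ} {g : Pl → ℂ} (hη : Sm η)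
    (hη' : tsupport η ⊆ uu m) (hg : Tst (uu m) g) (hd : Disjoint (tsupport η) (tsupport g)) :
    Tendsto (fun l => E (jv i j l (Complex.I • dbar (cx η)) * jv i' j' l g * ff E m l)) atTop
      (𝓝 0) := by
  have h1 := formb_small h hJ' m hg.1 _ (hJ.n8_curl hη)
  have h2 := h1.sub ((formb_cv h hJ hJ' m hm hη hη' hg hd 0).add
    (formb_cv h hJ hJ' m hm hη hη' hg hd 1))
  rw [add_zero, sub_zero] at h2
  refine h2.congr fun l => ?_
  rw [← map_add, ← map_sub, ← add_mul, ← mul_add, ← Fin.sum_univ_two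
    (f := fun μ => lc (cur i' j' μ) ((l : ℝ)⁻¹ • smp l (formbC g μ))), ← formb_jv]
  congr 1
  ring

theorem formb_main (h : State β E) (hβ : 0 < β) {i j i' j' : Fin 3} (hJ : JB E i j)
    (hJ' : JB E i' j') (m : ℕ) (hm : 2 ≤ m) {f g : Pl → ℂ} (hf : Tst (uu m) f)
    (hg : Tst (uu m) g) (hd : Disjoint (tsupport f) (tsupport g)) :
    Tendsto (fun l => E (jv i j l (dbar f) * jv i' j' l g * ff E m l)) atTop (𝓝 0) := by
  have s0 : Sm fun p => (f p).re :=
    ⟨Complex.reCLM.contDiff.comp hf.1.1, formb_C_cpt hf.1.2 0⟩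
  have s1 : Sm fun p => (f p).im :=
    ⟨Complex.imCLM.contDiff.comp hf.1.1, formb_C_cpt hf.1.2 1⟩
  have t0 : tsupport (fun p => (f p).re) ⊆ tsupport f := formb_C_supp f 0
  have t1 : tsupport (fun p => (f p).im) ⊆ tsupport f := formb_C_supp f 1
  have h2 := (formb_grad h hβ hJ hJ' m s0 (t0.trans hf.2) hg.1 (hd.mono_left t0)).add
    (formb_curl h hJ hJ' m hm s1 (t1.trans hf.2) hg (hd.mono_left t1))
  rw [add_zero] at h2
  refine h2.congr fun l => ?_
  have c1 : HasCompactSupport (Complex.I • dbar (cx fun p => (f p).im)) :=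
    s1.toCx.toDbar.2.mul_left (f := fun _ => Complex.I)
  rw [dbar_decomp hf.1, jv_add i j l s0.toCx.toDbar.2 c1, add_mul, add_mul, map_add]

theorem State.bb_left (h : State β E) (hβ : 0 < β) (m : ℕ) (hm : 2 ≤ m) (f g : Pl → ℂ)
    (hf : Tst (uu m) f) (hg : Tst (uu m) g) (hd : Disjoint (tsupport f) (tsupport g)) :
    Tendsto (fun l => bb E m l (dbar f) g) atTop (𝓝 0) :=
  formb_main h hβ h.jbd h.jb02 m hm hf hg hd

theorem State.bb_right (h : State β E) (hβ : 0 < β) (m : ℕ) (hm : 2 ≤ m) (f g : Pl → ℂ)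
    (hf : Tst (uu m) f) (hg : Tst (uu m) g) (hd : Disjoint (tsupport f) (tsupport g)) :
    Tendsto (fun l => bb E m l f (dbar g)) atTop (𝓝 0) := by
  refine (formb_main h hβ h.jb02 h.jbd m hm hg hf hd.symm).congr fun l => ?_
  rw [bb, mul_comm (jv 0 2 l (dbar g))]

end Vale.Agent.P163
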