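import Vale.Agent.P163.Cmp

open MeasureTheory Filter Topology

namespace Vale.Agent.P163

variable {om : Measure S4} {ν : Measure unitInterval} {η : Measure Circle}

theorem continuous_ev (P : Alg) : Continuous (ev P) := by
  unfold ev
  exact (MvPolynomial.continuous_eval P).comp (continuous_pi fun v =>
    (continuous_apply _).comp (continuous_subtype_val.comp (continuous_apply v.1)))

theorem continuous_frzS (b : S4) (D : Finset Site) : Continuous (frz b D) := by
  refine continuous_pi fun x => ?_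
  unfold frz
  split_ifs
  · exact continuous_apply x
  · exact continuous_const

theorem continuous_ext0 (W : Finset Site) : Continuous (ext0 W) := by
  refine continuous_pi fun x => ?_
  unfold ext0
  split_ifs with h
  · exact continuous_apply _
  · exact continuous_const

theorem trans_cont (Λ D : Finset Site) (K : Site → Site → ℝ) {f : (Site → S4) → ℝ}
    (hf : Continuous f) :
    Continuous fun σ => f (frz e0 D σ) * Real.exp (ham Λ K (frz e0 D σ)) :=
  (hf.comp (continuous_frzS e0 D)).mul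
    (Real.continuous_exp.comp ((continuous_ham Λ K).comp (continuous_frzS e0 D)))

theorem trans_int [IsProbabilityMeasure om] (Λ D : Finset Site) (K : Site → Site → ℝ)
    {f : (Site → S4) → ℝ} (hf : Continuous f) :
    Integrable (fun σ => f (frz e0 D σ) * Real.exp (ham Λ K (frz e0 D σ)))
      (Measure.infinitePi fun _ : Site => om) :=
  cmp_int _ (trans_cont Λ D K hf)

theorem num_add [IsProbabilityMeasure om] (Λ D : Finset Site) (K : Site → Site → ℝ)
    (f g : (Site → S4) → ℝ) (hf : Continuous f) (hg : Continuous g) :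
    num om Λ D K (fun σ => f σ + g σ) = num om Λ D K f + num om Λ D K g := by
  unfold num
  rw [← integral_add (trans_int Λ D K hf) (trans_int Λ D K hg)]
  simp only [add_mul]

theorem num_smul (Λ D : Finset Site) (K : Site → Site → ℝ) (c : ℝ) (f : (Site → S4) → ℝ) :
    num om Λ D K (fun σ => c * f σ) = c * num om Λ D K f := by
  unfold num
  rw [← integral_const_mul]
  simp only [mul_assoc]

theorem num_mono [IsProbabilityMeasure om] (Λ D : Finset Site) (K : Site → Site → ℝ)
    (f g : (Site → S4) → ℝ) (hf : Continuous f) (hg : Continuous g) (h : ∀ σ, f σ ≤ g σ) :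
    num om Λ D K f ≤ num om Λ D K g :=
  integral_mono (trans_int Λ D K hf) (trans_int Λ D K hg) fun _ =>
    mul_le_mul_of_nonneg_right (h _) (Real.exp_pos _).le

theorem num_pos [IsProbabilityMeasure om] (Λ D : Finset Site) (K : Site → Site → ℝ) :
    0 < num om Λ D K fun _ => 1 := by
  unfold num
  simp only [one_mul]
  refine integral_exp_pos ?_
  simpa using trans_int (om := om) Λ D K (f := fun _ => 1) continuous_const

theorem trans_frz (W D : Finset Site) (hD : D ⊆ W) (σ : Site → S4) :
    frz e0 D σ = ext0 W (frz e0 (D.subtype (· ∈ W)) (W.restrict σ)) := by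
  funext x
  by_cases hx : x ∈ W
  · simp [frz, ext0, hx]
  · have : x ∉ D := fun h => hx (hD h)
    simp [frz, ext0, hx, this]

theorem trans_sum (W Λ : Finset Site) (hΛ : Λ ⊆ W) (F : Site → ℝ) :
    ∑ x ∈ Λ, F x = ∑ x ∈ W, if x ∈ Λ then F x else 0 := by
  rw [← Finset.sum_filter, Finset.filter_mem_eq_inter, Finset.inter_eq_right.2 hΛ]

theorem trans_sum2 (W Λ : Finset Site) (hΛ : Λ ⊆ W) (F : Site → Site → ℝ) :
    ∑ x ∈ Λ, ∑ y ∈ Λ, F x y = ∑ x ∈ W, ∑ y ∈ W, if x ∈ Λ ∧ y ∈ Λ then F x y else 0 := by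
  rw [trans_sum W Λ hΛ]
  refine Finset.sum_congr rfl fun x _ => ?_
  by_cases hx : x ∈ Λ
  · simp only [hx, if_true, true_and]
    exact trans_sum W Λ hΛ _
  · simp [hx]

theorem trans_ham (W Λ : Finset Site) (hΛ : Λ ⊆ W) (K : Site → Site → ℝ) (τ : W → S4) :
    ham Λ K (ext0 W τ) = ham Finset.univ
      (fun x y : W => if x.1 ∈ Λ ∧ y.1 ∈ Λ then K x y else 0) τ := by
  unfold ham
  rw [trans_sum2 W Λ hΛ, ← Finset.sum_coe_sort W]
  refine Finset.sum_congr rfl fun x _ => ?_
  rw [← Finset.sum_coe_sort W]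
  refine Finset.sum_congr rfl fun y _ => ?_
  have hx : ext0 W τ x = τ x := by simp [ext0]
  have hy : ext0 W τ y = τ y := by simp [ext0]
  rw [hx, hy]
  simp only [ite_mul, zero_mul]

/-- `frz e0 D σ = ext0 W (frz e0 D' (W.restrict σ))` and `integral_restrict_infinitePi` -/
theorem num_eq_numF [IsProbabilityMeasure om] (W Λ D : Finset Site) (hΛ : Λ ⊆ W) (hD : D ⊆ W)
    (K : Site → Site → ℝ) (f : (Site → S4) → ℝ) (hf : Continuous f) :
    num om Λ D K f = numF om (D.subtype (· ∈ W))
      (fun x y : W => if x.1 ∈ Λ ∧ y.1 ∈ Λ then K x y else 0) (fun τ => f (ext0 W τ)) := by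
  unfold num numF
  rw [← integral_restrict_infinitePi (μ := fun _ : Site => om)]
  · refine integral_congr_ae (Eventually.of_forall fun σ => ?_)
    simp only
    rw [trans_frz W D hD, trans_ham W Λ hΛ]
  · exact (((hf.comp (continuous_ext0 W)).comp (continuous_frz e0 _)).mul
      (Real.continuous_exp.comp ((continuous_ham _ _).comp
        (continuous_frz e0 _)))).aestronglyMeasurable

theorem trans_dot_comm (u v : S4) : dot u v = dot v u :=
  Finset.sum_congr rfl fun _ _ => mul_comm _ _

theorem trans_symK_comm (Λ : Finset Site) (K : Site → Site → ℝ) (x y : Site) :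
    symK Λ K x y = symK Λ K y x := by
  unfold symK
  simp only [and_comm, add_comm]

theorem trans_ham_sym (W Λ : Finset Site) (hΛ : Λ ⊆ W) (K : Site → Site → ℝ) (σ : Site → S4) :
    2 * ham Λ K σ = ∑ x ∈ W, ∑ y ∈ W, symK Λ K x y * dot (σ x) (σ y) := by
  have h1 : ham Λ K σ = ∑ x ∈ Λ, ∑ y ∈ Λ, K y x * dot (σ x) (σ y) := by
    unfold ham
    rw [Finset.sum_comm]
    exact Finset.sum_congr rfl fun x _ => Finset.sum_congr rfl fun y _ => by
      rw [trans_dot_comm]
  have h2 : 2 * ham Λ K σ = ∑ x ∈ Λ, ∑ y ∈ Λ, (K x y + K y x) * dot (σ x) (σ y) := by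
    simp only [add_mul, Finset.sum_add_distrib]
    rw [← h1, two_mul]
    rfl
  rw [h2, trans_sum2 W Λ hΛ]
  refine Finset.sum_congr rfl fun x _ => Finset.sum_congr rfl fun y _ => ?_
  unfold symK
  split_ifs <;> simp

/-- On frozen configurations the two Hamiltonians differ by a constant:
`ham Λ K σ = (1/2) ∑ x y ∈ W, symK Λ K x y * dot (σ x) (σ y)` for `W ⊇ Λ ∪ Λ'`, `symK` is
symmetric, and `dot e0 e0 = 1`. -/
theorem num_congr (Λ Λ' D : Finset Site) (K K' : Site → Site → ℝ)
    (h : ∀ x ∈ D, ∀ y, symK Λ K x y = symK Λ' K' x y) :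
    ∃ c : ℝ, 0 < c ∧ ∀ f, num om Λ D K f = c * num om Λ' D K' f := by
  set W := Λ ∪ Λ'
  set a : ℝ := (∑ x ∈ W, ∑ y ∈ W, (symK Λ K x y - symK Λ' K' x y)) / 2 with ha
  refine ⟨Real.exp a, Real.exp_pos a, fun f => ?_⟩
  have he : dot e0 e0 = 1 := by simp [dot, e0, Fin.sum_univ_four]
  have key : ∀ σ, ham Λ K (frz e0 D σ) = a + ham Λ' K' (frz e0 D σ) := by
    intro σ
    have h1 := trans_ham_sym W Λ Finset.subset_union_left K (frz e0 D σ)
    have h2 := trans_ham_sym W Λ' Finset.subset_union_right K' (frz e0 D σ)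
    have h3 : ∑ x ∈ W, ∑ y ∈ W, symK Λ K x y * dot (frz e0 D σ x) (frz e0 D σ y) =
        ∑ x ∈ W, ∑ y ∈ W, (symK Λ K x y - symK Λ' K' x y) +
          ∑ x ∈ W, ∑ y ∈ W, symK Λ' K' x y * dot (frz e0 D σ x) (frz e0 D σ y) := by
      rw [← Finset.sum_add_distrib]
      refine Finset.sum_congr rfl fun x _ => ?_
      rw [← Finset.sum_add_distrib]
      refine Finset.sum_congr rfl fun y _ => ?_
      by_cases hx : x ∈ D
      · rw [h x hx y]; ring
      · by_cases hy : y ∈ D
        · rw [trans_symK_comm Λ K, h y hy x, trans_symK_comm Λ' K' y x]; ring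
        · simp [frz, hx, hy, he]
    rw [ha]
    linarith
  unfold num
  rw [← integral_const_mul]
  refine integral_congr_ae (Eventually.of_forall fun σ => ?_)
  simp only
  rw [key, Real.exp_add]
  ring

theorem trans_lift (S : Finset Site) (L : List (List (Site × Bool))) (q : List Site) :
    ∃ (W : Finset Site) (L' : List (List (W × Bool))) (q' : List W), S ⊆ W ∧
      (∀ τ, oA L (ext0 W τ) = oA L' τ) ∧ ∀ τ, oB q (ext0 W τ) = oB q' τ := by
  set W : Finset Site := insert (0, 0) (S ∪ (L.flatten.map Prod.fst).toFinset ∪ q.toFinset) with hW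
  have h0 : ((0, 0) : Site) ∈ W := Finset.mem_insert_self _ _
  let l : Site → W := fun x => if h : x ∈ W then ⟨x, h⟩ else ⟨(0, 0), h0⟩
  have hl : ∀ x ∈ W, ∀ τ, ext0 W τ x = τ (l x) := fun x hx τ => by simp [ext0, l, hx]
  refine ⟨W, L.map fun p => p.map fun v => (l v.1, v.2), q.map l, fun x hx => ?_, fun τ => ?_,
    fun τ => ?_⟩
  · simp [hW, hx]
  · unfold oA
    rw [List.map_map]
    congr 1
    refine List.map_congr_left fun p hp => ?_
    simp only [Function.comp, gA, List.map_map]
    congr 2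
    refine List.map_congr_left fun v hv => ?_
    have : v.1 ∈ W := by
      rw [hW]
      refine Finset.mem_insert_of_mem (Finset.mem_union_left _ (Finset.mem_union_right _ ?_))
      exact List.mem_toFinset.2 (List.mem_map.2 ⟨v, List.mem_flatten.2 ⟨p, hp, hv⟩, rfl⟩)
    simp only [Function.comp]
    rw [hl _ this]
  · unfold oB
    rw [List.map_map]
    congr 1
    refine List.map_congr_left fun x hx => ?_
    have : x ∈ W := by
      rw [hW]
      exact Finset.mem_insert_of_mem (Finset.mem_union_right _ (List.mem_toFinset.2 hx))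
    simp only [Function.comp]
    rw [hl _ this]

theorem trans_K {K : Site → Site → ℝ} (hK : ∀ x y, 0 ≤ K x y) (W Λ : Finset Site) (x y : W) :
    0 ≤ if x.1 ∈ Λ ∧ y.1 ∈ Λ then K x y else 0 := by
  split_ifs
  · exact hK _ _
  · exact le_rfl

/-- transfer of `cmpF`: take `W` containing `Λ`, `D'` and all sites of `L`, `q`, lift the lists -/
theorem cmpS (h : Model om ν η) (K : Site → Site → ℝ) (hK : ∀ x y, 0 ≤ K x y)
    (Λ D D' : Finset Site) (hD : D ⊆ D') (L : List (List (Site × Bool))) (q : List Site) (c : ℝ)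
    (hc0 : 0 ≤ c) (hc1 : c ≤ 1) :
    num om Λ D' K (fun σ => oA L σ * (1 - c * oB q σ)) * num om Λ D K (fun _ => 1) ≤
      num om Λ D' K (fun _ => 1) * num om Λ D K (fun σ => oA L σ * (1 - c * oB q σ)) := by
  have := h.pom
  obtain ⟨W, L', q', hS, hA, hB⟩ := trans_lift (Λ ∪ D') L q
  have h1 : Λ ⊆ W := Finset.subset_union_left.trans hS
  have h2 : D' ⊆ W := Finset.subset_union_right.trans hS
  have hc : Continuous fun σ => oA L σ * (1 - c * oB q σ) :=
    (continuous_oA L).mul (continuous_const.sub (continuous_const.mul (continuous_oB q)))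
  rw [num_eq_numF W Λ D' h1 h2 K _ hc, num_eq_numF W Λ D h1 (hD.trans h2) K _ hc,
    num_eq_numF W Λ D' h1 h2 K _ continuous_const,
    num_eq_numF W Λ D h1 (hD.trans h2) K _ continuous_const]
  simp only [hA, hB]
  exact cmpF h _ (trans_K hK W Λ) _ _ (Finset.subtype_mono hD) L' q' c hc0 hc1

theorem negS (h : Model om ν η) (K : Site → Site → ℝ) (hK : ∀ x y, 0 ≤ K x y)
    (Λ D : Finset Site) (L : List (List (Site × Bool))) (q : List Site) :
    num om Λ D K (fun σ => oA L σ * oB q σ) * num om Λ D K (fun _ => 1) ≤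
      num om Λ D K (oA L) * num om Λ D K (oB q) := by
  have := h.pom
  obtain ⟨W, L', q', hS, hA, hB⟩ := trans_lift (Λ ∪ D) L q
  have h1 : Λ ⊆ W := Finset.subset_union_left.trans hS
  have h2 : D ⊆ W := Finset.subset_union_right.trans hS
  rw [num_eq_numF W Λ D h1 h2 K (fun σ => oA L σ * oB q σ)
      ((continuous_oA L).mul (continuous_oB q)),
    num_eq_numF W Λ D h1 h2 K _ continuous_const, num_eq_numF W Λ D h1 h2 K _ (continuous_oA L),
    num_eq_numF W Λ D h1 h2 K _ (continuous_oB q)]
  simp only [hA, hB]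
  exact negF h _ (trans_K hK W Λ) _ L' q'

theorem grifS (h : Model om ν η) (K : Site → Site → ℝ) (hK : ∀ x y, 0 ≤ K x y)
    (Λ D : Finset Site) (L : List (List (Site × Bool))) (q : List Site) :
    0 ≤ num om Λ D K (fun σ => oA L σ * oB q σ) := by
  have := h.pom
  obtain ⟨W, L', q', hS, hA, hB⟩ := trans_lift (Λ ∪ D) L q
  have h1 : Λ ⊆ W := Finset.subset_union_left.trans hS
  have h2 : D ⊆ W := Finset.subset_union_right.trans hS
  rw [num_eq_numF W Λ D h1 h2 K (fun σ => oA L σ * oB q σ)
      ((continuous_oA L).mul (continuous_oB q))]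
  simp only [hA, hB]
  exact grifF h _ (trans_K hK W Λ) _ L' q'

end Vale.Agent.P163
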