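import Vale.Agent.P163.Dia
import Vale.Agent.P163.Trans

open MeasureTheory Filter Topology

namespace Vale.Agent.P163

variable {om : Measure S4} {ν : Measure unitInterval} {η : Measure Circle}

/-- the current between two sites -/
def JMom_J (σ : Site → S4) (x y : Site) : ℝ := (σ x).1 0 * (σ y).1 1 - (σ x).1 1 * (σ y).1 0

/-- a function on the bonds -/
def JMom_s (U : Fin 2 → Site → ℝ) (x y : Site) : ℝ := ∑ μ, if y = x + ee μ then U μ x else 0

theorem JMom_ev (V : Fin 2 → Site →₀ ℝ) (σ : Site → S4) :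
    ev (jj 0 1 V) σ = ∑ μ, ∑ x ∈ (V μ).support, V μ x * JMom_J σ x (x + ee μ) := by
  simp only [ev, jj, lc, Finsupp.linearCombination_apply, Finsupp.sum, map_sum,
    MvPolynomial.smul_eval, cur, sp, map_sub, map_mul, MvPolynomial.eval_X]
  rfl

theorem JMom_sq (U : Fin 2 → Site → ℝ) (x y : Site) :
    JMom_s U x y ^ 2 = JMom_s (fun μ x => U μ x ^ 2) x y := by
  simp only [JMom_s, Fin.sum_univ_two]
  split_ifs with h0 h1
  · have := add_left_cancel (h0.symm.trans h1)
    simp [ee] at this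
  all_goals ring

theorem JMom_kb (β : ℝ) (x : Site) (μ : Fin 2) : kb β x (x + ee μ) = β / 2 := by
  fin_cases μ <;> simp [kb, ee]

theorem JMom_sum (β : ℝ) (W : Finset Site) (U : Fin 2 → Site → ℝ) (T : Fin 2 → Finset Site)
    (h0 : ∀ μ, ∀ x ∉ T μ, U μ x = 0) (hT : ∀ μ, ∀ x ∈ T μ, x ∈ W ∧ x + ee μ ∈ W)
    (G : Site → Site → ℝ) :
    ∑ x : W, ∑ y : W, (if x.1 ∈ W ∧ y.1 ∈ W then kb β x y else 0) * JMom_s U x y * G x y =
      β / 2 * ∑ μ, ∑ x ∈ T μ, U μ x * G x (x + ee μ) := by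
  have e : ∀ x : W, ∑ y : W, (if x.1 ∈ W ∧ y.1 ∈ W then kb β x y else 0) * JMom_s U x y * G x y =
      ∑ μ, β / 2 * (U μ x * G x (x + ee μ)) := fun x => by
    simp only [x.2, Finset.coe_mem, and_self, if_true, JMom_s, Finset.mul_sum, Finset.sum_mul]
    rw [Finset.sum_comm]
    refine Finset.sum_congr rfl fun μ _ => ?_
    rw [Finset.sum_coe_sort W fun y => kb β x y * (if y = x + ee μ then U μ x else 0) * G x y]
    simp only [mul_ite, ite_mul, mul_zero, zero_mul, Finset.sum_ite_eq']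
    split_ifs with h
    · rw [JMom_kb, mul_assoc]
    · rw [h0 μ x fun hx => h (hT μ x hx).2, zero_mul, mul_zero]
  simp only [e]
  rw [Finset.sum_comm, Finset.mul_sum]
  refine Finset.sum_congr rfl fun μ _ => ?_
  rw [Finset.sum_coe_sort W fun x => β / 2 * (U μ x * G x (x + ee μ)), Finset.mul_sum]
  exact (Finset.sum_subset (fun x hx => (hT μ x hx).1) fun x _ hx => by
    rw [h0 μ x hx, zero_mul, mul_zero]).symm

theorem JMom_nsq (f : Site →₀ ℝ) : 0 ≤ nsq f := Finset.sum_nonneg fun _ _ => sq_nonneg _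

theorem JMom_le (V : Fin 2 → Site →₀ ℝ) (x : Site) : ∑ μ, V μ x ^ 2 ≤ ∑ μ, nsq (V μ) := by
  refine Finset.sum_le_sum fun μ _ => ?_
  by_cases hx : x ∈ (V μ).support
  · exact Finset.single_le_sum (f := fun x => V μ x ^ 2) (fun _ _ => sq_nonneg _) hx
  · rw [Finsupp.notMem_support_iff.1 hx, zero_pow two_ne_zero]
    exact JMom_nsq _

theorem JMom_exp (h : Model om ν η) {β : ℝ} (hβ : 0 < β) (V : Fin 2 → Site →₀ ℝ)
    {D : Finset Site} (hD : ∀ μ, (V μ).support ⊆ D) {t : ℝ} (ht : t ^ 2 * ∑ μ, nsq (V μ) ≤ 1) :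
    num om (nb D) D (kb β) (fun σ => Real.exp (β / 2 * (t * ev (jj 0 1 V) σ))) ≤
      Real.exp (β / 2) * num om (nb D) D (kb β) fun _ => 1 := by
  have := h.pom
  have hW : D ⊆ nb D := fun x hx => Finset.mem_biUnion.2 ⟨x, hx, by simp⟩
  have hT : ∀ μ, ∀ x ∈ (V μ).support, x ∈ nb D ∧ x + ee μ ∈ nb D := fun μ x hx =>
    ⟨hW (hD μ hx), Finset.mem_biUnion.2 ⟨x, hD μ hx, by fin_cases μ <;> simp [ee]⟩⟩
  have hc := continuous_ev (jj 0 1 V)
  have hp := num_pos (om := om) (nb D) D (kb β)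
  rw [num_eq_numF (nb D) (nb D) D subset_rfl hW _ _ (by fun_prop)]
  rw [num_eq_numF (nb D) (nb D) D subset_rfl hW _ _ continuous_const] at hp ⊢
  have k := diaF h (D.subtype (· ∈ nb D))
    (fun x y : nb D => if x.1 ∈ nb D ∧ y.1 ∈ nb D then kb β x y else 0)
    (fun x y => by unfold kb; split_ifs <;> positivity)
    (fun x y => JMom_s (fun μ x => t * V μ x) x y) fun x y => by
      rw [← sq_le_one_iff_abs_le_one, JMom_sq]
      refine le_trans ?_ ((mul_le_mul_of_nonneg_left (JMom_le V x) (sq_nonneg t)).trans ht)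
      rw [Finset.mul_sum]
      refine Finset.sum_le_sum fun μ _ => ?_
      split_ifs
      · exact (mul_pow _ _ _).le
      · positivity
  refine le_trans (le_of_eq ?_) (k.trans (mul_le_mul_of_nonneg_right ?_ hp.le))
  · refine congrArg _ (funext fun τ => congrArg _ ?_)
    have e := JMom_sum β (nb D) (fun μ x => t * V μ x) (fun μ => (V μ).support)
      (fun μ x hx => by rw [Finsupp.notMem_support_iff.1 hx, mul_zero]) hT
      (JMom_J (ext0 (nb D) τ))
    have e' : ∀ x : nb D, ext0 (nb D) τ x = τ x := fun x => dif_pos x.2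
    simp only [JMom_J, e'] at e
    rw [e, JMom_ev]
    simp only [JMom_J, Finset.mul_sum, mul_assoc]
  · have e := JMom_sum β (nb D) (fun μ x => (t * V μ x) ^ 2) (fun μ => (V μ).support)
      (fun μ x hx => by rw [Finsupp.notMem_support_iff.1 hx, mul_zero, zero_pow two_ne_zero]) hT
      fun _ _ => 1
    simp only [mul_one] at e
    simp only [JMom_sq]
    rw [e, Real.exp_le_exp]
    refine mul_le_of_le_one_right (by positivity) (le_trans (le_of_eq ?_) ht)
    simp only [nsq, Finsupp.sum, Finset.mul_sum, mul_pow]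

theorem JMom_pow (y : ℝ) : y ^ 8 ≤ 40320 * (Real.exp y + Real.exp (-y)) := by
  have h := Real.pow_div_factorial_le_exp |y| (abs_nonneg y) 8
  rw [Even.pow_abs (by decide), div_le_iff₀ (by positivity)] at h
  have h1 : Real.exp |y| ≤ Real.exp y + Real.exp (-y) := by
    rcases abs_choice y with e | e <;> rw [e] <;> linarith [Real.exp_pos y, Real.exp_pos (-y)]
  norm_num [Nat.factorial] at h
  linarith

/-- If `∑ nsq (V μ) = 1` then `|V μ x| ≤ 1`; put `s x (x + ee μ) = V μ x`,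
`s (x + ee μ) x = - V μ x`, `s = 0` otherwise.  When `D` contains the endpoints of all bonds in the
support, the exponent in `diaF` (through `num_eq_numF` with `W = nb D`) is `β * ev (jj 0 1 V)` and
`∑ K s^2 = β`.  The same for `-V`, and `y^8 ≤ 8! cosh y`, so `C = 8! exp β / β^8` works; the
general case follows by homogeneity. -/
theorem jmom (h : Model om ν η) (β : ℝ) (hβ : 0 < β) :
    ∃ C : ℝ, 0 ≤ C ∧ ∀ V : Fin 2 → Site →₀ ℝ, ∀ᶠ D : Finset Site in atTop,
      plus om β D (ev (jj 0 1 V ^ 8)) ≤ C * (∑ μ, nsq (V μ)) ^ 4 := by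
  have := h.pom
  refine ⟨40320 * (2 * Real.exp (β / 2)) / (β / 2) ^ 8, by positivity, fun V => ?_⟩
  filter_upwards [eventually_ge_atTop ((V 0).support ∪ (V 1).support)] with D hD
  have hD' : ∀ μ, (V μ).support ⊆ D := fun μ => by
    fin_cases μ
    exacts [Finset.union_subset_left hD, Finset.union_subset_right hD]
  have hp := num_pos (om := om) (nb D) D (kb β)
  have hc := continuous_ev (jj 0 1 V)
  have e8 : ∀ σ, ev (jj 0 1 V ^ 8) σ = ev (jj 0 1 V) σ ^ 8 := fun σ => map_pow _ _ _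
  rw [plus, div_le_iff₀ hp]
  rcases (Finset.sum_nonneg fun μ _ => JMom_nsq (V μ) : 0 ≤ ∑ μ, nsq (V μ)).eq_or_lt with hN | hN
  · have z : ∀ μ x, V μ x = 0 := fun μ x => pow_eq_zero_iff two_ne_zero |>.1 <|
      le_antisymm ((Finset.single_le_sum (f := fun μ => V μ x ^ 2) (fun _ _ => sq_nonneg _)
        (Finset.mem_univ μ)).trans ((JMom_le V x).trans hN.ge)) (sq_nonneg _)
    refine (num_mono _ _ _ _ _ (continuous_ev _) (continuous_const.mul continuous_const)
      fun σ => ?_).trans (num_smul _ _ _ _ _).le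
    simp [e8, JMom_ev, z, ← hN]
  · obtain ⟨t, ht⟩ : ∃ t : ℝ, t ^ 2 * ∑ μ, nsq (V μ) = 1 :=
      ⟨(√(∑ μ, nsq (V μ)))⁻¹, by rw [inv_pow, Real.sq_sqrt hN.le, inv_mul_cancel₀ hN.ne']⟩
    have k1 := JMom_exp h hβ V hD' ht.le
    have k2 := JMom_exp h hβ V hD' (t := -t) (by rw [neg_sq, ht])
    have k3 := num_mono (om := om) (nb D) D (kb β) (ev (jj 0 1 V ^ 8))
      (fun σ => 40320 * (∑ μ, nsq (V μ)) ^ 4 / (β / 2) ^ 8 *
        (Real.exp (β / 2 * (t * ev (jj 0 1 V) σ)) + Real.exp (β / 2 * (-t * ev (jj 0 1 V) σ))))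
      (continuous_ev _) (by fun_prop) fun σ => by
        have k := mul_le_mul_of_nonneg_left (JMom_pow (β / 2 * (t * ev (jj 0 1 V) σ)))
          (show 0 ≤ (∑ μ, nsq (V μ)) ^ 4 by positivity)
        have e : (∑ μ, nsq (V μ)) ^ 4 * (β / 2 * (t * ev (jj 0 1 V) σ)) ^ 8 =
            (t ^ 2 * ∑ μ, nsq (V μ)) ^ 4 * (ev (jj 0 1 V) σ ^ 8 * (β / 2) ^ 8) := by ring
        rw [e, ht, one_pow, one_mul] at k
        rw [e8, div_mul_eq_mul_div, le_div_iff₀ (by positivity), neg_mul, mul_neg]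
        linarith
    rw [num_smul, num_add _ _ _ _ _ (by fun_prop) (by fun_prop)] at k3
    refine k3.trans ((mul_le_mul_of_nonneg_left (add_le_add k1 k2) (by positivity)).trans
      (le_of_eq ?_))
    ring

end Vale.Agent.P163
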