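import Vale.Agent.P163.DefsA

open MeasureTheory Filter Topology

namespace Vale.Agent.P163

variable {om : Measure S4} {ν : Measure unitInterval} {η : Measure Circle}

theorem Sym_mp_comp [IsProbabilityMeasure om] (φ : Site → Site) (hφ : Function.Injective φ) :
    MeasurePreserving (fun σ : Site → S4 => σ ∘ φ) (Measure.infinitePi fun _ : Site => om)
      (Measure.infinitePi fun _ : Site => om) :=
  ⟨measurable_pi_lambda _ fun x => measurable_pi_apply (φ x),
    Measure.map_infinitePi_infinitePi_of_inj (P := fun _ : Site => om) hφ⟩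

theorem Sym_integral {α : Type} [MeasurableSpace α] {μ : Measure α} {μ' : Measure (Site → S4)}
    {T : α → Site → S4} (hT : MeasurePreserving T μ μ') {F : (Site → S4) → ℝ}
    (hF : Continuous F) : ∫ a, F (T a) ∂μ = ∫ σ, F σ ∂μ' := by
  have h1 := integral_map (μ := μ) hT.measurable.aemeasurable (f := F) hF.aestronglyMeasurable
  rw [hT.map_eq] at h1
  exact h1.symm

theorem Sym_cont_ham (Λ : Finset Site) (K : Site → Site → ℝ) : Continuous (ham Λ K) := by
  unfold ham dot
  refine continuous_finsetSum _ fun a _ => continuous_finsetSum _ fun b _ =>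
    continuous_const.mul (continuous_finsetSum _ fun k _ => ?_)
  have hc : ∀ y : Site, Continuous fun σ : Site → S4 => (σ y).1 k := fun y =>
    (continuous_apply k).comp (continuous_subtype_val.comp (continuous_apply y))
  exact (hc a).mul (hc b)

theorem Sym_cont_frz (D : Finset Site) : Continuous (frz e0 D) := by
  refine continuous_pi fun y => ?_
  by_cases hy : y ∈ D
  · simp only [frz, hy, if_true]
    exact continuous_apply y
  · simp only [frz, hy, if_false]
    exact continuous_const

theorem Sym_cont_num (Λ D : Finset Site) (K : Site → Site → ℝ) {f : (Site → S4) → ℝ}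
    (hf : Continuous f) :
    Continuous fun σ => f (frz e0 D σ) * Real.exp (ham Λ K (frz e0 D σ)) :=
  (hf.comp (Sym_cont_frz D)).mul
    (Real.continuous_exp.comp ((Sym_cont_ham Λ K).comp (Sym_cont_frz D)))

theorem Sym_dot (g : (Fin 4 → ℝ) →ₗ[ℝ] (Fin 4 → ℝ))
    (hg : ∀ v, ∑ i, g v i ^ 2 = ∑ i, v i ^ 2) (u v : S4) :
    dot (sph g hg u) (sph g hg v) = dot u v := by
  have h1 := hg (u.1 + v.1)
  have h2 := hg u.1
  have h3 := hg v.1
  rw [map_add] at h1
  simp only [dot, sph, Fin.sum_univ_four, Pi.add_apply] at h1 h2 h3 ⊢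
  linear_combination (h1 - h2 - h3) / 2

/-- gluing of two configurations -/
def Sym_mix (p : Site → Prop) [DecidablePred p] (a b : Site → S4) (x : Site) : S4 :=
  if p x then a x else b x

theorem Sym_cont_mix (p : Site → Prop) [DecidablePred p] :
    Continuous fun z : (Site → S4) × (Site → S4) => Sym_mix p z.1 z.2 := by
  refine continuous_pi fun x => ?_
  by_cases hx : p x
  · simp only [Sym_mix, hx, if_true]
    exact (continuous_apply x).comp continuous_fst
  · simp only [Sym_mix, hx, if_false]
    exact (continuous_apply x).comp continuous_snd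

theorem Sym_mp_mix [IsProbabilityMeasure om] (p : Site → Prop) [DecidablePred p] :
    MeasurePreserving (fun z : (Site → S4) × (Site → S4) => Sym_mix p z.1 z.2)
      ((Measure.infinitePi fun _ : Site => om).prod (Measure.infinitePi fun _ : Site => om))
      (Measure.infinitePi fun _ : Site => om) := by
  have hm := (Sym_cont_mix p).measurable
  refine ⟨hm, Measure.eq_infinitePi _ fun s t ht => ?_⟩
  rw [Measure.map_apply hm (MeasurableSet.pi s.countable_toSet fun i _ => ht i)]
  have h1 : (fun z : (Site → S4) × (Site → S4) => Sym_mix p z.1 z.2) ⁻¹' (Set.pi s t) =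
      (Set.pi (s.filter p) t) ×ˢ (Set.pi (s.filter fun x => ¬ p x) t) := by
    ext z
    simp only [Set.mem_preimage, Set.mem_pi, Set.mem_prod, Finset.mem_coe, Finset.mem_filter,
      Sym_mix]
    constructor
    · intro h
      refine ⟨fun i hi => ?_, fun i hi => ?_⟩
      · simpa only [hi.2, if_true] using h i hi.1
      · simpa only [hi.2, if_false] using h i hi.1
    · rintro ⟨h1, h2⟩ i hi
      by_cases hp : p i
      · simpa only [hp, if_true] using h1 i ⟨hi, hp⟩
      · simpa only [hp, if_false] using h2 i ⟨hi, hp⟩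
  rw [h1, Measure.prod_prod, Measure.infinitePi_pi _ fun i _ => ht i,
    Measure.infinitePi_pi _ fun i _ => ht i, Finset.prod_filter_mul_prod_filter_not]

/-- relabelling of sites (`Measure.infinitePi_map_piCongrLeft`) -/
theorem num_perm [IsProbabilityMeasure om] (e : Site ≃ Site) (Λ D : Finset Site)
    (K : Site → Site → ℝ) (f : (Site → S4) → ℝ) (hf : Continuous f) :
    num om (Λ.map e.toEmbedding) (D.map e.toEmbedding) K f =
      num om Λ D (fun x y => K (e x) (e y)) (fun σ => f (σ ∘ e.symm)) := by
  unfold num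
  rw [← Sym_integral (Sym_mp_comp (om := om) e.symm e.symm.injective)
    (Sym_cont_num (Λ.map e.toEmbedding) (D.map e.toEmbedding) K hf)]
  refine integral_congr_ae (Eventually.of_forall fun σ => ?_)
  have h1 : frz e0 (D.map e.toEmbedding) (σ ∘ e.symm) = frz e0 D σ ∘ e.symm := by
    funext x
    simp only [frz, Finset.mem_map_equiv, Function.comp_apply]
  have h2 : ∀ τ : Site → S4, ham (Λ.map e.toEmbedding) K (τ ∘ e.symm) =
      ham Λ (fun x y => K (e x) (e y)) τ := by
    intro τ
    simp only [ham, Finset.sum_map, Equiv.coe_toEmbedding, Function.comp_apply,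
      Equiv.symm_apply_apply]
  simp only [h1, h2]

/-- global isometries that fix the north pole and the last axis
(`Measure.infinitePi_map_pi`; `dot` is preserved by polarization) -/
theorem num_iso (h : Model om ν η) (g : (Fin 4 → ℝ) →ₗ[ℝ] (Fin 4 → ℝ))
    (hg : ∀ v, ∑ i, g v i ^ 2 = ∑ i, v i ^ 2) (h3 : ∀ v, g v 3 = v 3) (h0 : sph g hg e0 = e0)
    (Λ D : Finset Site) (K : Site → Site → ℝ) (f : (Site → S4) → ℝ) (hf : Continuous f) :
    num om Λ D K (fun σ => f fun x => sph g hg (σ x)) = num om Λ D K f := by
  have := h.pom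
  have hs := h.inv g hg h3
  have hmp : MeasurePreserving (fun (σ : Site → S4) x => sph g hg (σ x))
      (Measure.infinitePi fun _ : Site => om) (Measure.infinitePi fun _ : Site => om) := by
    refine ⟨measurable_pi_lambda _ fun y => hs.measurable.comp (measurable_pi_apply y), ?_⟩
    have h1 := Measure.infinitePi_map_pi (μ := fun _ : Site => om)
      (f := fun _ => sph g hg) fun _ => hs.measurable
    refine h1.trans ?_
    simp only [hs.map_eq]
  unfold num
  rw [← Sym_integral hmp (Sym_cont_num Λ D K hf)]
  refine integral_congr_ae (Eventually.of_forall fun σ => ?_)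
  have h1 : frz e0 D (fun x => sph g hg (σ x)) = fun x => sph g hg (frz e0 D σ x) := by
    funext x
    by_cases hx : x ∈ D <;> simp only [frz, hx, if_true, if_false, h0]
  have h2 : ∀ τ : Site → S4, ham Λ K (fun x => sph g hg (τ x)) = ham Λ K τ := by
    intro τ
    simp only [ham, Sym_dot]
  simp only [h1, h2]

/-- Reflection positivity of the product measure.  The map
` (a, b, c) ↦ fun x => if lam x = 0 then a x else if 0 < lam x then b x else c (θ x)` pushes the
triple product of `infinitePi` to `infinitePi` (check on cylinders with `Measure.eq_infinitePi`, or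
view it through `infinitePi` of the triple product measure and `infinitePi_map_pi`), `g` becomes
`G a b`, `g (σ ∘ θ)` becomes `G a c`, so the integral is `∫ a, (∫ b, G a b) ^ 2`. -/
theorem rp_prod [IsProbabilityMeasure om] (θ : Site → Site) (lam : Site → ℤ)
    (hθ : Function.Involutive θ) (hl : ∀ x, lam (θ x) = -lam x) (h0 : ∀ x, lam x = 0 → θ x = x)
    (g : (Site → S4) → ℝ) (hg : Continuous g) (hd : DependsOn g {x | 0 ≤ lam x}) :
    0 ≤ ∫ σ, g σ * g (σ ∘ θ) ∂(Measure.infinitePi fun _ : Site => om) := by
  have hc : Continuous fun σ : Site → S4 => σ ∘ θ := continuous_pi fun x => continuous_apply _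
  have hF : Continuous fun σ : Site → S4 => g σ * g (σ ∘ θ) := hg.mul (hg.comp hc)
  rw [← Sym_integral (Sym_mp_mix (om := om) fun x => lam x = 0) hF]
  have hi := (hF.comp (Sym_cont_mix fun x => lam x = 0)).integrable_of_hasCompactSupport
    (μ := (Measure.infinitePi fun _ : Site => om).prod (Measure.infinitePi fun _ : Site => om))
    (HasCompactSupport.of_compactSpace _)
  refine le_of_le_of_eq ?_ (integral_prod _ hi).symm
  refine integral_nonneg fun a => ?_
  have hca : Continuous fun w : Site → S4 => Sym_mix (fun x => lam x = 0) a w :=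
    (Sym_cont_mix fun x => lam x = 0).comp (Continuous.prodMk_right a)
  have hG : Continuous fun w : Site → S4 => g (Sym_mix (fun x => lam x = 0) a w) := hg.comp hca
  have h1 := Sym_integral (Sym_mp_mix (om := om) fun x => 0 < lam x) (hF.comp hca)
  refine le_of_le_of_eq ?_ h1
  have h2 : ∀ z : (Site → S4) × (Site → S4),
      ((fun σ : Site → S4 => g σ * g (σ ∘ θ)) ∘ fun w => Sym_mix (fun x => lam x = 0) a w)
        (Sym_mix (fun x => 0 < lam x) z.1 z.2) =
      g (Sym_mix (fun x => lam x = 0) a z.1) * g (Sym_mix (fun x => lam x = 0) a (z.2 ∘ θ)) := by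
    intro z
    simp only [Function.comp_apply]
    congr 1
    · refine hd fun x hx => ?_
      have hx' : 0 ≤ lam x := hx
      by_cases h : lam x = 0
      · simp only [Sym_mix, h, if_true]
      · have h' : 0 < lam x := by omega
        simp only [Sym_mix, h, h', if_true, if_false]
    · refine hd fun x hx => ?_
      have hx' : 0 ≤ lam x := hx
      by_cases h : lam x = 0
      · simp only [Sym_mix, Function.comp_apply, h0 x h, h, if_true]
      · have h' : ¬ lam (θ x) = 0 := by rw [hl]; omega
        have h'' : ¬ 0 < lam (θ x) := by rw [hl]; omega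
        simp only [Sym_mix, Function.comp_apply, h, h', h'', if_false]
  simp only [h2]
  rw [integral_prod_mul (fun w => g (Sym_mix (fun x => lam x = 0) a w))
    (fun w => g (Sym_mix (fun x => lam x = 0) a (w ∘ θ))),
    Sym_integral (Sym_mp_comp (om := om) θ hθ.injective) hG]
  exact mul_self_nonneg _

/-- `ham Λ K σ = H σ + H (σ ∘ θ)` where `H` has the couplings `K x y * w x y`, `w = 1/2` if
`lam x = lam y = 0`, `w = 1` if both are nonnegative and not both zero, `w = 0` otherwise;
apply `rp_prod` to `g σ = f (frz σ) * exp (H (frz σ))`. -/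
theorem rp_num [IsProbabilityMeasure om] (θ : Site → Site) (lam : Site → ℤ)
    (hθ : Function.Involutive θ) (hl : ∀ x, lam (θ x) = -lam x) (h0 : ∀ x, lam x = 0 → θ x = x)
    (Λ D : Finset Site) (hΛ : ∀ x, θ x ∈ Λ ↔ x ∈ Λ) (hD : ∀ x, θ x ∈ D ↔ x ∈ D)
    (K : Site → Site → ℝ) (hK : ∀ x y, K (θ x) (θ y) = K x y)
    (hs : ∀ x y, 0 < lam x → lam y < 0 → K x y = 0 ∧ K y x = 0)
    (f : (Site → S4) → ℝ) (hf : Continuous f) (hd : DependsOn f {x | 0 ≤ lam x}) :
    0 ≤ num om Λ D K fun σ => f (σ ∘ θ) * f σ := by
  set w : Site → Site → ℝ := fun x y =>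
    if lam x = 0 ∧ lam y = 0 then 1 / 2 else if 0 ≤ lam x ∧ 0 ≤ lam y then 1 else 0 with hw
  set K' : Site → Site → ℝ := fun x y => K x y * w x y with hK'
  have hsum : ∀ x y, K' x y + K' (θ x) (θ y) = K x y := by
    intro x y
    simp only [hK', hw, hK, hl]
    rcases lt_trichotomy (lam x) 0 with hx | hx | hx <;>
      rcases lt_trichotomy (lam y) 0 with hy | hy | hy
    · rw [if_neg (by omega), if_neg (by omega), if_neg (by omega), if_pos (by omega)]
      ring
    · rw [if_neg (by omega), if_neg (by omega), if_neg (by omega), if_pos (by omega)]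
      ring
    · rw [(hs y x hy hx).2]
      ring
    · rw [if_neg (by omega), if_neg (by omega), if_neg (by omega), if_pos (by omega)]
      ring
    · rw [if_pos (by omega), if_pos (by omega)]
      ring
    · rw [if_neg (by omega), if_pos (by omega), if_neg (by omega), if_neg (by omega)]
      ring
    · rw [(hs x y hx hy).1]
      ring
    · rw [if_neg (by omega), if_pos (by omega), if_neg (by omega), if_neg (by omega)]
      ring
    · rw [if_neg (by omega), if_pos (by omega), if_neg (by omega), if_neg (by omega)]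
      ring
  have hre : ∀ F : Site → ℝ, ∑ x ∈ Λ, F (θ x) = ∑ x ∈ Λ, F x := fun F =>
    Finset.sum_equiv hθ.toPerm (fun x => (hΛ x).symm) fun _ _ => rfl
  have hham : ∀ τ : Site → S4, ham Λ K τ = ham Λ K' τ + ham Λ K' (τ ∘ θ) := by
    intro τ
    have h1 : ham Λ K' (τ ∘ θ) = ∑ x ∈ Λ, ∑ y ∈ Λ, K' (θ x) (θ y) * dot (τ x) (τ y) := by
      unfold ham
      rw [← hre]
      refine Finset.sum_congr rfl fun x _ => ?_
      rw [← hre]
      simp only [Function.comp_apply, hθ x, hθ _]
    rw [h1]
    unfold ham
    rw [← Finset.sum_add_distrib]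
    refine Finset.sum_congr rfl fun x _ => ?_
    rw [← Finset.sum_add_distrib]
    refine Finset.sum_congr rfl fun y _ => ?_
    rw [← add_mul, hsum]
  have hfrz : ∀ σ : Site → S4, frz e0 D (σ ∘ θ) = frz e0 D σ ∘ θ := by
    intro σ
    funext x
    simp only [frz, Function.comp_apply, hD]
  have hdep : DependsOn (fun σ => f (frz e0 D σ) * Real.exp (ham Λ K' (frz e0 D σ)))
      {x | 0 ≤ lam x} := by
    intro σ σ' h
    have h1 : ∀ x ∈ {x | 0 ≤ lam x}, frz e0 D σ x = frz e0 D σ' x := by
      intro x hx
      simp only [frz, h x hx]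
    have h2 : ham Λ K' (frz e0 D σ) = ham Λ K' (frz e0 D σ') := by
      refine Finset.sum_congr rfl fun x _ => Finset.sum_congr rfl fun y _ => ?_
      by_cases hxy : 0 ≤ lam x ∧ 0 ≤ lam y
      · rw [h1 x hxy.1, h1 y hxy.2]
      · have h3 : K' x y = 0 := by
          simp only [hK', hw]
          rw [if_neg (by omega), if_neg hxy, mul_zero]
        rw [h3, zero_mul, zero_mul]
    simp only [hd h1, h2]
  have key := rp_prod (om := om) θ lam hθ hl h0 _ (Sym_cont_num Λ D K' hf) hdep
  refine le_of_le_of_eq key ?_
  unfold num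
  refine integral_congr_ae (Eventually.of_forall fun σ => ?_)
  simp only [hfrz, hham (frz e0 D σ), Real.exp_add]
  ring

end Vale.Agent.P163
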