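import Vale.Agent.P163.Trans
import Vale.Agent.P163.Sym

open MeasureTheory Filter Topology

namespace Vale.Agent.P163

variable {om : Measure S4} {ν : Measure unitInterval} {η : Measure Circle}

theorem lim_kb0 {β : ℝ} (hβ : 0 ≤ β) (x y : Site) : 0 ≤ kb β x y := by
  unfold kb
  split_ifs <;> positivity

theorem lim_nb {D : Finset Site} {x y : Site} (hx : x ∈ D)
    (h : |x.1 - y.1| + |x.2 - y.2| ≤ 1) : y ∈ nb D := by
  refine Finset.mem_biUnion.2 ⟨x, hx, ?_⟩
  obtain ⟨a, b⟩ := x
  obtain ⟨c, d⟩ := y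
  simp only [Finset.mem_insert, Finset.mem_singleton, Prod.mk_add_mk, Prod.mk_sub_mk,
    Prod.mk.injEq] at h ⊢
  rcases abs_cases (a - c) with h1 | h1 <;> rcases abs_cases (b - d) with h2 | h2 <;> omega

theorem lim_symK (β : ℝ) {D D' : Finset Site} (hD : D ⊆ D') {x : Site} (hx : x ∈ D) (y : Site) :
    symK (nb D) (kb β) x y = symK (nb D') (kb β) x y := by
  unfold symK
  by_cases h : |x.1 - y.1| + |x.2 - y.2| = 1
  · rw [if_pos ⟨lim_nb hx (by simp), lim_nb hx h.le⟩,
      if_pos ⟨lim_nb (hD hx) (by simp), lim_nb (hD hx) h.le⟩]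
  · have h' : ¬|y.1 - x.1| + |y.2 - x.2| = 1 := by rwa [abs_sub_comm y.1, abs_sub_comm y.2]
    simp [kb, h, h']

/-- `num_congr` (for `x ∈ D` all neighbours are in `nb D ⊆ nb D'`) and `cmpS` with `Λ = nb D'` -/
theorem plus_anti (h : Model om ν η) (β : ℝ) (hβ : 0 ≤ β) (D D' : Finset Site) (hD : D ⊆ D')
    (L : List (List (Site × Bool))) (q : List Site) (c : ℝ) (hc0 : 0 ≤ c) (hc1 : c ≤ 1) :
    plus om β D' (fun σ => oA L σ * (1 - c * oB q σ)) ≤
      plus om β D (fun σ => oA L σ * (1 - c * oB q σ)) := by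
  have := h.pom
  obtain ⟨k, k0, hk⟩ := num_congr (om := om) (nb D) (nb D') D (kb β) (kb β)
    fun x hx y => lim_symK β hD hx y
  unfold plus
  rw [hk, hk, mul_div_mul_left _ _ k0.ne', div_le_div_iff₀ (num_pos _ _ _) (num_pos _ _ _),
    mul_comm (num om (nb D') D _ _) (num om (nb D') D' _ _)]
  exact cmpS h _ (lim_kb0 hβ) _ D D' hD L q c hc0 hc1

/-- continuous observables whose expectation converges -/
def LimC (om : Measure S4) (β : ℝ) (f : (Site → S4) → ℝ) : Prop :=
  Continuous f ∧ ∃ l, Tendsto (fun D => plus om β D f) atTop (𝓝 l)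

theorem lim_plus_add [IsProbabilityMeasure om] (β : ℝ) (D : Finset Site) {f g : (Site → S4) → ℝ}
    (hf : Continuous f) (hg : Continuous g) :
    plus om β D (fun σ => f σ + g σ) = plus om β D f + plus om β D g := by
  unfold plus
  rw [num_add _ _ _ _ _ hf hg, add_div]

theorem lim_plus_smul (β : ℝ) (D : Finset Site) (c : ℝ) (f : (Site → S4) → ℝ) :
    plus om β D (fun σ => c * f σ) = c * plus om β D f := by
  unfold plus
  rw [num_smul, mul_div_assoc]

theorem LimC.add [IsProbabilityMeasure om] {β : ℝ} {f g : (Site → S4) → ℝ} (hf : LimC om β f)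
    (hg : LimC om β g) : LimC om β fun σ => f σ + g σ := by
  obtain ⟨cf, a, ha⟩ := hf
  obtain ⟨cg, b, hb⟩ := hg
  exact ⟨cf.add cg, a + b, (ha.add hb).congr fun D => (lim_plus_add β D cf cg).symm⟩

theorem LimC.smul {β : ℝ} {f : (Site → S4) → ℝ} (hf : LimC om β f) (c : ℝ) :
    LimC om β fun σ => c * f σ := by
  obtain ⟨cf, a, ha⟩ := hf
  exact ⟨continuous_const.mul cf, c * a,
    (ha.const_mul c).congr fun D => (lim_plus_smul β D c f).symm⟩

theorem LimC.congr {β : ℝ} {f g : (Site → S4) → ℝ} (hf : LimC om β f) (h : ∀ σ, g σ = f σ) :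
    LimC om β g := (funext h : g = f) ▸ hf

theorem lim_anti (h : Model om ν η) {β : ℝ} (hβ : 0 ≤ β) (L : List (List (Site × Bool)))
    (q : List Site) (c : ℝ) (hc0 : 0 ≤ c) (hc1 : c ≤ 1) :
    LimC om β fun σ => oA L σ * (1 - c * oB q σ) := by
  have := h.pom
  have hc : Continuous fun σ => oA L σ * (1 - c * oB q σ) := (continuous_oA L).mul
    (continuous_const.sub (continuous_const.mul (continuous_oB q)))
  obtain ⟨m, hm⟩ := (isCompact_range hc).bddBelow
  refine ⟨hc, _, tendsto_atTop_ciInf (fun D D' hD => plus_anti h β hβ D D' hD L q c hc0 hc1)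
    ⟨m, ?_⟩⟩
  rintro _ ⟨D, rfl⟩
  refine (le_div_iff₀ (num_pos _ _ _)).2 ?_
  rw [← num_smul]
  exact num_mono _ _ _ _ _ continuous_const hc fun σ => (mul_one m).trans_le (hm ⟨σ, rfl⟩)

/-- the complex product -/
noncomputable def limZ (p : List (Site × Bool)) (σ : Site → S4) : ℂ :=
  (p.map fun v => zeta v.2 (σ v.1)).prod

theorem lim_zeta (b : Bool) (u : S4) : zeta b u = u.1 0 + sg b * u.1 1 * Complex.I :=
  Complex.ext (by simp [zeta]) (by simp [zeta])

theorem lim_contZ (p : List (Site × Bool)) : Continuous (limZ p) := by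
  refine continuous_list_prod p fun v _ => ?_
  have c : ∀ i, Continuous fun σ : Site → S4 => (((σ v.1).1 i : ℝ) : ℂ) := fun i =>
    Complex.continuous_ofReal.comp ((continuous_apply i).comp
      (continuous_subtype_val.comp (continuous_apply _)))
  simp only [lim_zeta]
  exact (c 0).add ((continuous_const.mul (c 1)).mul continuous_const)

/-- reflection of the coordinate 1 -/
def limR : (Fin 4 → ℝ) →ₗ[ℝ] (Fin 4 → ℝ) where
  toFun v := ![v 0, -v 1, v 2, v 3]
  map_add' u v := by
    ext i
    fin_cases i <;> simp [add_comm]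
  map_smul' c v := by
    ext i
    fin_cases i <;> simp

theorem limR_sq (v : Fin 4 → ℝ) : ∑ i, limR v i ^ 2 = ∑ i, v i ^ 2 := by
  simp [limR, Fin.sum_univ_four]

theorem lim_conj (p : List (Site × Bool)) (σ : Site → S4) :
    limZ p (fun x => sph limR limR_sq (σ x)) = (starRingEnd ℂ) (limZ p σ) := by
  unfold limZ
  rw [map_list_prod, List.map_map]
  refine congrArg _ (List.map_congr_left fun v _ => Complex.ext ?_ ?_) <;>
    simp [zeta, sph, limR]

theorem lim_im (h : Model om ν η) (β : ℝ) (p : List (Site × Bool)) (q : List Site) :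
    LimC om β fun σ => (limZ p σ).im * oB q σ := by
  have hc : Continuous fun σ => (limZ p σ).im * oB q σ :=
    (Complex.continuous_im.comp (lim_contZ p)).mul (continuous_oB q)
  refine ⟨hc, 0, tendsto_const_nhds.congr fun D => ?_⟩
  have h1 := num_iso h limR limR_sq (fun _ => rfl) (Subtype.ext (by simp [sph, limR, e0]))
    (nb D) D (kb β) _ hc
  have h2 := num_smul (om := om) (nb D) D (kb β) (-1) fun σ => (limZ p σ).im * oB q σ
  have h3 : ∀ σ : Site → S4, oB q (fun x => sph limR limR_sq (σ x)) = oB q σ := fun σ => rfl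
  simp only [lim_conj, h3, Complex.conj_im, neg_mul, one_mul] at h1 h2
  unfold plus
  rw [show num om (nb D) D (kb β) (fun σ => (limZ p σ).im * oB q σ) = 0 by linarith, zero_div]

theorem lim_gen (h : Model om ν η) {β : ℝ} (hβ : 0 ≤ β) (w : ℂ) (p : List (Site × Bool))
    (q : List Site) : LimC om β fun σ => (w * limZ p σ).re * oB q σ := by
  have := h.pom
  refine ((((lim_anti h hβ [p] q 0 le_rfl zero_le_one).smul w.re).add
    ((lim_anti h hβ [p] q 1 zero_le_one le_rfl).smul (-w.re))).add
    ((lim_im h β p q).smul (-w.im))).congr fun σ => ?_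
  have : oA [p] σ = (limZ p σ).re := by simp [oA, gA, limZ]
  rw [this, Complex.mul_re]
  ring

theorem lim_ev (h : Model om ν η) {β : ℝ} (hβ : 0 ≤ β) (P : Alg) : ∀ (w : ℂ)
    (p : List (Site × Bool)) (q : List Site),
    LimC om β fun σ => ev P σ * ((w * limZ p σ).re * oB q σ) := by
  have := h.pom
  induction P using MvPolynomial.induction_on with
  | C a => exact fun w p q => ((lim_gen h hβ w p q).smul a).congr fun σ => by simp [ev]
  | add P Q hP hQ =>
    exact fun w p q => ((hP w p q).add (hQ w p q)).congr fun σ => by simp [ev, add_mul]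
  | mul_X P v hP =>
    intro w p q
    obtain ⟨x, i⟩ := v
    have e : ∀ σ, ev (P * MvPolynomial.X (x, i)) σ = ev P σ * (σ x).1 i.castSucc := fun σ => by
      simp [ev]
    have z : ∀ b σ, limZ ((x, b) :: p) σ = zeta b (σ x) * limZ p σ := fun b σ => by simp [limZ]
    fin_cases i
    · refine ((hP (w / 2) ((x, true) :: p) q).add (hP (w / 2) ((x, false) :: p) q)).congr
        fun σ => ?_
      rw [e, z, z]
      simp [zeta, sg]
      ring
    · refine ((hP (-Complex.I * w / 2) ((x, true) :: p) q).add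
        (hP (Complex.I * w / 2) ((x, false) :: p) q)).congr fun σ => ?_
      rw [e, z, z]
      simp [zeta, sg]
      ring
    · refine (hP w p (x :: q)).congr fun σ => ?_
      rw [e]
      simp [oB]
      ring

/-- Bounded antitone nets converge (`tendsto_atTop_ciInf`), so `plus D (gA p * oB q)` converges
(difference of the cases `c = 0`, `c = 1`).  For the imaginary part of the same product the
expectation vanishes by `num_iso` for the reflection of the coordinate 1.  The real span of
these functions contains `1` and is stable under multiplication by each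
coordinate `0, 1, 2` of each spin, so it contains `ev P` for all `P`
(`MvPolynomial.induction_on`).  The limit is linear by uniqueness of limits. -/
theorem plus_lim (h : Model om ν η) (β : ℝ) (hβ : 0 ≤ β) :
    ∃ E : Alg →ₗ[ℝ] ℝ, ∀ P, Tendsto (fun D => plus om β D (ev P)) atTop (𝓝 (E P)) := by
  have := h.pom
  have H : ∀ P, LimC om β (ev P) := fun P =>
    (lim_ev h hβ P 1 [] []).congr fun σ => by simp [limZ, oB]
  choose c E hE using H
  refine ⟨⟨⟨E, fun P Q => tendsto_nhds_unique (hE _) (((hE P).add (hE Q)).congr fun D => ?_)⟩,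
    fun a P => tendsto_nhds_unique (hE _) (((hE P).const_mul a).congr fun D => ?_)⟩, hE⟩
  · rw [← lim_plus_add β D (c P) (c Q)]
    exact congrArg _ (funext fun σ => by simp [ev])
  · rw [← lim_plus_smul]
    exact congrArg _ (funext fun σ => by simp [ev])

end Vale.Agent.P163
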