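import Vale.Agent.P163.BasB
import Vale.Agent.P163.Big

open MvPolynomial Filter Topology

namespace Vale.Agent.P163

variable {β : ℝ} {E : Alg →ₗ[ℝ] ℝ}

theorem mw_pt (x : Site) : ∀ᶠ l : ℕ in atTop, pt l x ∈ Metric.closedBall (0 : Pl) 2 := by
  have h : Tendsto (fun l : ℕ => pt l x) atTop (𝓝 ((0 : ℝ), (0 : ℝ))) :=
    (tendsto_const_div_atTop_nhds_zero_nat _).prodMk_nhds
      (tendsto_const_div_atTop_nhds_zero_nat _)
  exact h.eventually (Metric.closedBall_mem_nhds (0 : Pl) (by norm_num))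

/-- Mermin Wagner.  `P ∈ loc (S ∩ bx l0)`; replace `f` by `smp l Φ` from `big 2 ε` with `l` large
(`genf_congr`), then `wardf`, `JB.n8`, Cauchy Schwarz. -/
theorem State.mw (h : State β E) (f : Site →₀ ℝ) (P : Alg) (hP : P ∈ loc {x | f x = 1}) :
    E (genf 0 2 f P) = 0 := by
  obtain ⟨c, hc, hJ⟩ := h.jb02.n8
  have key : ∀ ε : ℝ, 0 < ε →
      |E (genf 0 2 f P)| ≤ |β| * (c * ε * Real.sqrt (E (P * P))) := by
    intro ε hε
    obtain ⟨Φ, hΦ, h1, h2⟩ := big 2 (ε ^ 2) (by positivity)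
    have h3 : ∀ᶠ l : ℕ in atTop, ∀ x ∈ f.support, pt l x ∈ Metric.closedBall (0 : Pl) 2 :=
      (Filter.eventually_all_finset _).2 fun x _ => mw_pt x
    obtain ⟨l, hl2, hl3, hl0⟩ := (h2.and (h3.and (eventually_gt_atTop 0))).exists
    have e : genf 0 2 f P = genf 0 2 (smp l Φ) P := by
      refine genf_congr 0 2 hP _ _ fun x hx => ?_
      have hx' : f x = 1 := hx
      rw [smp_apply hl0 hΦ.2, h1 _ (hl3 x (by simp [hx'])), hx']
    rw [e, h.wardf, abs_mul]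
    refine mul_le_mul_of_nonneg_left ?_ (abs_nonneg _)
    refine h.abs_le (by positivity) (Real.sqrt_nonneg _) ?_ (Real.sq_sqrt (h.pos P)).ge
    refine h.n8_sq1 ((hJ _).mono (mul_le_mul_of_nonneg_left ?_ hc))
    exact Real.sqrt_le_iff.2 ⟨hε.le, hl2⟩
  have ht : Tendsto (fun ε : ℝ => |β| * (c * ε * Real.sqrt (E (P * P)))) (𝓝[>] 0)
      (𝓝 (|β| * (c * 0 * Real.sqrt (E (P * P))))) :=
    (Continuous.tendsto (by fun_prop) 0).mono_left nhdsWithin_le_nhds
  have := ge_of_tendsto ht (eventually_nhdsWithin_of_forall key)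
  simp only [mul_zero, zero_mul] at this
  exact abs_nonpos_iff.1 this

theorem mw_loc (i : Fin 3) (F f : Site →₀ ℝ) (hf : ∀ x, f x ≠ 0 → F x = 1) :
    sf i f ∈ loc {x | F x = 1} :=
  lc_mem_loc _ _ fun x hx => sp_mem_loc i (hf x hx)

theorem mw_d0 (F f : Site →₀ ℝ) (hf : ∀ x, f x ≠ 0 → F x = 1) :
    genf 0 2 F (sf 0 f) = -sf 2 f := by
  rw [genf_sf 0 2 0 F f hf]; simp

theorem mw_d2 (F f : Site →₀ ℝ) (hf : ∀ x, f x ≠ 0 → F x = 1) :
    genf 0 2 F (sf 2 f) = sf 0 f := by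
  rw [genf_sf 0 2 2 F f hf]; simp

/-- apply `mw` to `sf 0 f * sf 2 g` -/
theorem State.two2 (h : State β E) (f g : Site →₀ ℝ) : E (sf 2 f * sf 2 g) = vv E f g := by
  have hf : ∀ x, f x ≠ 0 → ind (f.support ∪ g.support) x = 1 := fun x hx => by
    simp [ind_apply, hx]
  have hg : ∀ x, g x ≠ 0 → ind (f.support ∪ g.support) x = 1 := fun x hx => by
    simp [ind_apply, hx]
  have := h.mw _ _ (mul_mem (mw_loc 0 _ f hf) (mw_loc 2 _ g hg))
  rw [Derivation.leibniz, mw_d0 _ _ hf, mw_d2 _ _ hg, smul_eq_mul, smul_eq_mul, mul_neg, map_add,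
    map_neg, mul_comm (sf 2 g)] at this
  unfold vv
  linarith

theorem State.two1 (h : State β E) (f g : Site →₀ ℝ) : E (sf 1 f * sf 1 g) = vv E f g := by
  rw [← h.comp, map_mul, sw12_sf1, sw12_sf1, h.two2]

theorem mw_single (i : Fin 3) (x : Site) : sf i (Finsupp.single x 1) = sp i x := by
  simp [sf, lc]

theorem State.two2' (h : State β E) (x y : Site) : E (sp 2 x * sp 2 y) = gg E (y - x) := by
  rw [← mw_single, ← mw_single, h.two2, vv, mw_single, mw_single, h.two_pt]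

theorem mw_ext (i : Fin 3) (L : Alg →ₗ[ℝ] ℝ) (hL : ∀ p : List Site, 0 ≤ L (p.map (sp i)).prod)
    (f : Site →₀ ℝ) (hf : ∀ x, 0 ≤ f x) (a : ℕ) (p : List Site) :
    0 ≤ L (sf i f ^ a * (p.map (sp i)).prod) := by
  induction a generalizing p with
  | zero => simpa using hL p
  | succ a ih =>
    have e : sf i f ^ (a + 1) * (p.map (sp i)).prod =
        ∑ x ∈ f.support, f x • (sf i f ^ a * ((x :: p).map (sp i)).prod) := by
      rw [pow_succ, mul_assoc]
      conv_lhs => enter [2, 1]; rw [sf, lc_eq_sum _ _ _ subset_rfl]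
      rw [Finset.sum_mul, Finset.mul_sum]
      refine Finset.sum_congr rfl fun x _ => ?_
      rw [List.map_cons, List.prod_cons, smul_mul_assoc, mul_smul_comm]
    rw [e, map_sum]
    refine Finset.sum_nonneg fun x _ => ?_
    rw [map_smul, smul_eq_mul]
    exact mul_nonneg (hf x) (ih _)

/-- `neg` extends to powers of smeared spins with nonnegative weights (induction on the exponents
with the lists generalized) -/
theorem State.neg_pow (h : State β E) (f : Site →₀ ℝ) (hf : ∀ x, 0 ≤ f x) (a b : ℕ) :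
    E (sf 0 f ^ a * sf 2 f ^ b) ≤ E (sf 0 f ^ a) * E (sf 2 f ^ b) := by
  have h1 : ∀ p : List Site, E ((p.map (sp 0)).prod * sf 2 f ^ b) ≤
      E (p.map (sp 0)).prod * E (sf 2 f ^ b) := by
    intro p
    have := mw_ext 2 (E (p.map (sp 0)).prod • E - E ∘ₗ LinearMap.mulLeft ℝ (p.map (sp 0)).prod)
      (fun q => by simpa using h.neg p q) f hf b []
    simpa using this
  have := mw_ext 0 (E (sf 2 f ^ b) • E - E ∘ₗ LinearMap.mulRight ℝ (sf 2 f ^ b))
    (fun p => by simpa [mul_comm (E (sf 2 f ^ b))] using h1 p) f hf a []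
  simpa [mul_comm (E (sf 2 f ^ b))] using this

theorem mw_rec (h : State β E) (f : Site →₀ ℝ) (hf : ∀ x, 0 ≤ f x) (n : ℕ) :
    E (sf 2 f ^ (n + 2)) ≤ (n + 1) * (vv E f f * E (sf 2 f ^ n)) := by
  have hF : ∀ x, f x ≠ 0 → ind f.support x = 1 := fun x hx => by simp [ind_apply, hx]
  have h1 := h.mw _ _ (mul_mem (mw_loc 0 _ f hF) (pow_mem (mw_loc 2 _ f hF) (n + 1)))
  rw [Derivation.leibniz, Derivation.leibniz_pow, mw_d0 _ _ hF, mw_d2 _ _ hF] at h1
  have e : sf 0 f • ((n + 1) • sf 2 f ^ (n + 1 - 1) • sf 0 f) + sf 2 f ^ (n + 1) • -sf 2 f =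
      ((n : ℝ) + 1) • (sf 0 f ^ 2 * sf 2 f ^ n) - sf 2 f ^ (n + 2) := by
    have : ((n : ℝ) + 1) = ((n + 1 : ℕ) : ℝ) := by push_cast; ring
    rw [this, Nat.cast_smul_eq_nsmul]
    simp only [smul_eq_mul, nsmul_eq_mul, Nat.add_sub_cancel]
    ring
  rw [e, map_sub, map_smul, smul_eq_mul] at h1
  have h2 := h.neg_pow f hf 2 n
  rw [sq] at h2
  have h3 : E (sf 2 f ^ (n + 2)) = (n + 1) * E (sf 0 f * sf 0 f * sf 2 f ^ n) := by
    rw [← sq]; linarith
  rw [h3]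
  exact mul_le_mul_of_nonneg_left h2 (by positivity)

/-- With `x = sf 0 f`, `y = sf 2 f`: `mw` for `x * y^(2k+1)` gives
`E y^(2k+2) = (2k+1) E (x^2 y^(2k)) ≤ (2k+1) E x^2 E y^(2k)`, so `E y^8 ≤ 105 (vv f f)^4`. -/
theorem State.n8_sf (h : State β E) (f : Site →₀ ℝ) (hf : ∀ x, 0 ≤ f x) (i : Fin 3) (hi : i ≠ 0) :
    N8 E (sf i f) (2 * Real.sqrt (vv E f f)) := by
  have hv := h.vv_nonneg hf hf
  have h8 : E (sf 2 f ^ 8) ≤ (2 * Real.sqrt (vv E f f)) ^ 8 := by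
    have e : (2 * Real.sqrt (vv E f f)) ^ 8 = 256 * vv E f f ^ 4 := by
      rw [mul_pow, show (8 : ℕ) = 2 * 4 from rfl, pow_mul (Real.sqrt _), Real.sq_sqrt hv]
      norm_num
    have h0 := mw_rec h f hf 0
    have h2 := mw_rec h f hf 2
    have h4 := mw_rec h f hf 4
    have h6 := mw_rec h f hf 6
    rw [pow_zero, h.one] at h0
    norm_num at h0 h2 h4 h6
    have a2 := mul_le_mul_of_nonneg_left h0 hv
    have b4 : E (sf 2 f ^ 4) ≤ 3 * vv E f f ^ 2 := by nlinarith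
    have a4 := mul_le_mul_of_nonneg_left b4 hv
    have b6 : E (sf 2 f ^ 6) ≤ 15 * vv E f f ^ 3 := by nlinarith
    have a6 := mul_le_mul_of_nonneg_left b6 hv
    have : 0 ≤ vv E f f ^ 4 := by positivity
    rw [e]; nlinarith
  refine ⟨by positivity, ?_⟩
  have : i = 1 ∨ i = 2 := by
    revert i; decide
  rcases this with rfl | rfl
  · rw [← h.comp, map_pow, sw12_sf1]; exact h8
  · exact h8

/-- pieces of normalized block spins (`vv_mono`) -/
theorem State.n8_piece (h : State β E) (l : ℕ) (s : Site) (f : Site →₀ ℝ) (hf : ∀ x, 0 ≤ f x)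
    (hf' : ∀ x, f x ≤ sh s (ind (bx l)) x) (i : Fin 3) (hi : i ≠ 0) :
    N8 E ((Real.sqrt (vb E l))⁻¹ • sf i f) 2 := by
  refine ((h.n8_sf f hf i hi).smul _).mono ?_
  have h1 : vv E f f ≤ vb E l := by
    have := h.vv_mono hf hf hf' hf'
    rwa [h.vv_sh] at this
  have h2 := Real.sqrt_le_sqrt h1
  rw [abs_of_nonneg (by positivity)]
  calc (Real.sqrt (vb E l))⁻¹ * (2 * Real.sqrt (vv E f f))
      ≤ (Real.sqrt (vb E l))⁻¹ * (2 * Real.sqrt (vb E l)) := by gcongr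
    _ = 2 * ((Real.sqrt (vb E l))⁻¹ * Real.sqrt (vb E l)) := by ring
    _ ≤ 2 * 1 := by gcongr; exact inv_mul_le_one
    _ = 2 := by ring

theorem State.n8_fb (h : State β E) (l : ℕ) (i : Fin 3) (hi : i ≠ 0) : N8 E (fb E i l) 2 := by
  refine h.n8_piece l 0 _ (fun x => ?_) (fun x => ?_) i hi
  · rw [ind_apply]; split_ifs <;> norm_num
  · rw [sh_apply, sub_zero]

end Vale.Agent.P163
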