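import Vale.Agent.P163.DefsA

open MeasureTheory Filter Topology

namespace Vale.Agent.P163

theorem qhaar_sqrt (φ : Circle) : ∃ ψ : Circle, ψ * ψ = φ :=
  ⟨Circle.exp (Complex.arg φ / 2), by rw [← Circle.exp_add, add_halves, Circle.exp_arg]⟩

/-- a square root -/
noncomputable def qhaarRt (φ : Circle) : Circle := (qhaar_sqrt φ).choose

theorem qhaarRt_mul (φ : Circle) : qhaarRt φ * qhaarRt φ = φ := (qhaar_sqrt φ).choose_spec

/-- the change of variables -/
noncomputable def qhaarHom {V : Type} [DecidableEq V] (D : Finset V) :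
    (V → Circle) × (V → Circle) × (V → Circle) →* (V → Circle) × (V → Circle) where
  toFun q := (fun x => if x ∈ D then q.2.1 x * (q.2.2 x)⁻¹ else q.2.1 x,
    fun x => if x ∈ D then q.2.1 x * q.2.2 x else q.1 x * q.1 x)
  map_one' := by
    refine Prod.ext (funext fun x => ?_) (funext fun x => ?_) <;> simp
  map_mul' a b := by
    refine Prod.ext (funext fun x => ?_) (funext fun x => ?_)
    · by_cases hx : x ∈ D
      · simp only [hx, if_true, Prod.fst_mul, Prod.snd_mul, Pi.mul_apply, mul_inv]
        exact mul_mul_mul_comm _ _ _ _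
      · simp only [hx, if_false, Prod.fst_mul, Prod.snd_mul, Pi.mul_apply]
    · by_cases hx : x ∈ D
      · simp only [hx, if_true, Prod.fst_mul, Prod.snd_mul, Pi.mul_apply]
        exact mul_mul_mul_comm _ _ _ _
      · simp only [hx, if_false, Prod.fst_mul, Prod.snd_mul, Pi.mul_apply]
        exact mul_mul_mul_comm _ _ _ _

theorem qhaarHom_cont {V : Type} [DecidableEq V] (D : Finset V) : Continuous (qhaarHom D) := by
  refine Continuous.prodMk (continuous_pi fun x => ?_) (continuous_pi fun x => ?_)
  · by_cases hx : x ∈ D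
    · simp only [hx, if_true]; fun_prop
    · simp only [hx, if_false]; fun_prop
  · by_cases hx : x ∈ D
    · simp only [hx, if_true]; fun_prop
    · simp only [hx, if_false]; fun_prop

theorem qhaarHom_surj {V : Type} [DecidableEq V] (D : Finset V) :
    Function.Surjective (qhaarHom D) := by
  rintro ⟨θ, θ'⟩
  refine ⟨(fun x => qhaarRt (θ' x), fun x => if x ∈ D then qhaarRt (θ x * θ' x) else θ x,
    fun x => (qhaarRt (θ x * θ' x))⁻¹ * θ' x), ?_⟩
  refine Prod.ext (funext fun x => ?_) (funext fun x => ?_)
  · by_cases hx : x ∈ D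
    · simp only [qhaarHom, MonoidHom.coe_mk, OneHom.coe_mk, hx, if_true, mul_inv, inv_inv]
      rw [← mul_assoc, qhaarRt_mul, mul_inv_cancel_right]
    · simp only [qhaarHom, MonoidHom.coe_mk, OneHom.coe_mk, hx, if_false]
  · by_cases hx : x ∈ D
    · simp only [qhaarHom, MonoidHom.coe_mk, OneHom.coe_mk, hx, if_true]
      rw [mul_inv_cancel_left]
    · simp only [qhaarHom, MonoidHom.coe_mk, OneHom.coe_mk, hx, if_false]
      exact qhaarRt_mul _

/-- the half character -/
noncomputable def qhaarZ {V : Type} [Fintype V] [DecidableEq V] (D : Finset V) (φ : Circle)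
    (m : V → ℤ) (δ α : V → Circle) : Circle :=
  qhaarRt φ * ∏ x, (if x ∈ D then α x else δ x) ^ m x

/-- the factor -/
noncomputable def qhaarF {V : Type} [Fintype V] [DecidableEq V] (D : Finset V)
    (e : ((V → ℤ) × Circle) × Bool) (δ α : V → Circle) : ℝ :=
  if e.2 = true then (qhaarZ D e.1.2 e.1.1 δ α : ℂ).re else (qhaarZ D e.1.2 e.1.1 δ α : ℂ).im

theorem qhaar_one {V : Type} [Fintype V] [DecidableEq V] (D : Finset V) (φ : Circle)
    (m : V → ℤ) (q : (V → Circle) × (V → Circle) × (V → Circle)) :
    (1 * ∏ x, (qhaarHom D q).1 x ^ mask D m x : Circle) =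
      qhaarZ D φ m q.1 q.2.1 * (qhaarZ D φ m q.1 q.2.2)⁻¹ := by
  unfold qhaarZ
  rw [mul_inv, mul_mul_mul_comm, mul_inv_cancel, ← Finset.prod_inv_distrib,
    ← Finset.prod_mul_distrib]
  refine congrArg (1 * ·) (Finset.prod_congr rfl fun x _ => ?_)
  by_cases hx : x ∈ D
  · simp only [qhaarHom, MonoidHom.coe_mk, OneHom.coe_mk, hx, if_true, mask, mul_zpow, inv_zpow]
  · simp only [hx, if_false, mask, zpow_zero, mul_inv_cancel]

theorem qhaar_two {V : Type} [Fintype V] [DecidableEq V] (D : Finset V) (φ : Circle)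
    (m : V → ℤ) (q : (V → Circle) × (V → Circle) × (V → Circle)) :
    (φ * ∏ x, (qhaarHom D q).2 x ^ m x : Circle) =
      qhaarZ D φ m q.1 q.2.1 * qhaarZ D φ m q.1 q.2.2 := by
  unfold qhaarZ
  rw [mul_mul_mul_comm, qhaarRt_mul, ← Finset.prod_mul_distrib]
  refine congrArg (φ * ·) (Finset.prod_congr rfl fun x _ => ?_)
  by_cases hx : x ∈ D
  · simp only [qhaarHom, MonoidHom.coe_mk, OneHom.coe_mk, hx, if_true, mul_zpow]
  · simp only [qhaarHom, MonoidHom.coe_mk, OneHom.coe_mk, hx, if_false, mul_zpow]

theorem qhaar_fac {V : Type} [Fintype V] [DecidableEq V] (D : Finset V)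
    (e : ((V → ℤ) × Circle) × Bool) (q : (V → Circle) × (V → Circle) × (V → Circle)) :
    rc 1 (mask D e.1.1) (qhaarHom D q).1 + sg e.2 * rc e.1.2 e.1.1 (qhaarHom D q).2 =
      2 * (qhaarF D e q.1 q.2.1 * qhaarF D e q.1 q.2.2) := by
  unfold rc qhaarF sg
  rw [qhaar_one D e.1.2, qhaar_two, Circle.coe_mul, Circle.coe_mul, Circle.coe_inv_eq_conj,
    Complex.mul_re, Complex.mul_re, Complex.conj_re, Complex.conj_im]
  split_ifs <;> ring

theorem qhaar_rc_cont {V : Type} [Fintype V] (φ : Circle) (m : V → ℤ) : Continuous (rc φ m) := by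
  unfold rc
  have h1 : Continuous fun θ : V → Circle => (φ * ∏ x, θ x ^ m x : Circle) :=
    continuous_const.mul (continuous_finsetProd _ fun x _ => (continuous_apply x).zpow _)
  have h2 : Continuous fun z : Circle => (z : ℂ) := continuous_subtype_val
  exact Complex.continuous_re.comp (h2.comp h1)

theorem qhaar_prod {E : Type} (l : List E) (a b : E → ℝ) :
    (l.map fun e => 2 * (a e * b e)).prod = 2 ^ l.length * ((l.map a).prod * (l.map b).prod) := by
  induction l with
  | nil => simp
  | cons e l ih => simp only [List.map_cons, List.prod_cons, List.length_cons, ih]; ring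

/-- Ginibre condition for the Haar measure, with phases and with the first copy frozen outside `D`.
The homomorphism ` (α, γ, δ) ↦ (θ, θ')` of tori with `θ x = α x * (γ x)⁻¹`, `θ' x = α x * γ x` for
`x ∈ D` and `θ x = α x`, `θ' x = δ x ^ 2` for `x ∉ D` is continuous and onto (square roots exist
in `Circle`), hence measure preserving (`MonoidHom.measurePreserving`).  With `ψ ^ 2 = φ`,
`z = ψ * χ (D.piecewise α δ)`, `w = ψ * χ (D.piecewise γ δ)` one has
`re (z * w⁻¹) + re (z * w) = 2 re z re w` and `re (z * w⁻¹) - re (z * w) = 2 im z im w`, so for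
fixed `δ` the integrand is `F α * F γ` and the integral is a square. -/
theorem q_haar {V : Type} [Fintype V] [DecidableEq V] (D : Finset V)
    (l : List (((V → ℤ) × Circle) × Bool)) :
    0 ≤ ∫ p : (V → Circle) × (V → Circle),
      (l.map fun e => rc 1 (mask D e.1.1) p.1 + sg e.2 * rc e.1.2 e.1.1 p.2).prod
        ∂((Measure.pi fun _ => haarC).prod (Measure.pi fun _ => haarC)) := by
  have i1 : MeasurableMul ((V → Circle) × (V → Circle)) := ContinuousMul.measurableMul
  have i2 : Measure.IsHaarMeasure
      ((Measure.pi fun _ : V => haarC).prod (Measure.pi fun _ : V => haarC)) := inferInstance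
  have i3 : Measure.IsHaarMeasure ((Measure.pi fun _ : V => haarC).prod
      ((Measure.pi fun _ : V => haarC).prod (Measure.pi fun _ : V => haarC))) :=
    Measure.prod.instIsHaarMeasure _ _
  have hmp : MeasurePreserving (qhaarHom D)
      ((Measure.pi fun _ : V => haarC).prod
        ((Measure.pi fun _ : V => haarC).prod (Measure.pi fun _ : V => haarC)))
      ((Measure.pi fun _ : V => haarC).prod (Measure.pi fun _ : V => haarC)) :=
    MonoidHom.measurePreserving (qhaarHom_cont D) (qhaarHom_surj D) (by simp)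
  have hc : Continuous fun p : (V → Circle) × (V → Circle) =>
      (l.map fun e => rc 1 (mask D e.1.1) p.1 + sg e.2 * rc e.1.2 e.1.1 p.2).prod :=
    continuous_list_prod l fun e _ => ((qhaar_rc_cont _ _).comp continuous_fst).add
      (continuous_const.mul ((qhaar_rc_cont _ _).comp continuous_snd))
  have hi : Integrable (fun q : (V → Circle) × (V → Circle) × (V → Circle) =>
      (l.map fun e => rc 1 (mask D e.1.1) (qhaarHom D q).1 +
        sg e.2 * rc e.1.2 e.1.1 (qhaarHom D q).2).prod) ((Measure.pi fun _ : V => haarC).prod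
      ((Measure.pi fun _ : V => haarC).prod (Measure.pi fun _ : V => haarC))) :=
    (hc.comp (qhaarHom_cont D)).integrable_of_hasCompactSupport
      (HasCompactSupport.of_compactSpace _)
  rw [← hmp.map_eq, integral_map hmp.measurable.aemeasurable hc.aestronglyMeasurable,
    integral_prod _ hi]
  refine integral_nonneg fun δ => ?_
  simp only [qhaar_fac, qhaar_prod]
  rw [integral_const_mul, integral_prod_mul (fun α => (l.map fun e => qhaarF D e δ α).prod)
    (fun α => (l.map fun e => qhaarF D e δ α).prod)]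
  exact mul_nonneg (by positivity) (mul_self_nonneg _)

/-- the case `D = univ`, trivial phases -/
theorem q3_haar : Q3 haarC := by
  intro V _ l
  classical
  have h := q_haar (Finset.univ : Finset V) (l.map fun e => ((e.1, 1), e.2))
  have hm : ∀ m : V → ℤ, mask Finset.univ m = m := fun m => funext fun x => by simp [mask]
  simpa only [List.map_map, Function.comp_def, hm] using h

end Vale.Agent.P163
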