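import Vale.Agent.P163.DefsA

open MeasureTheory Filter Topology

namespace Vale.Agent.P163

theorem isingC_prob : IsProbabilityMeasure isingC := by
  refine ⟨?_⟩
  simp only [isingC, Measure.smul_apply, Measure.add_apply, measure_univ, smul_eq_mul]
  rw [one_add_one_eq_two, ENNReal.inv_mul_cancel (by simp) (by simp)]

theorem isingC_ae : ∀ᵐ b ∂isingC, b = 1 ∨ b = -1 := by
  refine Measure.ae_smul_measure ?_ _
  rw [ae_add_measure_iff, ae_dirac_eq, ae_dirac_eq]
  simp

theorem isingC_neg : MeasurePreserving (fun b : Circle => -1 * b) isingC isingC := by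
  have hm : Measurable fun b : Circle => -1 * b := (continuous_const.mul continuous_id).measurable
  refine ⟨hm, ?_⟩
  rw [isingC, Measure.map_smul, Measure.map_add _ _ hm, Measure.map_dirac' hm,
    Measure.map_dirac' hm, add_comm]
  simp

/-- The two points of the circle. -/
noncomputable def qising_c (b : Bool) : Circle := if b = true then 1 else -1

/-- The uniform measure on the Booleans. -/
noncomputable def qising_u : Measure Bool :=
  (2 : ENNReal)⁻¹ • (Measure.dirac true + Measure.dirac false)

theorem qising_mp : MeasurePreserving qising_c qising_u isingC := by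
  have hm : Measurable qising_c := measurable_of_countable _
  refine ⟨hm, ?_⟩
  rw [qising_u, Measure.map_smul, Measure.map_add _ _ hm, Measure.map_dirac' hm,
    Measure.map_dirac' hm]
  simp [qising_c, isingC]

theorem qising_single (b : Bool) : qising_u {b} = 2⁻¹ := by
  cases b <;> simp [qising_u]

instance qising_prob : IsProbabilityMeasure qising_u := by
  refine ⟨?_⟩
  simp only [qising_u, Measure.smul_apply, Measure.add_apply, measure_univ, smul_eq_mul]
  rw [one_add_one_eq_two, ENNReal.inv_mul_cancel (by simp) (by simp)]

/-- A character of the discrete cube. -/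
noncomputable def qising_chi {V : Type} [Fintype V] (m : V → ℤ) (s : V → Bool) : ℝ :=
  ∏ x, sg (s x) ^ m x

theorem qising_rc {V : Type} [Fintype V] (m : V → ℤ) (s : V → Bool) :
    rc 1 m (fun x => qising_c (s x)) = qising_chi m s := by
  have h : ∀ b, ((qising_c b : Circle) : ℂ) = (sg b : ℝ) := by
    intro b; cases b <;> simp [qising_c, sg]
  have h2 : ((∏ x, qising_c (s x) ^ m x : Circle) : ℂ) = (qising_chi m s : ℝ) := by
    rw [show ((∏ x, qising_c (s x) ^ m x : Circle) : ℂ) =
      Circle.coeHom (∏ x, qising_c (s x) ^ m x) from rfl, map_prod, qising_chi]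
    push_cast
    refine Finset.prod_congr rfl fun x _ => ?_
    rw [← h]
    exact Circle.coe_zpow _ _
  rw [rc, one_mul, h2, Complex.ofReal_re]

theorem qising_sg_ne (b : Bool) : sg b ≠ 0 := by cases b <;> simp [sg]

theorem qising_abs_sg (b : Bool) : |sg b| = 1 := by cases b <;> simp [sg]

theorem qising_abs {V : Type} [Fintype V] (m : V → ℤ) (s : V → Bool) : |qising_chi m s| = 1 := by
  simp [qising_chi, Finset.abs_prod, abs_zpow, qising_abs_sg]

theorem qising_mul {V : Type} [Fintype V] (m : V → ℤ) (s t : V → Bool) :
    qising_chi m (fun x => s x == t x) = qising_chi m s * qising_chi m t := by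
  have h : ∀ a b : Bool, sg (a == b) = sg a * sg b := by
    intro a b; cases a <;> cases b <;> simp [sg]
  simp only [qising_chi, h, mul_zpow, Finset.prod_mul_distrib]

theorem qising_list {V : Type} [Fintype V] (l : List ((V → ℤ) × Bool)) :
    ∃ M : V → ℤ, ∀ s t : V → Bool,
      (l.map fun e => qising_chi e.1 s + sg e.2 * qising_chi e.1 (fun x => s x == t x)).prod =
        qising_chi M s * (l.map fun e => 1 + sg e.2 * qising_chi e.1 t).prod := by
  induction l with
  | nil => exact ⟨0, fun s t => by simp [qising_chi]⟩
  | cons e l ih =>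
    obtain ⟨M, hM⟩ := ih
    refine ⟨e.1 + M, fun s t => ?_⟩
    have h : qising_chi (e.1 + M) s = qising_chi e.1 s * qising_chi M s := by
      simp only [qising_chi, Pi.add_apply, zpow_add₀ (qising_sg_ne _), Finset.prod_mul_distrib]
    rw [List.map_cons, List.prod_cons, hM, List.map_cons, List.prod_cons, h, qising_mul]
    ring

theorem qising_sum {V : Type} [Fintype V] [DecidableEq V] (l : List ((V → ℤ) × Bool)) :
    0 ≤ ∑ p : (V → Bool) × (V → Bool),
      (l.map fun e => qising_chi e.1 p.1 + sg e.2 * qising_chi e.1 p.2).prod := by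
  obtain ⟨M, hM⟩ := qising_list l
  have hinv : ∀ s : V → Bool, Function.Involutive fun (t : V → Bool) x => s x == t x := by
    intro s t
    funext x
    beta_reduce
    cases s x <;> cases t x <;> rfl
  have e : ∀ s : V → Bool, ∑ t : V → Bool,
      (l.map fun e => qising_chi e.1 s + sg e.2 * qising_chi e.1 t).prod =
      qising_chi M s * ∑ t : V → Bool, (l.map fun e => 1 + sg e.2 * qising_chi e.1 t).prod := by
    intro s
    rw [Finset.mul_sum, ← (hinv s).bijective.sum_comp]
    exact Finset.sum_congr rfl fun t _ => hM s t
  rw [Fintype.sum_prod_type]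
  simp only [e, ← Finset.sum_mul]
  refine mul_nonneg ?_ (Finset.sum_nonneg fun t _ => List.prod_nonneg fun a ha => ?_)
  · have h := Finset.prod_univ_sum (fun _ : V => (Finset.univ : Finset Bool))
      fun x b => sg b ^ M x
    rw [Fintype.piFinset_univ] at h
    simp only [qising_chi]
    rw [← h]
    refine Finset.prod_nonneg fun x _ => ?_
    have h1 := neg_abs_le (sg false ^ M x)
    rw [abs_zpow, qising_abs_sg, one_zpow] at h1
    rw [Fintype.sum_bool, show sg true = 1 from rfl, one_zpow]
    linarith
  · obtain ⟨e, -, rfl⟩ := List.mem_map.1 ha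
    have h1 := neg_abs_le (sg e.2 * qising_chi e.1 t)
    rw [abs_mul, qising_abs_sg, qising_abs] at h1
    linarith

/-- Second Griffiths inequality input.  Push everything to `V → Bool` or `V → ℤˣ` (finite sums), or
use that ` (s, t) ↦ (s, s * t)` preserves the product measure.  Then the integrand is
`rc 1 (∑ m) s * ∏ (1 ± rc 1 m t)` for `s, t` with values `± 1`, the second factor is nonnegative
and the integral of the first is a product of numbers in `{0, 1}`. -/
theorem q3_ising : Q3 isingC := by
  classical
  intro V _ l
  have := isingC_prob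
  have h1 : MeasurePreserving (fun (s : V → Bool) x => qising_c (s x))
      (Measure.pi fun _ => qising_u) (Measure.pi fun _ => isingC) :=
    measurePreserving_pi _ _ fun _ => qising_mp
  have h2 := h1.prod h1
  have hc : Continuous fun p : (V → Circle) × (V → Circle) =>
      (l.map fun e => rc 1 e.1 p.1 + sg e.2 * rc 1 e.1 p.2).prod := by
    refine continuous_list_prod _ fun e _ => ?_
    unfold rc
    fun_prop
  rw [← h2.map_eq, integral_map h2.measurable.aemeasurable hc.aestronglyMeasurable,
    integral_fintype Integrable.of_finite]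
  have hw : ∀ p : (V → Bool) × (V → Bool),
      ((Measure.pi fun _ : V => qising_u).prod (Measure.pi fun _ : V => qising_u)).real {p} =
        ((2 : ENNReal)⁻¹ ^ Fintype.card V * (2 : ENNReal)⁻¹ ^ Fintype.card V).toReal := by
    rintro ⟨s, t⟩
    rw [Measure.real, ← Set.singleton_prod_singleton, Measure.prod_prod,
      ← Set.univ_pi_singleton s, ← Set.univ_pi_singleton t, Measure.pi_pi, Measure.pi_pi]
    simp only [qising_single, Finset.prod_const, Finset.card_univ]
  simp only [hw, smul_eq_mul, ← Finset.mul_sum, Prod.map_fst, Prod.map_snd, qising_rc]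
  exact mul_nonneg ENNReal.toReal_nonneg (qising_sum l)

end Vale.Agent.P163
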