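import Vale.Agent.P163.Unif
import Vale.Agent.P163.QHaar
import Vale.Agent.P163.QIsing

open MeasureTheory Filter Topology

namespace Vale.Agent.P163

theorem mod_sum (u : S4) : u.1 0 ^ 2 + u.1 1 ^ 2 + u.1 2 ^ 2 + u.1 3 ^ 2 = 1 := by
  simpa only [Fin.sum_univ_four] using u.2

theorem mod_circ (a : Circle) : (a : ℂ).re ^ 2 + (a : ℂ).im ^ 2 = 1 := by
  have := Circle.normSq_coe a
  rw [Complex.normSq_apply] at this
  nlinarith

/-- the radius in the first plane -/
noncomputable def modRad (u : S4) : unitInterval :=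
  ⟨Real.sqrt (u.1 0 ^ 2 + u.1 1 ^ 2), Real.sqrt_nonneg _, Real.sqrt_le_one.2 (by
    nlinarith [mod_sum u, sq_nonneg (u.1 2), sq_nonneg (u.1 3)])⟩

theorem mod_co (i : Fin 4) : Continuous fun u : S4 => u.1 i :=
  (continuous_apply i).comp continuous_subtype_val

theorem mod_rad_cont : Continuous modRad :=
  Continuous.subtype_mk (((mod_co 0).pow 2).add ((mod_co 1).pow 2)).sqrt _

theorem mod_rad_pol (r : unitInterval) (a b : Circle) : modRad (pol1 r a b) = r := by
  refine Subtype.ext ?_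
  show Real.sqrt (((r : ℝ) * (a : ℂ).re) ^ 2 + ((r : ℝ) * (a : ℂ).im) ^ 2) = r
  rw [mul_pow, mul_pow, ← mul_add, mod_circ, mul_one, Real.sqrt_sq r.2.1]

theorem mod_tw_pol (r : unitInterval) (a b c d : Circle) :
    tw a b (pol1 r c d) = pol1 r (a * c) (b * d) := by
  refine Subtype.ext (funext fun i => ?_)
  fin_cases i <;> simp [tw, pol1] <;> ring

theorem mod_pol_cont :
    Continuous fun p : unitInterval × Circle × Circle => pol1 p.1 p.2.1 p.2.2 := by
  have h1 : Continuous fun p : unitInterval × Circle × Circle => (p.1 : ℝ) := by fun_prop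
  have h2 : Continuous fun p : unitInterval × Circle × Circle => (p.2.1 : ℂ) :=
    continuous_subtype_val.comp (continuous_fst.comp continuous_snd)
  have h3 : Continuous fun p : unitInterval × Circle × Circle => (p.2.2 : ℂ) :=
    continuous_subtype_val.comp (continuous_snd.comp continuous_snd)
  have h4 : Continuous fun p : unitInterval × Circle × Circle => Real.sqrt (1 - (p.1 : ℝ) ^ 2) :=
    (continuous_const.sub (h1.pow 2)).sqrt
  refine Continuous.subtype_mk (continuous_pi fun i => ?_) _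
  fin_cases i
  · exact h1.mul (Complex.continuous_re.comp h2)
  · exact h1.mul (Complex.continuous_im.comp h2)
  · exact h4.mul (Complex.continuous_re.comp h3)
  · exact h4.mul (Complex.continuous_im.comp h3)

theorem mod_tw_cont : Continuous fun p : (Circle × Circle) × S4 => tw p.1.1 p.1.2 p.2 := by
  have h2 : Continuous fun p : (Circle × Circle) × S4 => (p.1.1 : ℂ) :=
    continuous_subtype_val.comp (continuous_fst.comp continuous_fst)
  have h3 : Continuous fun p : (Circle × Circle) × S4 => (p.1.2 : ℂ) :=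
    continuous_subtype_val.comp (continuous_snd.comp continuous_fst)
  have h4 : ∀ i, Continuous fun p : (Circle × Circle) × S4 => p.2.1 i := fun i =>
    (mod_co i).comp continuous_snd
  have r2 := Complex.continuous_re.comp h2
  have i2 := Complex.continuous_im.comp h2
  have r3 := Complex.continuous_re.comp h3
  have i3 := Complex.continuous_im.comp h3
  refine Continuous.subtype_mk (continuous_pi fun i => ?_) _
  fin_cases i
  · exact (r2.mul (h4 0)).sub (i2.mul (h4 1))
  · exact (i2.mul (h4 0)).add (r2.mul (h4 1))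
  · exact (r3.mul (h4 2)).sub (i3.mul (h4 3))
  · exact (i3.mul (h4 2)).add (r3.mul (h4 3))

theorem mod_arg (x y : ℝ) : ∃ a : Circle, x = Real.sqrt (x ^ 2 + y ^ 2) * (a : ℂ).re ∧
    y = Real.sqrt (x ^ 2 + y ^ 2) * (a : ℂ).im := by
  have h : ‖(⟨x, y⟩ : ℂ)‖ = Real.sqrt (x ^ 2 + y ^ 2) := Complex.norm_eq_sqrt_sq_add_sq _
  refine ⟨Circle.exp (Complex.arg ⟨x, y⟩), ?_, ?_⟩
  · rw [Circle.coe_exp, Complex.exp_ofReal_mul_I_re, ← h, Complex.norm_mul_cos_arg]
  · rw [Circle.coe_exp, Complex.exp_ofReal_mul_I_im, ← h, Complex.norm_mul_sin_arg]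

theorem mod_eq_pol (u : S4) {b : Circle}
    (h2 : u.1 2 = Real.sqrt (u.1 2 ^ 2 + u.1 3 ^ 2) * (b : ℂ).re)
    (h3 : u.1 3 = Real.sqrt (u.1 2 ^ 2 + u.1 3 ^ 2) * (b : ℂ).im) :
    ∃ a, u = pol1 (modRad u) a b := by
  obtain ⟨a, h0, h1⟩ := mod_arg (u.1 0) (u.1 1)
  have e : 1 - (modRad u : ℝ) ^ 2 = u.1 2 ^ 2 + u.1 3 ^ 2 := by
    show 1 - Real.sqrt (u.1 0 ^ 2 + u.1 1 ^ 2) ^ 2 = _
    rw [Real.sq_sqrt (by positivity)]
    linarith [mod_sum u]
  refine ⟨a, Subtype.ext (funext fun i => ?_)⟩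
  rw [← e] at h2 h3
  fin_cases i
  exacts [h0, h1, h2, h3]

/-- the rotation of the two planes as a linear map -/
noncomputable def modTw (a b : Circle) : (Fin 4 → ℝ) →ₗ[ℝ] (Fin 4 → ℝ) where
  toFun v := ![(a : ℂ).re * v 0 - (a : ℂ).im * v 1, (a : ℂ).im * v 0 + (a : ℂ).re * v 1,
    (b : ℂ).re * v 2 - (b : ℂ).im * v 3, (b : ℂ).im * v 2 + (b : ℂ).re * v 3]
  map_add' v w := by
    funext i
    fin_cases i <;> simp <;> ring
  map_smul' c v := by
    funext i
    fin_cases i <;> simp <;> ring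

theorem mod_tw_norm (a b : Circle) (v : Fin 4 → ℝ) : ∑ i, modTw a b v i ^ 2 = ∑ i, v i ^ 2 := by
  rw [Fin.sum_univ_four, Fin.sum_univ_four]
  show ((a : ℂ).re * v 0 - (a : ℂ).im * v 1) ^ 2 + ((a : ℂ).im * v 0 + (a : ℂ).re * v 1) ^ 2 +
    ((b : ℂ).re * v 2 - (b : ℂ).im * v 3) ^ 2 + ((b : ℂ).im * v 2 + (b : ℂ).re * v 3) ^ 2 = _
  linear_combination (v 0 ^ 2 + v 1 ^ 2) * mod_circ a + (v 2 ^ 2 + v 3 ^ 2) * mod_circ b

/-- Take `ν` the law of `sqrt (u0^2 + u1^2)`.  For bounded continuous `f`,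
`∫ f = ∫ b ∫ a ∫ u, f (tw a b u) = ∫ u ∫ a ∫ b, f (tw a b u)`, and for `u = pol1 r a0 b0`,
`tw a b u = pol1 r (a * a0) (b * b0)`, so the inner double integral is
`∫ a ∫ b, f (pol1 r a b)` by invariance of `haarC` and `η`; finish with
`ext_of_forall_integral_eq_of_IsFiniteMeasure`. -/
theorem polar_of_inv (om : Measure S4) [IsProbabilityMeasure om] (η : Measure Circle)
    [IsProbabilityMeasure η] (H : Set Circle)
    (h1 : ∀ b ∈ H, MeasurePreserving (fun c => b * c) η η) (h2 : ∀ᵐ b ∂η, b ∈ H)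
    (h3 : ∀ a, ∀ b ∈ H, MeasurePreserving (tw a b) om om)
    (h4 : ∀ᵐ u ∂om, ∃ r a, ∃ b ∈ H, u = pol1 r a b) :
    ∃ ν : Measure unitInterval, IsProbabilityMeasure ν ∧
      MeasurePreserving (fun p : unitInterval × Circle × Circle => pol1 p.1 p.2.1 p.2.2)
        (ν.prod (haarC.prod η)) om := by
  have mr := mod_rad_cont.measurable
  have mp := mod_pol_cont.measurable
  have : IsProbabilityMeasure (om.map modRad) := Measure.isProbabilityMeasure_map mr.aemeasurable
  refine ⟨om.map modRad, this, mp, Measure.ext_of_lintegral _ fun f hf => ?_⟩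
  have m1 : Measurable fun p : unitInterval × Circle × Circle => f (pol1 p.1 p.2.1 p.2.2) :=
    hf.comp mp
  have m2 : Measurable fun p : (Circle × Circle) × S4 => f (tw p.1.1 p.1.2 p.2) :=
    hf.comp mod_tw_cont.measurable
  rw [lintegral_map hf mp, lintegral_prod _ m1.aemeasurable,
    lintegral_map m1.lintegral_prod_right' mr]
  calc ∫⁻ u, ∫⁻ c, f (pol1 (modRad u) c.1 c.2) ∂(haarC.prod η) ∂om
      = ∫⁻ u, ∫⁻ c, f (tw c.1 c.2 u) ∂(haarC.prod η) ∂om := by
        refine lintegral_congr_ae (h4.mono ?_)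
        rintro _ ⟨r, a, b, hb, rfl⟩
        have e := ((measurePreserving_mul_left haarC a).prod (h1 b hb)).lintegral_comp
          (m1.comp (measurable_prodMk_left (x := r)))
        simp only [mod_rad_pol, mod_tw_pol]
        refine e.symm.trans (lintegral_congr fun c => ?_)
        rw [mul_comm c.1, mul_comm c.2]
        rfl
    _ = ∫⁻ c, ∫⁻ u, f (tw c.1 c.2 u) ∂om ∂(haarC.prod η) :=
        (lintegral_lintegral_swap m2.aemeasurable).symm
    _ = ∫⁻ _, ∫⁻ u, f u ∂om ∂(haarC.prod η) :=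
        lintegral_congr_ae ((measurePreserving_snd.quasiMeasurePreserving.ae h2).mono
          fun c hc => (h3 c.1 c.2 hc).lintegral_comp hf)
    _ = ∫⁻ u, f u ∂om := by simp

/-- `H = {1, -1}` -/
theorem model3 : ∃ ν, Model ((unif 3).map (emb 3 (by norm_num))) ν isingC := by
  have := unif_prob 3 (by norm_num)
  have := isingC_prob
  have me := (continuous_emb 3 (by norm_num)).measurable
  have po : IsProbabilityMeasure ((unif 3).map (emb 3 (by norm_num))) :=
    Measure.isProbabilityMeasure_map me.aemeasurable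
  obtain ⟨ν, h1, h2⟩ := polar_of_inv ((unif 3).map (emb 3 (Nat.le_succ 3))) isingC
    {b | b = 1 ∨ b = -1} (by
      rintro b (rfl | rfl)
      · simp only [one_mul]
        exact MeasurePreserving.id isingC
      · exact isingC_neg) isingC_ae
    (fun a b hb => inv3 (modTw a b) (mod_tw_norm a b) fun v hv => by
      show (b : ℂ).im * v 2 + (b : ℂ).re * v 3 = 0
      rcases hb with rfl | rfl <;> simp [hv])
    (by
      have hs : MeasurableSet {u : S4 | u.1 3 = 0} :=
        (isClosed_eq (mod_co 3) continuous_const).measurableSet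
      refine ((ae_map_iff me.aemeasurable hs).2 (ae_of_all _ fun u => by simp [emb])).mono
        fun u hu => ?_
      rcases le_total 0 (u.1 2) with h | h
      · obtain ⟨a, ha⟩ := mod_eq_pol u (b := 1) (by simp [hu, Real.sqrt_sq h]) (by simp [hu])
        exact ⟨_, a, 1, Or.inl rfl, ha⟩
      · obtain ⟨a, ha⟩ := mod_eq_pol u (b := -1)
          (by simp [hu, Real.sqrt_sq_eq_abs, abs_of_nonpos h]) (by simp [hu])
        exact ⟨_, a, -1, Or.inr rfl, ha⟩)
  exact ⟨ν, po, h1, this, q3_ising, h2, fun g hg h3 => inv3 g hg fun v hv => (h3 v).trans hv⟩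

/-- `H = univ` -/
theorem model4 : ∃ ν, Model ((unif 4).map (emb 4 le_rfl)) ν haarC := by
  have := unif_prob 4 (by norm_num)
  have po : IsProbabilityMeasure ((unif 4).map (emb 4 le_rfl)) :=
    Measure.isProbabilityMeasure_map (continuous_emb 4 le_rfl).measurable.aemeasurable
  obtain ⟨ν, h1, h2⟩ := polar_of_inv ((unif 4).map (emb 4 le_rfl)) haarC Set.univ
    (fun b _ => measurePreserving_mul_left haarC b) (ae_of_all _ fun _ => trivial)
    (fun a b _ => inv4 (modTw a b) (mod_tw_norm a b))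
    (ae_of_all _ fun u => by
      obtain ⟨b, h2, h3⟩ := mod_arg (u.1 2) (u.1 3)
      obtain ⟨a, ha⟩ := mod_eq_pol u h2 h3
      exact ⟨_, a, b, trivial, ha⟩)
  exact ⟨ν, po, h1, inferInstance, q3_haar, h2, fun g hg _ => inv4 g hg⟩

end Vale.Agent.P163
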