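import Vale.Agent.P163.Block

open MvPolynomial Filter Topology Metric

namespace Vale.Agent.P163

variable {β : ℝ} {E : Alg →ₗ[ℝ] ℝ}

theorem ren_box (h : State β E) {c : ℝ} (hs : ∀ r : ℕ, 1 ≤ r → c ≤ shell E r) (m : ℕ) :
    m * c ≤ ∑ z ∈ bx m, gg E z := by
  induction m with
  | zero => simpa using Finset.sum_nonneg fun z _ => h.gg_nonneg z
  | succ m ih =>
    have h1 := hs (m + 1) (by omega)
    rw [← Finset.sum_filter_add_sum_filter_not (bx (m + 1))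
      (fun x => |x.1| = ((m + 1 : ℕ) : ℤ) ∨ |x.2| = ((m + 1 : ℕ) : ℤ))]
    have h2 : ∑ z ∈ bx m, gg E z ≤ ∑ z ∈ (bx (m + 1)).filter
        (fun x => ¬ (|x.1| = ((m + 1 : ℕ) : ℤ) ∨ |x.2| = ((m + 1 : ℕ) : ℤ))), gg E z := by
      refine Finset.sum_le_sum_of_subset_of_nonneg (fun x hx => ?_) fun z _ _ => h.gg_nonneg z
      rw [mem_bx] at hx
      rw [Finset.mem_filter, mem_bx]
      push_cast
      omega
    unfold shell at h1
    push_cast at h1 h2 ⊢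
    linarith

theorem ren_low (h : State β E) {c : ℝ} (hc : 0 < c) (hs : ∀ r : ℕ, 1 ≤ r → c ≤ shell E r)
    (l : ℕ) (hl : 2 ≤ l) : c / 3 * (l : ℝ) ^ 3 ≤ vb E l := by
  have hsup : (ind (bx l)).support ⊆ bx l := fun x hx => by
    by_contra hn
    rw [Finsupp.mem_support_iff, ind_apply, if_neg hn] at hx
    exact hx rfl
  unfold vb
  rw [h.vv_eq _ _ _ _ hsup hsup]
  obtain ⟨m, hm1, hm2⟩ : ∃ m : ℕ, 2 * m ≤ l ∧ l ≤ 2 * m + 1 := ⟨l / 2, by omega, by omega⟩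
  have e : ∑ x ∈ bx l, ∑ y ∈ bx l, ind (bx l) x * ind (bx l) y * gg E (y - x)
      = ∑ x ∈ bx l, ∑ y ∈ bx l, gg E (y - x) :=
    Finset.sum_congr rfl fun x hx => Finset.sum_congr rfl fun y hy => by
      rw [ind_apply, ind_apply, if_pos hx, if_pos hy, one_mul, one_mul]
  rw [e]
  have h1 : ∀ x ∈ bx m, m * c ≤ ∑ y ∈ bx l, gg E (y - x) := by
    intro x hx
    refine (ren_box h hs m).trans ?_
    have e2 : ∑ z ∈ bx m, gg E z = ∑ y ∈ (bx m).image (fun z => z + x), gg E (y - x) := by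
      rw [Finset.sum_image (fun a _ b _ hab => add_right_cancel hab)]
      simp
    rw [e2]
    refine Finset.sum_le_sum_of_subset_of_nonneg (fun y hy => ?_) fun z _ _ => h.gg_nonneg _
    obtain ⟨z, hz, rfl⟩ := Finset.mem_image.1 hy
    rw [mem_bx] at hx hz ⊢
    have a1 := abs_add_le z.1 x.1
    have a2 := abs_add_le z.2 x.2
    simp only [Prod.fst_add, Prod.snd_add]
    omega
  have h2 : ∑ x ∈ bx m, ∑ y ∈ bx l, gg E (y - x) ≤ ∑ x ∈ bx l, ∑ y ∈ bx l, gg E (y - x) := by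
    refine Finset.sum_le_sum_of_subset_of_nonneg (fun x hx => ?_) fun z _ _ =>
      Finset.sum_nonneg fun y _ => h.gg_nonneg _
    rw [mem_bx] at hx ⊢
    omega
  have h3 := Finset.card_nsmul_le_sum _ _ _ h1
  rw [card_bx, nsmul_eq_mul] at h3
  push_cast at h3
  refine le_trans ?_ (h3.trans h2)
  have a1 : (l : ℝ) ≤ 2 * m + 1 := by exact_mod_cast hm2
  have a2 : (l : ℝ) ≤ 3 * m := by exact_mod_cast (by omega : l ≤ 3 * m)
  have a0 : (0 : ℝ) ≤ l := Nat.cast_nonneg l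
  have a3 : (l : ℝ) ^ 2 ≤ (2 * m + 1) ^ 2 := pow_le_pow_left₀ a0 a1 2
  have a4 : (l : ℝ) ^ 2 * (l / 3) ≤ (2 * m + 1) ^ 2 * m :=
    mul_le_mul a3 (by linarith) (by positivity) (by positivity)
  calc c / 3 * (l : ℝ) ^ 3 = ((l : ℝ) ^ 2 * (l / 3)) * c := by ring
    _ ≤ ((2 * m + 1) ^ 2 * m) * c := mul_le_mul_of_nonneg_right a4 hc.le
    _ = _ := by ring

theorem ren_geo (k n : ℕ) :
    ∑ i ∈ Finset.range n, (if k ≤ 2 ^ i then (k : ℝ) / 2 ^ i else 0) ≤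
      max 0 (2 - 2 * (k : ℝ) / 2 ^ n) := by
  induction n with
  | zero => simp
  | succ n ih =>
    rw [Finset.sum_range_succ]
    have hp : (0 : ℝ) < 2 ^ n := by positivity
    split_ifs with hk
    · have hk' : (k : ℝ) ≤ 2 ^ n := by exact_mod_cast hk
      have h1 : (k : ℝ) / 2 ^ n ≤ 1 := (div_le_one hp).2 hk'
      have h2 : 2 * (k : ℝ) / 2 ^ n = 2 * (k / 2 ^ n) := by ring
      have h3 : 2 * (k : ℝ) / 2 ^ (n + 1) = k / 2 ^ n := by rw [pow_succ]; field_simp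
      rw [max_eq_right (by linarith)] at ih
      refine le_max_of_le_right ?_
      linarith
    · have hk' : (2 : ℝ) ^ n ≤ k := by exact_mod_cast (not_le.1 hk).le
      have h1 : 1 ≤ (k : ℝ) / 2 ^ n := (one_le_div hp).2 hk'
      have h2 : 2 * (k : ℝ) / 2 ^ n = 2 * (k / 2 ^ n) := by ring
      rw [max_eq_left (by linarith)] at ih
      refine le_max_of_le_left ?_
      linarith

theorem ren_pick (g : ℕ → ℝ) (hg : ∀ k, 0 ≤ g k) (a : ℕ) (ha : 1 ≤ a) (M : ℝ)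
    (hM : ∑ k ∈ Finset.Icc 1 (2 ^ (2 * a)), g k ≤ M) :
    ∃ i : ℕ, a ≤ i ∧ ∑ k ∈ Finset.Icc (1 : ℕ) (2 ^ i), (k : ℝ) * g k ≤ 2 ^ i * (2 * M / a) := by
  by_contra hn
  push Not at hn
  have ha' : (0 : ℝ) < a := by exact_mod_cast ha
  have h1 : ∀ i ∈ Finset.Ico a (2 * a), 2 * M / a <
      ∑ k ∈ Finset.Icc (1 : ℕ) (2 ^ (2 * a)), (if k ≤ 2 ^ i then (k : ℝ) / 2 ^ i else 0) * g k := by
    intro i hi
    rw [Finset.mem_Ico] at hi
    have hp : (0 : ℝ) < 2 ^ i := by positivity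
    have h2 := hn i hi.1
    have h3 : ∑ k ∈ Finset.Icc (1 : ℕ) (2 ^ i), (k : ℝ) * g k = 2 ^ i *
        ∑ k ∈ Finset.Icc (1 : ℕ) (2 ^ i), (if k ≤ 2 ^ i then (k : ℝ) / 2 ^ i else 0) * g k := by
      rw [Finset.mul_sum]
      refine Finset.sum_congr rfl fun k hk => ?_
      rw [if_pos (Finset.mem_Icc.1 hk).2]
      field_simp
    rw [h3] at h2
    refine (lt_of_mul_lt_mul_left h2 hp.le).trans_le ?_
    refine Finset.sum_le_sum_of_subset_of_nonneg (Finset.Icc_subset_Icc_right ?_) fun k _ _ => ?_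
    · exact Nat.pow_le_pow_right (by norm_num) hi.2.le
    · refine mul_nonneg ?_ (hg k)
      split_ifs <;> positivity
  have h2 := Finset.sum_lt_sum_of_nonempty (Finset.nonempty_Ico.2 (by omega)) h1
  rw [Finset.sum_const, Nat.card_Ico, nsmul_eq_mul, Finset.sum_comm] at h2
  have h3 : ((2 * a - a : ℕ) : ℝ) * (2 * M / a) = 2 * M := by
    rw [show 2 * a - a = a by omega]; field_simp
  rw [h3] at h2
  have h4 : ∑ k ∈ Finset.Icc (1 : ℕ) (2 ^ (2 * a)), ∑ i ∈ Finset.Ico a (2 * a),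
      (if k ≤ 2 ^ i then (k : ℝ) / 2 ^ i else 0) * g k ≤
      ∑ k ∈ Finset.Icc 1 (2 ^ (2 * a)), 2 * g k := by
    refine Finset.sum_le_sum fun k _ => ?_
    rw [← Finset.sum_mul]
    refine mul_le_mul_of_nonneg_right ?_ (hg k)
    have h5 : ∑ i ∈ Finset.Ico a (2 * a), (if k ≤ 2 ^ i then (k : ℝ) / 2 ^ i else 0) ≤
        ∑ i ∈ Finset.range (2 * a), (if k ≤ 2 ^ i then (k : ℝ) / 2 ^ i else 0) := by
      refine Finset.sum_le_sum_of_subset_of_nonneg (fun i hi => ?_) fun i _ _ => ?_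
      · exact Finset.mem_range.2 (Finset.mem_Ico.1 hi).2
      · split_ifs <;> positivity
    refine h5.trans ((ren_geo k _).trans (max_le (by norm_num) ?_))
    have : (0 : ℝ) ≤ 2 * k / 2 ^ (2 * a) := by positivity
    linarith
  rw [← Finset.mul_sum] at h4
  linarith

theorem ren_step (h : State β E) (C0 : ℝ)
    (hC : ∀ A : ℕ, ∀ᶠ l : ℕ in atTop, ∑ k ∈ Finset.Icc 1 A, gb E l (6 * k) ≤ C0 * vb E l) :
    ∀ᶠ l : ℕ in atTop, ∃ K : ℕ, 1 ≤ K ∧ vb E (K * l) ≤ (K : ℝ) ^ 3 * vb E l / 2 := by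
  obtain ⟨a, ha⟩ := exists_nat_ge (4356 + 38016 * |C0|)
  have hab := abs_nonneg C0
  have ha1 : 1 ≤ a := by
    have : (1 : ℝ) ≤ a := by linarith
    exact_mod_cast this
  filter_upwards [hC (2 ^ (2 * a)), eventually_ge_atTop 1] with l hl hl1
  obtain ⟨i, hi, hs⟩ := ren_pick (fun k => gb E l (6 * k)) (fun k => h.gb_nonneg l _) a ha1 _ hl
  refine ⟨2 ^ i, Nat.one_le_two_pow, ?_⟩
  have hb := h.block l (2 ^ i) hl1 Nat.one_le_two_pow
  have hK : (a : ℝ) ≤ ((2 ^ i : ℕ) : ℝ) := by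
    exact_mod_cast hi.trans Nat.lt_two_pow_self.le
  have e : (2 : ℝ) ^ i = ((2 ^ i : ℕ) : ℝ) := by push_cast; rfl
  rw [e] at hs
  generalize ((2 ^ i : ℕ) : ℝ) = K at hb hK hs ⊢
  have hv := h.vb_nonneg l
  have ha0 : (0 : ℝ) < a := by linarith
  have h1 : 2 * (C0 * vb E l) / a ≤ vb E l / 19008 := by
    rw [div_le_div_iff₀ ha0 (by norm_num)]
    have := mul_le_mul_of_nonneg_left (show 38016 * C0 ≤ a by linarith [le_abs_self C0]) hv
    linarith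
  have hK0 : 0 ≤ K := by linarith
  have h2 := hs.trans (mul_le_mul_of_nonneg_left h1 hK0)
  have h3 : 4356 * vb E l ≤ K * vb E l := mul_le_mul_of_nonneg_right (by linarith) hv
  refine hb.trans ?_
  have h4 : 121 * vb E l + 528 * ∑ k ∈ Finset.Icc (1 : ℕ) (2 ^ i), (k : ℝ) * gb E l (6 * k)
      ≤ K * vb E l / 18 := by linarith
  calc _ ≤ 9 * K ^ 2 * (K * vb E l / 18) := mul_le_mul_of_nonneg_left h4 (by positivity)
    _ = _ := by ring

/-- If `shell r ≥ c` for all `r ≥ 1` then `vb l ≥ c l^3 / 3` for `l ≥ 2`.  On the other hand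
`vb (K l) ≤ K^3 vb l / 2` for all large `l` and some `K`; so `vb l / l^3` has infimum zero along
large `l`. -/
theorem State.shell_small (h : State β E) (C0 : ℝ)
    (hC : ∀ A : ℕ, ∀ᶠ l : ℕ in atTop, ∑ k ∈ Finset.Icc 1 A, gb E l (6 * k) ≤ C0 * vb E l)
    (c : ℝ) (hc : 0 < c) : ∃ r : ℕ, 1 ≤ r ∧ shell E r < c := by
  by_contra hn
  push Not at hn
  obtain ⟨L, hL⟩ := eventually_atTop.1 ((ren_step h C0 hC).and (eventually_ge_atTop 2))
  have hL2 := (hL L le_rfl).2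
  have key : ∀ n : ℕ, ∃ l : ℕ, L ≤ l ∧ vb E l ≤ (l : ℝ) ^ 3 * (vb E L * (1 / 2) ^ n) := by
    intro n
    induction n with
    | zero =>
      refine ⟨L, le_rfl, ?_⟩
      have h1 : (1 : ℝ) ≤ (L : ℝ) ^ 3 := one_le_pow₀ (by exact_mod_cast (by omega : 1 ≤ L))
      have := mul_le_mul_of_nonneg_right h1 (h.vb_nonneg L)
      simpa using this
    | succ n ih =>
      obtain ⟨l, hl, hv⟩ := ih
      obtain ⟨K, hK, hs⟩ := (hL l hl).1
      refine ⟨K * l, hl.trans (Nat.le_mul_of_pos_left l hK), hs.trans ?_⟩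
      have := mul_le_mul_of_nonneg_left hv (show (0 : ℝ) ≤ (K : ℝ) ^ 3 by positivity)
      push_cast
      calc _ ≤ (K : ℝ) ^ 3 * ((l : ℝ) ^ 3 * (vb E L * (1 / 2) ^ n)) / 2 := by linarith
        _ = _ := by ring
  have ht : Tendsto (fun n : ℕ => vb E L * (1 / 2 : ℝ) ^ n) atTop (𝓝 (vb E L * 0)) :=
    (tendsto_pow_atTop_nhds_zero_of_lt_one (by norm_num) (by norm_num)).const_mul _
  rw [mul_zero] at ht
  obtain ⟨n, hn'⟩ := (ht.eventually (gt_mem_nhds (show (0 : ℝ) < c / 3 by positivity))).exists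
  obtain ⟨l, hl, hv⟩ := key n
  have h1 := ren_low h hc hn l (hL2.trans hl)
  have h2 : (0 : ℝ) < (l : ℝ) ^ 3 := by
    have : 0 < l := by omega
    positivity
  have h3 := mul_lt_mul_of_pos_left hn' h2
  linarith

end Vale.Agent.P163
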