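import Vale.Agent.P163.DefsA

open MeasureTheory Filter Topology

namespace Vale.Agent.P163

variable {om : Measure S4} {ν : Measure unitInterval} {η : Measure Circle}

/-- the infinitesimal rotation of the plane i, j -/
def WardF_L (i j : Fin 3) : (Fin 4 → ℝ) →ₗ[ℝ] (Fin 4 → ℝ) where
  toFun v k := (if k = j.castSucc then v i.castSucc else 0) -
    (if k = i.castSucc then v j.castSucc else 0)
  map_add' u v := by
    ext k
    simp only [Pi.add_apply]
    split_ifs <;> ring
  map_smul' c v := by
    ext k
    simp only [Pi.smul_apply, smul_eq_mul, RingHom.id_apply]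
    split_ifs <;> ring

theorem WardF_L_apply (i j : Fin 3) (v : Fin 4 → ℝ) (k : Fin 4) :
    WardF_L i j v k = (if k = j.castSucc then v i.castSucc else 0) -
      (if k = i.castSucc then v j.castSucc else 0) := rfl

theorem WardF_L3 (i j : Fin 3) (v : Fin 4 → ℝ) :
    WardF_L i j (WardF_L i j (WardF_L i j v)) = -WardF_L i j v := by
  ext k
  simp only [WardF_L_apply, Pi.neg_apply, Fin.castSucc_inj]
  by_cases h : i = j
  · subst h
    simp
  · have h' : ¬ j = i := fun e => h e.symm
    simp only [h, h', if_true, if_false]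
    split_ifs <;> ring

theorem WardF_dot (i j : Fin 3) (u w : Fin 4 → ℝ) :
    ∑ k, WardF_L i j u k * w k = u i.castSucc * w j.castSucc - u j.castSucc * w i.castSucc := by
  simp only [WardF_L_apply, sub_mul, ite_mul, zero_mul, Finset.sum_sub_distrib,
    Finset.sum_ite_eq', Finset.mem_univ, if_true]

theorem WardF_anti (i j : Fin 3) (u w : Fin 4 → ℝ) :
    ∑ k, WardF_L i j u k * w k = -∑ k, WardF_L i j w k * u k := by
  rw [WardF_dot, WardF_dot]
  ring

/-- the rotation by the angle `t` -/
noncomputable def WardF_R (i j : Fin 3) (t : ℝ) : (Fin 4 → ℝ) →ₗ[ℝ] (Fin 4 → ℝ) :=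
  LinearMap.id + Real.sin t • WardF_L i j + (1 - Real.cos t) • (WardF_L i j ∘ₗ WardF_L i j)

theorem WardF_R_apply (i j : Fin 3) (t : ℝ) (v : Fin 4 → ℝ) (k : Fin 4) :
    WardF_R i j t v k = v k + Real.sin t * WardF_L i j v k +
      (1 - Real.cos t) * WardF_L i j (WardF_L i j v) k := rfl

theorem WardF_R_norm (i j : Fin 3) (t : ℝ) (v : Fin 4 → ℝ) :
    ∑ k, WardF_R i j t v k ^ 2 = ∑ k, v k ^ 2 := by
  set a := WardF_L i j v with ha
  set b := WardF_L i j a with hb
  have h1 := WardF_anti i j v v
  have h2 := WardF_anti i j a v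
  have h3 := WardF_anti i j a a
  have h4 := WardF_anti i j a b
  have h5 : WardF_L i j b = -a := WardF_L3 i j v
  rw [h5] at h4
  rw [← ha] at h1 h2
  rw [← hb] at h2 h3 h4
  have h6 := Real.sin_sq_add_cos_sq t
  simp only [WardF_R_apply, ← ha, ← hb]
  simp only [Fin.sum_univ_four, Pi.neg_apply] at h1 h2 h3 h4 ⊢
  linear_combination Real.sin t * h1 + 2 * (1 - Real.cos t) * h2 +
    Real.sin t * (1 - Real.cos t) * h3 + (1 - Real.cos t) ^ 2 * h4 +
    (a 0 ^ 2 + a 1 ^ 2 + a 2 ^ 2 + a 3 ^ 2) * h6

theorem WardF_L_three (i j : Fin 3) (v : Fin 4 → ℝ) : WardF_L i j v 3 = 0 := by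
  have h : ∀ l : Fin 3, ¬ (3 : Fin 4) = l.castSucc := by decide
  simp [WardF_L_apply, h]

theorem WardF_R_three (i j : Fin 3) (t : ℝ) (v : Fin 4 → ℝ) : WardF_R i j t v 3 = v 3 := by
  rw [WardF_R_apply, WardF_L_three, WardF_L_three]
  ring

theorem WardF_R_deriv (i j : Fin 3) (v : Fin 4 → ℝ) (k : Fin 4) (t : ℝ) :
    HasDerivAt (fun s => WardF_R i j s v k) (WardF_L i j (WardF_R i j t v) k) t := by
  have h1 : WardF_L i j (WardF_R i j t v) k = Real.cos t * WardF_L i j v k +
      Real.sin t * WardF_L i j (WardF_L i j v) k := by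
    have : WardF_R i j t v = v + Real.sin t • WardF_L i j v +
        (1 - Real.cos t) • WardF_L i j (WardF_L i j v) := rfl
    rw [this, map_add, map_add, map_smul, map_smul, WardF_L3]
    simp only [Pi.add_apply, Pi.smul_apply, Pi.neg_apply, smul_eq_mul]
    ring
  rw [h1]
  have h2 := (((Real.hasDerivAt_sin t).mul_const (WardF_L i j v k)).const_add (v k)).fun_add
    (((Real.hasDerivAt_cos t).const_sub 1).mul_const (WardF_L i j (WardF_L i j v) k))
  simp only [WardF_R_apply]
  exact h2.congr_deriv (by ring)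

/-- the rotation of one site -/
noncomputable def WardF_f (i j : Fin 3) (x : Site) (t : ℝ) (y : Site) (u : S4) : S4 :=
  if y = x then sph (WardF_R i j t) (WardF_R_norm i j t) u else u

/-- the rotated configuration -/
noncomputable def WardF_rot (i j : Fin 3) (x : Site) (t : ℝ) (σ : Site → S4) (y : Site) : S4 :=
  WardF_f i j x t y (σ y)

theorem WardF_f_mp (h : Model om ν η) (i j : Fin 3) (x : Site) (t : ℝ) (y : Site) :
    MeasurePreserving (WardF_f i j x t y) om om := by
  by_cases hy : y = x
  · have : WardF_f i j x t y = sph (WardF_R i j t) (WardF_R_norm i j t) := by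
      ext1 u
      simp [WardF_f, hy]
    rw [this]
    exact h.inv _ _ (WardF_R_three i j t)
  · have : WardF_f i j x t y = id := by
      ext1 u
      simp [WardF_f, hy]
    rw [this]
    exact MeasurePreserving.id om

theorem WardF_rot_mp (h : Model om ν η) (i j : Fin 3) (x : Site) (t : ℝ) :
    MeasurePreserving (WardF_rot i j x t) (Measure.infinitePi fun _ : Site => om)
      (Measure.infinitePi fun _ : Site => om) := by
  have := h.pom
  have hm : ∀ y, Measurable (WardF_f i j x t y) := fun y => (WardF_f_mp h i j x t y).measurable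
  refine ⟨measurable_pi_lambda _ fun y => (hm y).comp (measurable_pi_apply y), ?_⟩
  have h1 := Measure.infinitePi_map_pi (μ := fun _ : Site => om) hm
  refine h1.trans ?_
  congr 1
  funext y
  exact (WardF_f_mp h i j x t y).map_eq

theorem WardF_rot_frz (i j : Fin 3) {x : Site} {D : Finset Site} (hD : x ∈ D) (t : ℝ)
    (σ : Site → S4) :
    frz e0 D (WardF_rot i j x t σ) = WardF_rot i j x t (frz e0 D σ) := by
  funext y
  by_cases hy : y ∈ D
  · simp [frz, WardF_rot, hy]
  · have : ¬ y = x := fun e => hy (e ▸ hD)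
    simp [frz, WardF_rot, WardF_f, hy, this]

theorem WardF_rot_zero (i j : Fin 3) (x : Site) (σ : Site → S4) : WardF_rot i j x 0 σ = σ := by
  funext y
  by_cases hy : y = x
  · apply Subtype.ext
    funext k
    simp [WardF_rot, WardF_f, hy, sph, WardF_R_apply]
  · simp [WardF_rot, WardF_f, hy]

theorem WardF_rot_deriv (i j : Fin 3) (x : Site) (σ : Site → S4) (y : Site) (k : Fin 4) (t : ℝ) :
    HasDerivAt (fun s => (WardF_rot i j x s σ y).1 k)
      (if y = x then WardF_L i j (WardF_rot i j x t σ x).1 k else 0) t := by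
  by_cases hy : y = x
  · subst hy
    simp only [WardF_rot, WardF_f, if_true, sph]
    exact WardF_R_deriv i j _ k t
  · simp only [WardF_rot, WardF_f, hy, if_false]
    exact hasDerivAt_const _ _

theorem WardF_ev_add (P Q : Alg) (σ : Site → S4) : ev (P + Q) σ = ev P σ + ev Q σ := by
  simp [ev]

theorem WardF_ev_mul (P Q : Alg) (σ : Site → S4) : ev (P * Q) σ = ev P σ * ev Q σ := by
  simp [ev]

theorem WardF_ev_X (v : Site × Fin 3) (σ : Site → S4) :
    ev (MvPolynomial.X v) σ = (σ v.1).1 v.2.castSucc := by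
  simp [ev]

theorem WardF_ev_gen_X (i j : Fin 3) (x : Site) (v : Site × Fin 3) (σ : Site → S4) :
    ev (gen i j x (MvPolynomial.X v)) σ =
      if v.1 = x then WardF_L i j (σ x).1 v.2.castSucc else 0 := by
  obtain ⟨y, k⟩ := v
  simp only [gen, Derivation.coe_sub, Derivation.coe_smul, Pi.sub_apply, Pi.smul_apply,
    MvPolynomial.pderiv_X, Pi.single_apply, smul_eq_mul, WardF_L_apply, Fin.castSucc_inj,
    Prod.mk.injEq, ev, sp, map_sub, map_mul, MvPolynomial.eval_X]
  by_cases hy : y = x <;> by_cases h1 : k = j <;> by_cases h2 : k = i <;> simp [hy, h1, h2]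

theorem WardF_ev_deriv (i j : Fin 3) (x : Site) (σ : Site → S4) (P : Alg) (t : ℝ) :
    HasDerivAt (fun s => ev P (WardF_rot i j x s σ)) (ev (gen i j x P) (WardF_rot i j x t σ)) t := by
  induction P using MvPolynomial.induction_on with
  | C a =>
    have h1 : gen i j x (MvPolynomial.C a) = 0 := (gen i j x).map_algebraMap a
    rw [h1]
    simp only [ev, MvPolynomial.eval_C, map_zero]
    exact hasDerivAt_const _ _
  | add p q hp hq =>
    simp only [map_add, WardF_ev_add]
    exact hp.fun_add hq
  | mul_X p v hp =>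
    have h1 := hp.fun_mul (WardF_rot_deriv i j x σ v.1 v.2.castSucc t)
    simp only [Derivation.leibniz, smul_eq_mul, WardF_ev_add, WardF_ev_mul, WardF_ev_X,
      WardF_ev_gen_X]
    exact h1.congr_deriv (by ring)

theorem WardF_ham_deriv (i j : Fin 3) {x : Site} {Λ : Finset Site} (hΛ : x ∈ Λ)
    (K : Site → Site → ℝ) (σ : Site → S4) (t : ℝ) :
    HasDerivAt (fun s => ham Λ K (WardF_rot i j x s σ))
      (ev (∑ y ∈ Λ, (K x y + K y x) • (sp i x * sp j y - sp j x * sp i y))
        (WardF_rot i j x t σ)) t := by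
  set τ := WardF_rot i j x t σ with hτ
  set w : Site → ℝ := fun y =>
    (τ x).1 i.castSucc * (τ y).1 j.castSucc - (τ x).1 j.castSucc * (τ y).1 i.castSucc with hw
  have hd : ∀ a b, HasDerivAt (fun s => dot (WardF_rot i j x s σ a) (WardF_rot i j x s σ b))
      ((if a = x then w b else 0) + if b = x then w a else 0) t := by
    intro a b
    have h1 := HasDerivAt.fun_sum (u := Finset.univ) fun (k : Fin 4) _ =>
      (WardF_rot_deriv i j x σ a k t).fun_mul (WardF_rot_deriv i j x σ b k t)
    refine h1.congr_deriv ?_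
    rw [Finset.sum_add_distrib, ← hτ]
    congr 1
    · split_ifs
      · exact WardF_dot i j _ _
      · simp
    · split_ifs
      · simp only [mul_comm ((τ a).1 _)]
        exact WardF_dot i j _ _
      · simp
  have h2 := HasDerivAt.fun_sum (u := Λ) fun a _ =>
    HasDerivAt.fun_sum (u := Λ) fun b _ => (hd a b).const_mul (K a b)
  refine h2.congr_deriv ?_
  have h3 : ev (∑ y ∈ Λ, (K x y + K y x) • (sp i x * sp j y - sp j x * sp i y)) τ =
      ∑ y ∈ Λ, (K x y + K y x) * w y := by
    simp only [ev, map_sum, MvPolynomial.smul_eval, map_sub, map_mul, sp, MvPolynomial.eval_X, hw]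
  rw [h3]
  simp only [mul_add, Finset.sum_add_distrib, add_mul, mul_ite, mul_zero]
  congr 1
  · rw [Finset.sum_comm]
    simp only [Finset.sum_ite_eq', hΛ, if_true]
  · simp only [Finset.sum_ite_eq', hΛ, if_true]

theorem WardF_cont_ev (P : Alg) : Continuous (ev P) := by
  unfold ev
  refine (MvPolynomial.continuous_eval P).comp (continuous_pi fun v => ?_)
  exact (continuous_apply _).comp (continuous_subtype_val.comp (continuous_apply _))

theorem WardF_cont_ham (Λ : Finset Site) (K : Site → Site → ℝ) : Continuous (ham Λ K) := by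
  unfold ham dot
  refine continuous_finsetSum _ fun a _ => continuous_finsetSum _ fun b _ =>
    continuous_const.mul (continuous_finsetSum _ fun k _ => ?_)
  have hc : ∀ y : Site, Continuous fun σ : Site → S4 => (σ y).1 k := fun y =>
    (continuous_apply k).comp (continuous_subtype_val.comp (continuous_apply y))
  exact (hc a).mul (hc b)

theorem WardF_cont_frz (D : Finset Site) : Continuous (frz e0 D) := by
  refine continuous_pi fun y => ?_
  by_cases hy : y ∈ D
  · simp only [frz, hy, if_true]
    exact continuous_apply y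
  · simp only [frz, hy, if_false]
    exact continuous_const

theorem WardF_int (h : Model om ν η) {f : (Site → S4) → ℝ} (hf : Continuous f) :
    Integrable f (Measure.infinitePi fun _ : Site => om) := by
  have := h.pom
  exact hf.integrable_of_hasCompactSupport (HasCompactSupport.of_compactSpace _)

/-- the abstract Ward identity -/
theorem WardF_main (h : Model om ν η) (i j : Fin 3) {x : Site} {D : Finset Site} (hD : x ∈ D)
    {f g : (Site → S4) → ℝ} (hf : Continuous f) (hg : Continuous g)
    (hd : ∀ σ t, HasDerivAt (fun s => f (WardF_rot i j x s σ)) (g (WardF_rot i j x t σ)) t) :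
    ∫ σ, g (frz e0 D σ) ∂(Measure.infinitePi fun _ : Site => om) = 0 := by
  have := h.pom
  set μ := Measure.infinitePi fun _ : Site => om with hμ
  have hf' : Continuous fun σ => f (frz e0 D σ) := hf.comp (WardF_cont_frz D)
  have hg' : Continuous fun σ => g (frz e0 D σ) := hg.comp (WardF_cont_frz D)
  obtain ⟨C, hC⟩ := (isCompact_range hg.norm).bddAbove
  have hC' : ∀ σ, ‖g σ‖ ≤ C := fun σ => hC ⟨σ, rfl⟩
  have hm : ∀ t, AEStronglyMeasurable (fun σ => f (frz e0 D (WardF_rot i j x t σ))) μ := fun t =>
    (hf'.measurable.comp (WardF_rot_mp h i j x t).measurable).aestronglyMeasurable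
  have key := hasDerivAt_integral_of_dominated_loc_of_deriv_le (μ := μ) (x₀ := (0 : ℝ))
    (s := Set.univ) (F := fun t σ => f (frz e0 D (WardF_rot i j x t σ)))
    (F' := fun t σ => g (frz e0 D (WardF_rot i j x t σ))) (bound := fun _ => C) univ_mem
    (Eventually.of_forall hm)
    (by simp only [WardF_rot_zero]; exact WardF_int h hf')
    (by simp only [WardF_rot_zero]; exact hg'.aestronglyMeasurable)
    (Eventually.of_forall fun σ t _ => hC' _) (integrable_const C)
    (Eventually.of_forall fun σ t _ => by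
      simp only [WardF_rot_frz i j hD]
      exact hd _ t)
  have hconst : (fun t => ∫ σ, f (frz e0 D (WardF_rot i j x t σ)) ∂μ) =
      fun _ => ∫ σ, f (frz e0 D σ) ∂μ := by
    funext t
    have hmp := WardF_rot_mp h i j x t
    have h1 := integral_map (μ := μ) hmp.measurable.aemeasurable
      (f := fun σ => f (frz e0 D σ)) hf'.aestronglyMeasurable
    rw [hmp.map_eq] at h1
    exact h1.symm
  have h2 := key.2
  rw [hconst] at h2
  have h3 := h2.unique (hasDerivAt_const _ _)
  simpa only [WardF_rot_zero] using h3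

/-- Local Ward identity.  For `i ≠ j` let `R t` be the rotation `v i ↦ cos t * v i - sin t * v j`,
`v j ↦ sin t * v i + cos t * v j` (an instance of `sph`, it fixes the coordinate 3).  Rotating the
spin at `x` preserves `infinitePi` (`Measure.infinitePi_map_pi`, `h.inv`) and commutes with `frz`
as `x ∈ D`.  So `t ↦ ∫ (ev P * exp ham) (rotated σ)` is constant; differentiate at `t = 0` under
the integral (`hasDerivAt_integral_of_dominated_loc_of_deriv_le`; everything is continuous on a
compact space).  The derivative of `ev P` along the rotation is `ev (gen i j x P)` evaluated at the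
rotated point (induction on `P`). -/
theorem ward_num (h : Model om ν η) (Λ D : Finset Site) (K : Site → Site → ℝ) (x : Site)
    (hD : x ∈ D) (hΛ : x ∈ Λ) (i j : Fin 3) (P : Alg) :
    num om Λ D K (ev (gen i j x P)) + num om Λ D K
      (ev (P * ∑ y ∈ Λ, (K x y + K y x) • (sp i x * sp j y - sp j x * sp i y))) = 0 := by
  set Q : Alg := ∑ y ∈ Λ, (K x y + K y x) • (sp i x * sp j y - sp j x * sp i y) with hQ
  have hH : Continuous fun σ => Real.exp (ham Λ K σ) :=
    Real.continuous_exp.comp (WardF_cont_ham Λ K)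
  have c1 : Continuous fun σ => ev (gen i j x P) σ * Real.exp (ham Λ K σ) :=
    (WardF_cont_ev _).mul hH
  have c2 : Continuous fun σ => ev (P * Q) σ * Real.exp (ham Λ K σ) := (WardF_cont_ev _).mul hH
  have key := WardF_main h i j hD (f := fun σ => ev P σ * Real.exp (ham Λ K σ))
    (g := fun σ => ev (gen i j x P) σ * Real.exp (ham Λ K σ) +
      ev (P * Q) σ * Real.exp (ham Λ K σ)) ((WardF_cont_ev _).mul hH) (c1.add c2) fun σ t => by
      have h1 := (WardF_ev_deriv i j x σ P t).fun_mul (WardF_ham_deriv i j hΛ K σ t).exp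
      refine h1.congr_deriv ?_
      rw [WardF_ev_mul, ← hQ]
      ring
  exact (integral_add (WardF_int h (c1.comp (WardF_cont_frz D)))
    (WardF_int h (c2.comp (WardF_cont_frz D)))).symm.trans key

end Vale.Agent.P163
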