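import Vale.Agent.P163.StA
import Vale.Agent.P163.WardF
import Vale.Agent.P163.JMom

open MeasureTheory Filter Topology

namespace Vale.Agent.P163

variable {om : Measure S4} {ν : Measure unitInterval} {η : Measure Circle} {β : ℝ}
  {E : Alg →ₗ[ℝ] ℝ}

theorem StB_sum (β : ℝ) {D : Finset Site} {x : Site} (hx : x ∈ D) (T : Site → Alg) :
    ∑ y ∈ nb D, (kb β x y + kb β y x) • T y =
      β • (T (x + (1, 0)) + T (x - (1, 0)) + T (x + (0, 1)) + T (x - (0, 1))) := by
  obtain ⟨a, b⟩ := x
  have hs : ({(a + 1, b), (a - 1, b), (a, b + 1), (a, b - 1)} : Finset Site) ⊆ nb D := by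
    intro y hy
    refine Finset.mem_biUnion.2 ⟨_, hx, ?_⟩
    simp only [Prod.mk_add_mk, Prod.mk_sub_mk, add_zero, sub_zero]
    exact Finset.mem_insert_of_mem hy
  rw [← Finset.sum_subset hs]
  · rw [Finset.sum_insert (by simp; omega), Finset.sum_insert (by simp),
      Finset.sum_insert (by simp; omega), Finset.sum_singleton]
    simp [kb, add_assoc]
  · rintro ⟨c, d⟩ _ hy
    simp only [Finset.mem_insert, Finset.mem_singleton, Prod.mk.injEq] at hy
    have h1 : ¬ |a - c| + |b - d| = 1 := by
      intro h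
      rcases abs_cases (a - c) with h1 | h1 <;> rcases abs_cases (b - d) with h2 | h2 <;> omega
    have h2 : ¬ |c - a| + |d - b| = 1 := by rwa [abs_sub_comm c, abs_sub_comm d]
    simp [kb, h1, h2]

theorem StB_evA (p : List Site) :
    ev (p.map (sp 0)).prod = oA (p.map fun x => [(x, true)]) := by
  funext σ
  induction p with
  | nil => simp [ev, oA]
  | cons x p ih =>
    rw [List.map_cons, List.prod_cons, WardF_ev_mul, ih]
    simp [oA, gA, zeta, sp, WardF_ev_X]

theorem StB_evB (q : List Site) : ev (q.map (sp 2)).prod = oB q := by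
  funext σ
  induction q with
  | nil => simp [ev, oB]
  | cons x q ih =>
    rw [List.map_cons, List.prod_cons, WardF_ev_mul, ih]
    simp [oB, sp, WardF_ev_X]

theorem StB_evAB (p q : List Site) : ev ((p.map (sp 0)).prod * (q.map (sp 2)).prod) =
    fun σ => oA (p.map fun x => [(x, true)]) σ * oB q σ := by
  funext σ
  rw [WardF_ev_mul, StB_evA, StB_evB]

theorem StB_kb (hβ : 0 < β) (x y : Site) : 0 ≤ kb β x y := by
  unfold kb
  split_ifs
  · positivity
  · exact le_rfl

/-- `ward_num` with `Λ = nb D`, `x ∈ D`: the sum over `y` has the four neighbours, each with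
weight `β`, and equals `β • ∑ μ, (cur i j μ x - cur i j μ (x - ee μ))`.
`grif`, `neg`: `ev (p.map (sp 0)).prod = oA (p.map fun x => [(x, true)])`,
`ev (q.map (sp 2)).prod = oB q`. -/
theorem plus_state (h : Model om ν η) (hβ : 0 < β)
    (hE : ∀ P, Tendsto (fun D => plus om β D (ev P)) atTop (𝓝 (E P))) : State β E := by
  have := h.pom
  have hZ : ∀ D, 0 < num om (nb D) D (kb β) fun _ => 1 := fun D => num_pos _ _ _
  refine ⟨st_one h hE, st_pos h hE, st_trans h hE, st_flip h hE, st_swap h hE, st_comp h hE,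
    st_rp1 h hE, st_rp2 h hE, fun i j x P => ?_, ?_, fun p q => ?_, fun p q => ?_⟩
  · have h1 := (hE (gen i j x P)).add
      (hE ((-β) • ((∑ μ, (cur i j μ (x - ee μ) - cur i j μ x)) * P)))
    have h2 : E (gen i j x P) +
        E ((-β) • ((∑ μ, (cur i j μ (x - ee μ) - cur i j μ x)) * P)) = 0 := by
      refine tendsto_nhds_unique h1 (tendsto_const_nhds.congr' ?_)
      filter_upwards [eventually_ge_atTop ({x} : Finset Site)] with D hD
      have hx : x ∈ D := hD (Finset.mem_singleton_self x)
      have h3 := ward_num h (nb D) D (kb β) x hx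
        (Finset.mem_biUnion.2 ⟨x, hx, Finset.mem_insert_self _ _⟩) i j P
      rw [StB_sum β hx fun y => sp i x * sp j y - sp j x * sp i y] at h3
      have e : (-β) • ((∑ μ, (cur i j μ (x - ee μ) - cur i j μ x)) * P) =
          P * β • (sp i x * sp j (x + (1, 0)) - sp j x * sp i (x + (1, 0)) +
            (sp i x * sp j (x - (1, 0)) - sp j x * sp i (x - (1, 0))) +
            (sp i x * sp j (x + (0, 1)) - sp j x * sp i (x + (0, 1))) +
            (sp i x * sp j (x - (0, 1)) - sp j x * sp i (x - (0, 1)))) := by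
        simp only [Fin.sum_univ_two, cur, ee, Matrix.cons_val_zero, Matrix.cons_val_one,
          sub_add_cancel, MvPolynomial.smul_eq_C_mul, map_neg]
        ring
      rw [e, plus, plus, ← add_div, h3, zero_div]
    rw [map_smul, smul_eq_mul] at h2
    linarith
  · obtain ⟨C, hC, hV⟩ := jmom h β hβ
    exact ⟨C, hC, fun V => le_of_tendsto (hE _) (hV V)⟩
  · refine ge_of_tendsto' (hE _) fun D => ?_
    rw [StB_evAB]
    exact div_nonneg (grifS h _ (StB_kb hβ) _ _ _ _) (hZ D).le
  · refine le_of_tendsto_of_tendsto' (hE _) ((hE _).mul (hE _)) fun D => ?_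
    rw [StB_evAB, StB_evA, StB_evB, plus, plus, plus, div_mul_div_comm,
      div_le_div_iff₀ (hZ D) (mul_pos (hZ D) (hZ D)), ← mul_assoc]
    exact mul_le_mul_of_nonneg_right (negS h _ (StB_kb hβ) _ _ _ _) (hZ D).le

end Vale.Agent.P163
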