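import Vale.Agent.P163.SumG
import Vale.Agent.P163.Ren
import Vale.Agent.P163.AS
import Vale.Agent.P163.Lim
import Vale.Agent.P163.StB
import Vale.Agent.P163.Mod
import Vale.Agent.P163.BoxA
import Vale.Agent.P163.BoxB

open MeasureTheory Filter Topology

namespace Vale.Agent.P163

theorem State.core {β : ℝ} {E : Alg →ₗ[ℝ] ℝ} (h : State β E) (hβ : 0 < β) :
    ∃ C m : ℝ, 0 < m ∧ ∀ x : Site,
      gg E x ≤ C * Real.exp (-m * Real.sqrt ((x.1 : ℝ) ^ 2 + (x.2 : ℝ) ^ 2)) := by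
  obtain ⟨C0, -, hC⟩ := h.sum_gb hβ
  obtain ⟨r, hr, hs⟩ := h.shell_small C0 hC (1 / (2 * β)) (by positivity)
  refine h.decay hβ r hr ?_
  rw [lt_div_iff₀ (by positivity)] at hs
  linarith

theorem main_of_model (n : ℕ) (h1 : 1 ≤ n) (hn : n ≤ 4) {ν : Measure unitInterval}
    {η : Measure Circle} (hM : Model ((unif n).map (emb n hn)) ν η) (β : ℝ) (hβ : 0 < β) :
    ∃ C m : ℝ, 0 < m ∧ ∀ μ : Measure (Site → Spin n), IsState n β μ → ∀ x y : Site,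
      ∫ σ, inner ℝ (σ x).1 (σ y).1 ∂μ ≤
        C * Real.exp (-m * Real.sqrt (((x.1 : ℝ) - y.1) ^ 2 + ((x.2 : ℝ) - y.2) ^ 2)) := by
  obtain ⟨E, hE⟩ := plus_lim hM β hβ.le
  have hS := plus_state hM hβ hE
  obtain ⟨C, m, hm, hC⟩ := hS.core hβ
  refine ⟨n * C, m, hm, fun μ hμ x y => ?_⟩
  obtain ⟨-, a, b, per, hex, hlim⟩ := hμ
  have hx : x ∈ ({x, y} : Finset Site) := by simp
  have hy : y ∈ ({x, y} : Finset Site) := by simp
  have hl := hlim {x, y} (fun τ => inner ℝ (τ ⟨x, hx⟩).1 (τ ⟨y, hy⟩).1) (by fun_prop)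
  simp only [Finset.restrict] at hl
  have key : ∀ D : Finset Site, ∫ σ, inner ℝ (σ x).1 (σ y).1 ∂μ ≤
      n * plus ((unif n).map (emb n hn)) β D (ev (sp 0 x * sp 0 y)) := by
    intro D
    refine le_of_tendsto hl ?_
    have hD : ∀ᶠ k in atTop, ∀ z ∈ D, (a k).1 < z.1 ∧ z.1 < (b k).1 ∧ (a k).2 < z.2 ∧
        z.2 < (b k).2 := by
      refine (Filter.eventually_all_finset D).2 fun z _ => ?_
      filter_upwards [hex (z.1 - 1, z.2 - 1), hex (z.1 + 1, z.2 + 1)] with k h1 h2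
      simp only [box, Finset.mem_product, Finset.mem_Icc] at h1 h2
      omega
    filter_upwards [hD, hex x, hex y] with k hk hkx hky
    rw [gibbs_eq n h1 hn β (a k) (b k) (per k) x y hkx hky]
    exact mul_le_mul_of_nonneg_left (box_le_plus hM β hβ.le _ _ _ D hk x y) (Nat.cast_nonneg n)
  have h2 : ∫ σ, inner ℝ (σ x).1 (σ y).1 ∂μ ≤ n * E (sp 0 x * sp 0 y) :=
    ge_of_tendsto' ((hE _).const_mul _) key
  refine h2.trans ?_
  rw [hS.two_pt, mul_assoc]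
  refine mul_le_mul_of_nonneg_left ((hC _).trans (le_of_eq ?_)) (Nat.cast_nonneg n)
  congr 4
  simp only [Prod.fst_sub, Prod.snd_sub]
  push_cast
  ring

theorem main (n : ℕ) (hn : n = 3 ∨ n = 4) (β : ℝ) (hβ : 0 < β) :
    ∃ C m : ℝ, 0 < m ∧ ∀ μ : Measure (Site → Spin n), IsState n β μ → ∀ x y : Site,
      ∫ σ, inner ℝ (σ x).1 (σ y).1 ∂μ ≤
        C * Real.exp (-m * Real.sqrt (((x.1 : ℝ) - y.1) ^ 2 + ((x.2 : ℝ) - y.2) ^ 2)) := by
  rcases hn with rfl | rfl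
  · obtain ⟨ν, h⟩ := model3
    exact main_of_model 3 (by norm_num) (by norm_num) h β hβ
  · obtain ⟨ν, h⟩ := model4
    exact main_of_model 4 (by norm_num) le_rfl h β hβ

end Vale.Agent.P163
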