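import Vale.Agent.P163.RP

open MvPolynomial Filter Topology Metric

namespace Vale.Agent.P163

variable {β : ℝ} {E : Alg →ₗ[ℝ] ℝ}

theorem odd_seq {S N : ℕ → ℝ} {g : ℝ} (h0 : S 0 = 0) (h1 : ∀ M, S (M + 1) = S M + g - 2 * N M)
    (h2 : ∀ M, 0 ≤ S M) (h3 : Monotone N) (h4 : N 0 = 0) (A : ℕ) : N A ≤ g := by
  have k : ∀ B j : ℕ, S (B + j) ≤ S B + j * (g - 2 * N B) := fun B j => by
    induction j with
    | zero => simp
    | succ j ih =>
      rw [← add_assoc, h1, Nat.cast_succ]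
      linarith [h3 (Nat.le_add_right B j)]
  have k1 := k 0 (A + 1)
  have k2 := k (A + 1) (A + 1)
  rw [zero_add, h0, h4] at k1
  have k3 : 0 ≤ ((A + 1 : ℕ) : ℝ) * (g - N (A + 1)) := by linarith [h2 (A + 1 + (A + 1))]
  have k4 := (mul_nonneg_iff_of_pos_left (by positivity)).1 k3
  linarith [h3 (Nat.le_succ A)]

theorem odd_refl {P : Alg} (oP : act fl P = -P) (k L : ℕ) :
    act (flc (k * L)) (tr (2 * (k : ℤ) * L, 0) P) = -P := by
  rw [tr, act_act, ← oP]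
  refine congrArg (act · P) (funext fun x => Prod.ext ?_ ?_)
  · simp only [flc, fl, Function.comp_apply, Prod.fst_add]
    ring
  · simp [flc, fl]

theorem odd_loc {P : Alg} {L : ℕ} (hP : P ∈ loc {x | |x.1| ≤ L}) {k : ℕ} (hk : 1 ≤ k) :
    tr (2 * (k : ℤ) * L, 0) P ∈ loc {x | (k * L : ℤ) ≤ x.1} := by
  refine act_mem_loc hP _ fun x hx => ?_
  have h1 := (abs_le.1 (show |x.1| ≤ L from hx)).1
  have h2 : (1 : ℤ) * L ≤ k * L :=
    mul_le_mul_of_nonneg_right (by exact_mod_cast hk) (Nat.cast_nonneg _)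
  change (k * L : ℤ) ≤ x.1 + 2 * k * L
  linarith

theorem State.odd_nonneg (h : State β E) {P : Alg} {L : ℕ} (hP : P ∈ loc {x | |x.1| ≤ L})
    (oP : act fl P = -P) {k : ℕ} (hk : 1 ≤ k) : 0 ≤ -E (P * tr (2 * (k : ℤ) * L, 0) P) := by
  have h1 := h.flc_pos _ (odd_loc hP hk)
  rwa [odd_refl oP, neg_mul, map_neg] at h1

theorem State.odd_one (h : State β E) {P : Alg} {L : ℕ} (hP : P ∈ loc {x | |x.1| ≤ L})
    (oP : act fl P = -P) (A : ℕ) :
    ∑ k ∈ Finset.Icc 1 A, -E (P * tr (2 * (k : ℤ) * L, 0) P) ≤ E (P * P) := by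
  refine odd_seq (S := fun M => E ((∑ t ∈ Finset.range M, tr (2 * (t : ℤ) * L, 0) P) *
    ∑ t ∈ Finset.range M, tr (2 * (t : ℤ) * L, 0) P))
    (N := fun M => ∑ k ∈ Finset.Icc 1 M, -E (P * tr (2 * (k : ℤ) * L, 0) P)) (by simp)
    (fun M => ?_) (fun M => h.pos _) (fun M M' hM => Finset.sum_le_sum_of_subset_of_nonneg
      (Finset.Icc_subset_Icc_right hM) fun k hk _ =>
        h.odd_nonneg hP oP (Finset.mem_Icc.1 hk).1) (by simp) A
  have e1 : E ((∑ t ∈ Finset.range M, tr (2 * (t : ℤ) * L, 0) P) * tr (2 * (M : ℤ) * L, 0) P) =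
      ∑ k ∈ Finset.Icc 1 M, E (P * tr (2 * (k : ℤ) * L, 0) P) := by
    rw [Finset.sum_mul, map_sum, ← Finset.sum_range_reflect, ← Finset.Ico_add_one_right_eq_Icc,
      Finset.sum_Ico_eq_sum_range, Nat.add_sub_cancel]
    refine Finset.sum_congr rfl fun t ht => ?_
    obtain ⟨u, rfl⟩ := Nat.exists_eq_add_of_lt (Finset.mem_range.1 ht)
    rw [show t + u + 1 - 1 - t = u by omega, ← h.trans (2 * (u : ℤ) * L, 0) (P * _),
      map_mul (tr _), tr_tr]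
    refine congrArg (fun s => E (_ * tr s P)) (Prod.ext ?_ rfl)
    simp only [Prod.fst_add]
    push_cast
    ring
  simp only [Finset.sum_range_succ, Finset.sum_neg_distrib, ← e1]
  rw [← h.trans (2 * (M : ℤ) * L, 0) (P * P), map_mul (tr _), add_mul, mul_add, mul_add,
    mul_comm (tr (2 * (M : ℤ) * L, 0) P) (∑ t ∈ Finset.range M, _), map_add, map_add, map_add]
  ring

/-- Put `n P k = - E (P * tr (2 k L, 0) P)`.  With `c = k L`, `act (flc c) (tr (2c, 0) P) = - P`, so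
`n P k ≥ 0` for `k ≥ 1` (`flc_pos`) and `E (P * tr (2kL,0) Q) ^ 2 ≤ n P k * n Q k` (`flc_cs`).
Expanding `0 ≤ E ((∑ t < 2A, tr (2 t L, 0) P)^2)` gives `∑ k ∈ Icc 1 A, n P k ≤ E (P * P)`. -/
theorem State.odd_sum (h : State β E) (P Q : Alg) (L : ℕ) (hP : P ∈ loc {x | |x.1| ≤ L})
    (hQ : Q ∈ loc {x | |x.1| ≤ L}) (oP : act fl P = -P) (oQ : act fl Q = -Q) (A : ℕ) :
    ∑ k ∈ Finset.Icc 1 A, |E (P * tr (2 * (k : ℤ) * L, 0) Q)| ≤ E (P * P) + E (Q * Q) := by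
  refine le_trans (Finset.sum_le_sum fun k hk => ?_)
    (Finset.sum_add_distrib.le.trans (add_le_add (h.odd_one hP oP A) (h.odd_one hQ oQ A)))
  have hk1 := (Finset.mem_Icc.1 hk).1
  have h1 := h.flc_cs _ (odd_loc hP hk1) (odd_loc hQ hk1)
  have h2 := h.odd_nonneg hP oP hk1
  have h3 := h.odd_nonneg hQ oQ hk1
  simp only [odd_refl oP, odd_refl oQ, neg_mul, map_neg] at h1
  refine abs_le_of_sq_le_sq ?_ (add_nonneg h2 h3)
  nlinarith [mul_nonneg h2 h3, sq_nonneg (E (P * tr (2 * (k : ℤ) * L, 0) P)),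
    sq_nonneg (E (Q * tr (2 * (k : ℤ) * L, 0) Q))]

end Vale.Agent.P163
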