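import Vale.Agent.P163.XY

open MeasureTheory Filter Topology

namespace Vale.Agent.P163

variable {V : Type} [Fintype V] {om : Measure S4} {ν : Measure unitInterval} {η : Measure Circle}

theorem polar_cont1 :
    Continuous fun p : unitInterval × Circle × Circle => pol1 p.1 p.2.1 p.2.2 := by
  have h1 : Continuous fun p : unitInterval × Circle × Circle => (p.1 : ℝ) := by fun_prop
  have h2 : Continuous fun p : unitInterval × Circle × Circle => (p.2.1 : ℂ) :=
    continuous_subtype_val.comp (continuous_fst.comp continuous_snd)
  have h3 : Continuous fun p : unitInterval × Circle × Circle => (p.2.2 : ℂ) :=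
    continuous_subtype_val.comp (continuous_snd.comp continuous_snd)
  have h4 : Continuous fun p : unitInterval × Circle × Circle => Real.sqrt (1 - (p.1 : ℝ) ^ 2) :=
    (continuous_const.sub (h1.pow 2)).sqrt
  refine Continuous.subtype_mk (continuous_pi fun i => ?_) _
  fin_cases i
  · exact h1.mul (Complex.continuous_re.comp h2)
  · exact h1.mul (Complex.continuous_im.comp h2)
  · exact h4.mul (Complex.continuous_re.comp h3)
  · exact h4.mul (Complex.continuous_im.comp h3)

omit [Fintype V] in
theorem polar_cont : Continuous
    fun p : (V → unitInterval) × (V → Circle) × (V → Circle) => pol p.1 p.2.1 p.2.2 :=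
  continuous_pi fun x => polar_cont1.comp
    (by fun_prop : Continuous fun p : (V → unitInterval) × (V → Circle) × (V → Circle) =>
      (p.1 x, p.2.1 x, p.2.2 x))

/-- `measurePreserving_pi` applied to `h.polar`, `measurePreserving_arrowProdEquivProdArrow`
twice, Fubini (continuous functions on compact spaces are integrable). -/
theorem integral_pol (h : Model om ν η) (F : (V → S4) → ℝ) (hF : Continuous F) :
    ∫ σ, F σ ∂(Measure.pi fun _ : V => om) =
      ∫ r, ∫ a, ∫ b, F (pol r a b) ∂(Measure.pi fun _ : V => η) ∂(Measure.pi fun _ : V => haarC)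
        ∂(Measure.pi fun _ : V => ν) := by
  have := h.pom
  have := h.pnu
  have := h.peta
  have m1 := (measurePreserving_arrowProdEquivProdArrow Circle Circle V (fun _ => haarC)
    (fun _ => η)).symm
  have m2 := (MeasurePreserving.id (Measure.pi fun _ : V => ν)).prod m1
  have m3 := (measurePreserving_arrowProdEquivProdArrow unitInterval (Circle × Circle) V
    (fun _ => ν) (fun _ => haarC.prod η)).symm
  have m4 := measurePreserving_pi (fun _ : V => ν.prod (haarC.prod η)) (fun _ => om)
    fun _ => h.polar
  have m5 : MeasurePreserving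
      (fun p : (V → unitInterval) × (V → Circle) × (V → Circle) => pol p.1 p.2.1 p.2.2)
      ((Measure.pi fun _ : V => ν).prod ((Measure.pi fun _ : V => haarC).prod
        (Measure.pi fun _ : V => η))) (Measure.pi fun _ : V => om) := (m4.comp m3).comp m2
  rw [← m5.map_eq, integral_map m5.measurable.aemeasurable hF.aestronglyMeasurable,
    integral_prod _ (xy_int _ (hF.comp' polar_cont))]
  congr 1
  funext r
  exact integral_prod (fun p : (V → Circle) × (V → Circle) => F (pol r p.1 p.2))
    (xy_int _ (hF.comp (polar_cont.comp (continuous_const.prodMk continuous_id))))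

theorem polar_cont_co {W : Type} (x : W) (i : Fin 4) : Continuous fun σ : W → S4 => (σ x).1 i :=
  (continuous_apply i).comp (continuous_subtype_val.comp (continuous_apply x))

omit [Fintype V] in
theorem continuous_frz [DecidableEq V] (b : S4) (D : Finset V) : Continuous (frz b D) := by
  refine continuous_pi fun x => ?_
  unfold frz
  split_ifs
  · exact continuous_apply x
  · exact continuous_const

theorem continuous_oA {W : Type} (L : List (List (W × Bool))) : Continuous (oA L) := by
  refine continuous_list_prod L fun p _ => Complex.continuous_re.comp ?_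
  refine continuous_list_prod p fun v _ => ?_
  have e : ∀ u : S4, zeta v.2 u = (u.1 0 : ℂ) + (sg v.2 * u.1 1 : ℝ) * Complex.I := fun u => by
    apply Complex.ext <;> simp [zeta]
  simp only [e]
  exact (Complex.continuous_ofReal.comp (polar_cont_co _ _)).add
    ((Complex.continuous_ofReal.comp (continuous_const.mul (polar_cont_co _ _))).mul
      continuous_const)

theorem continuous_oB {W : Type} (q : List W) : Continuous (oB q) := by
  exact continuous_list_prod q fun x _ => polar_cont_co x 2

theorem continuous_ham {W : Type} (Λ : Finset W) (K : W → W → ℝ) : Continuous (ham Λ K) := by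
  exact continuous_finsetSum _ fun x _ => continuous_finsetSum _ fun y _ => continuous_const.mul
    (continuous_finsetSum _ fun i _ => (polar_cont_co x i).mul (polar_cont_co y i))

/-- a character of the torus -/
noncomputable def polar_ch (m : V → ℤ) (θ : V → Circle) : Circle := ∏ x, θ x ^ m x

theorem polar_rc (m : V → ℤ) (θ : V → Circle) : rc 1 m θ = (polar_ch m θ : ℂ).re := by
  simp only [rc, polar_ch, one_mul]

theorem polar_ch_add (m m' : V → ℤ) (θ : V → Circle) :
    polar_ch (m + m') θ = polar_ch m θ * polar_ch m' θ := by
  simp only [polar_ch, Pi.add_apply, zpow_add, Finset.prod_mul_distrib]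

theorem polar_ch_sub (m m' : V → ℤ) (θ : V → Circle) :
    polar_ch (m - m') θ = polar_ch m θ * (polar_ch m' θ)⁻¹ := by
  simp only [polar_ch, Pi.sub_apply, zpow_sub, Finset.prod_mul_distrib, Finset.prod_inv_distrib]

theorem polar_ch_single [DecidableEq V] (x : V) (k : ℤ) (θ : V → Circle) :
    polar_ch (Pi.single x k) θ = θ x ^ k := by
  unfold polar_ch
  rw [Finset.prod_eq_single x (fun y _ hy => by simp [hy]) (by simp)]
  simp

/-- angles frozen outside `D` -/
noncomputable def polar_fa [DecidableEq V] (D : Finset V) (a : V → Circle) (x : V) : Circle :=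
  if x ∈ D then a x else 1

theorem polar_ch_mask [DecidableEq V] (D : Finset V) (m : V → ℤ) (a : V → Circle) :
    polar_ch (mask D m) a = polar_ch m (polar_fa D a) := by
  refine Finset.prod_congr rfl fun x _ => ?_
  unfold mask polar_fa
  split_ifs <;> simp

theorem polar_mb [DecidableEq V] (e : V × V) (θ : V → Circle) :
    (polar_ch (mb e) θ : ℂ).re =
      (θ e.1 : ℂ).re * (θ e.2 : ℂ).re + (θ e.1 : ℂ).im * (θ e.2 : ℂ).im := by
  rw [mb, polar_ch_sub, polar_ch_single, polar_ch_single, zpow_one, zpow_one, Circle.coe_mul,
    Circle.coe_inv_eq_conj]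
  simp

omit [Fintype V] in
theorem polar_coord [DecidableEq V] (D : Finset V) (r : V → unitInterval) (a b : V → Circle)
    (x : V) :
    (frz e0 D (pol r a b) x).1 0 = rt D r x * (polar_fa D a x : ℂ).re ∧
    (frz e0 D (pol r a b) x).1 1 = rt D r x * (polar_fa D a x : ℂ).im ∧
    (frz e0 D (pol r a b) x).1 2 = rb D r x * (b x : ℂ).re ∧
    (frz e0 D (pol r a b) x).1 3 = rb D r x * (b x : ℂ).im := by
  unfold frz rb rt polar_fa
  split_ifs
  · exact ⟨rfl, rfl, rfl, rfl⟩
  · simp [e0]

theorem polar_gA [DecidableEq V] (D : Finset V) (r : V → unitInterval) (a b : V → Circle)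
    (p : List (V × Bool)) :
    (p.map fun v => zeta v.2 (frz e0 D (pol r a b) v.1)).prod =
      ((p.map fun v => rt D r v.1).prod : ℝ) * (polar_ch (mg p) (polar_fa D a) : ℂ) := by
  induction p with
  | nil => simp [mg, polar_ch]
  | cons v p ih =>
    have e : mg (v :: p) = Pi.single v.1 (if v.2 = true then 1 else -1) + mg p := by simp [mg]
    obtain ⟨h0, h1, -, -⟩ := polar_coord D r a b v.1
    have e2 : zeta v.2 (frz e0 D (pol r a b) v.1) =
        (rt D r v.1 : ℂ) * ((polar_fa D a v.1 ^ (if v.2 = true then 1 else -1 : ℤ) : Circle) : ℂ) := by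
      unfold zeta sg
      rw [h0, h1]
      split_ifs
      · apply Complex.ext <;> simp
      · rw [zpow_neg_one, Circle.coe_inv_eq_conj]
        apply Complex.ext <;> simp
    rw [List.map_cons, List.prod_cons, ih, e, polar_ch_add, polar_ch_single, e2, List.map_cons,
      List.prod_cons, Circle.coe_mul, Complex.ofReal_mul]
    ring

theorem polar_oA [DecidableEq V] (D : Finset V) (r : V → unitInterval) (a b : V → Circle)
    (L : List (List (V × Bool))) :
    oA L (frz e0 D (pol r a b)) = (L.map fun p => (p.map fun v => rt D r v.1).prod).prod *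
      (L.map fun p => rc 1 (mask D (mg p)) a).prod := by
  rw [oA, ← List.prod_map_mul]
  congr 2
  funext p
  rw [gA, polar_gA, polar_rc, polar_ch_mask, Complex.re_ofReal_mul]

theorem polar_oB [DecidableEq V] (D : Finset V) (r : V → unitInterval) (a b : V → Circle)
    (q : List V) :
    oB q (frz e0 D (pol r a b)) = (q.map fun x => rb D r x).prod *
      (q.map fun x => rc 1 (Pi.single x 1) b).prod := by
  rw [oB, ← List.prod_map_mul]
  congr 2
  funext x
  rw [(polar_coord D r a b x).2.2.1, polar_rc, polar_ch_single, zpow_one]

theorem polar_ham [DecidableEq V] (D : Finset V) (K : V → V → ℝ) (r : V → unitInterval)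
    (a b : V → Circle) : ham Finset.univ K (frz e0 D (pol r a b)) =
      ∑ e : V × V, K e.1 e.2 * rt D r e.1 * rt D r e.2 * rc 1 (mask D (mb e)) a +
        ∑ e : V × V, K e.1 e.2 * rb D r e.1 * rb D r e.2 * rc 1 (mb e) b := by
  rw [ham, ← Fintype.sum_prod_type', ← Finset.sum_add_distrib]
  refine Finset.sum_congr rfl fun e _ => ?_
  obtain ⟨h0, h1, h2, h3⟩ := polar_coord D r a b e.1
  obtain ⟨g0, g1, g2, g3⟩ := polar_coord D r a b e.2
  rw [dot, Fin.sum_univ_four, h0, h1, h2, h3, g0, g1, g2, g3, polar_rc, polar_rc, polar_ch_mask,
    polar_mb, polar_mb]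
  ring

omit [Fintype V] in
theorem polar_cont_rt [DecidableEq V] (D : Finset V) (x : V) : Continuous fun r => rt D r x := by
  unfold rt
  split_ifs
  · fun_prop
  · exact continuous_const

omit [Fintype V] in
theorem polar_cont_rb [DecidableEq V] (D : Finset V) (x : V) : Continuous fun r => rb D r x :=
  (continuous_const.sub ((polar_cont_rt D x).pow 2)).sqrt

/-- For `σ = frz e0 D (pol r a b)`: `zeta true (σ x) = rt D r x * a' x` with `a' = a` on `D` and
`1` outside, ` (σ x).1 2 = rb D r x * re (b x)`, and
`dot (σ x) (σ y) = rt x * rt y * rc 1 (mask D (mb (x, y))) a + rb x * rb y * rc 1 (mb (x, y)) b`. -/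
theorem numF_polar [DecidableEq V] (h : Model om ν η) (D : Finset V) (K : V → V → ℝ)
    (L : List (List (V × Bool))) (q : List V) :
    numF om D K (fun σ => oA L σ * oB q σ) =
      ∫ r, xl D K L r * yl η D K q r ∂(Measure.pi fun _ : V => ν) := by
  have := h.peta
  have c0 := continuous_frz (V := V) e0 D
  unfold numF
  have c1 : Continuous fun σ => oA L (frz e0 D σ) * oB q (frz e0 D σ) *
      Real.exp (ham Finset.univ K (frz e0 D σ)) :=
    (((continuous_oA L).comp c0).mul ((continuous_oB q).comp c0)).mul
      (Real.continuous_exp.comp ((continuous_ham _ K).comp c0))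
  rw [integral_pol h _ c1]
  congr 1
  funext r
  unfold xl yl xy
  rw [← integral_const_mul, ← integral_const_mul, ← integral_mul_const]
  congr 1
  funext a
  rw [← integral_const_mul]
  congr 1
  funext b
  rw [polar_oA, polar_oB, polar_ham, Real.exp_add, List.map_map, List.map_map]
  simp only [Function.comp_def]
  ring

theorem continuous_xl [DecidableEq V] (D : Finset V) (K : V → V → ℝ)
    (L : List (List (V × Bool))) : Continuous (xl D K L) := by
  refine (continuous_list_prod L fun p _ => continuous_list_prod p fun v _ =>
    polar_cont_rt D v.1).mul ((continuous_xy haarC _ _).comp (continuous_pi fun e => ?_))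
  exact (continuous_const.mul (polar_cont_rt D e.1)).mul (polar_cont_rt D e.2)

theorem continuous_yl [DecidableEq V] [IsProbabilityMeasure η] (D : Finset V) (K : V → V → ℝ)
    (q : List V) : Continuous (yl η D K q) := by
  refine (continuous_list_prod q fun x _ => polar_cont_rb D x).mul
    ((continuous_xy η _ _).comp (continuous_pi fun e => ?_))
  exact (continuous_const.mul (polar_cont_rb D e.1)).mul (polar_cont_rb D e.2)

end Vale.Agent.P163
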