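import Vale.Agent.P163.Trans
import Vale.Agent.P163.Sym

open MeasureTheory Filter Topology

namespace Vale.Agent.P163

variable {om : Measure S4} {ν : Measure unitInterval} {η : Measure Circle} {β : ℝ}
  {E : Alg →ₗ[ℝ] ℝ}

/-! Symmetries of the limit state.  `ev (act g P) σ = ev P (σ ∘ g)`; a lattice automorphism `e`
preserves `kb`, commutes with `nb`, and `D ↦ D.map e` tends to `atTop` along `atTop`. -/

theorem ev_act (g : Site → Site) (P : Alg) (σ : Site → S4) : ev (act g P) σ = ev P (σ ∘ g) := by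
  unfold ev act
  rw [MvPolynomial.eval_rename]
  rfl

theorem StA_fl : Function.Involutive fl := fun x => by simp [fl]

theorem StA_fl' (x y : Site) :
    |(fl x).1 - (fl y).1| + |(fl x).2 - (fl y).2| = |x.1 - y.1| + |x.2 - y.2| := by
  simp [fl, neg_add_eq_sub, abs_sub_comm]

theorem StA_mul (P Q : Alg) (σ : Site → S4) : ev (P * Q) σ = ev P σ * ev Q σ := by
  unfold ev
  rw [map_mul]

theorem StA_dep {S : Set Site} {P : Alg} (hP : P ∈ loc S) : DependsOn (ev P) S := by
  intro σ τ h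
  unfold ev
  refine MvPolynomial.eval₂Hom_congr' rfl (fun v hv _ => ?_) rfl
  rw [h v.1 (MvPolynomial.mem_supported.1 hP hv)]

theorem StA_nb (D : Finset Site) (y : Site) :
    y ∈ nb D ↔ ∃ x ∈ D, |y.1 - x.1| + |y.2 - x.2| ≤ 1 := by
  simp only [nb, Finset.mem_biUnion, Finset.mem_insert, Finset.mem_singleton, Prod.ext_iff,
    Prod.fst_add, Prod.snd_add, Prod.fst_sub, Prod.snd_sub, Int.abs_eq_natAbs]
  refine exists_congr fun x => and_congr_right fun _ => ?_
  omega

theorem StA_equiv (h : Model om ν η)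
    (hE : ∀ P, Tendsto (fun D => plus om β D (ev P)) atTop (𝓝 (E P))) (e : Site ≃ Site)
    (he : ∀ x y, |(e x).1 - (e y).1| + |(e x).2 - (e y).2| = |x.1 - y.1| + |x.2 - y.2|)
    (P : Alg) : E (act e P) = E P := by
  have := h.pom
  have hn : ∀ D : Finset Site, nb (D.map e.toEmbedding) = (nb D).map e.toEmbedding := by
    intro D
    ext y
    obtain ⟨y, rfl⟩ := e.surjective y
    rw [Finset.mem_map_equiv, e.symm_apply_apply, StA_nb, StA_nb]
    constructor
    · rintro ⟨x, hx, hxy⟩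
      obtain ⟨x, rfl⟩ := e.surjective x
      rw [Finset.mem_map_equiv, e.symm_apply_apply] at hx
      exact ⟨x, hx, he y x ▸ hxy⟩
    · rintro ⟨x, hx, hxy⟩
      exact ⟨e x, Finset.mem_map_of_mem _ hx, (he y x).symm ▸ hxy⟩
  have hk : (fun x y => kb β (e x) (e y)) = kb β := by
    funext x y
    simp only [kb, he]
  have ht : Tendsto (fun D : Finset Site => D.map e.toEmbedding) atTop atTop := by
    refine tendsto_atTop_atTop.2 fun b => ⟨b.map e.symm.toEmbedding, fun D hD y hy => ?_⟩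
    rw [Finset.mem_map_equiv]
    exact hD (Finset.mem_map_of_mem _ hy)
  refine tendsto_nhds_unique (((hE (act e P)).comp ht).congr fun D => ?_) (hE P)
  simp only [Function.comp_apply, plus]
  rw [hn, num_perm e _ _ _ _ (continuous_ev _), num_perm e _ _ _ _ continuous_const, hk]
  simp only [ev_act, Function.comp_assoc, Equiv.symm_comp_self, Function.comp_id]

theorem StA_rp (h : Model om ν η)
    (hE : ∀ P, Tendsto (fun D => plus om β D (ev P)) atTop (𝓝 (E P))) (θ : Site → Site)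
    (lam : Site → ℤ) (hθ : Function.Involutive θ) (hl : ∀ x, lam (θ x) = -lam x)
    (h0 : ∀ x, lam x = 0 → θ x = x)
    (he : ∀ x y, |(θ x).1 - (θ y).1| + |(θ x).2 - (θ y).2| = |x.1 - y.1| + |x.2 - y.2|)
    (hs : ∀ x y, 0 < lam x → lam y < 0 → 2 ≤ |x.1 - y.1| + |x.2 - y.2|) (P : Alg)
    (hP : P ∈ loc {x | 0 ≤ lam x}) : 0 ≤ E (act θ P * P) := by
  have := h.pom
  have ht : Tendsto (fun D : Finset Site => D ∪ D.image θ) atTop atTop :=
    tendsto_atTop_mono (fun D => Finset.subset_union_left) tendsto_id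
  refine ge_of_tendsto' ((hE (act θ P * P)).comp ht) fun D => ?_
  have h1 : ∀ x, x ∈ D ∪ D.image θ → θ x ∈ D ∪ D.image θ := by
    intro x hx
    rcases Finset.mem_union.1 hx with hx | hx
    · exact Finset.mem_union_right _ (Finset.mem_image_of_mem _ hx)
    · obtain ⟨y, hy, rfl⟩ := Finset.mem_image.1 hx
      rw [hθ]
      exact Finset.mem_union_left _ hy
  have h2 : ∀ x, x ∈ nb (D ∪ D.image θ) → θ x ∈ nb (D ∪ D.image θ) := by
    intro x hx
    obtain ⟨y, hy, hxy⟩ := (StA_nb _ _).1 hx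
    exact (StA_nb _ _).2 ⟨θ y, h1 y hy, (he x y).symm ▸ hxy⟩
  refine div_nonneg ?_ (num_pos _ _ _).le
  have e : ev (act θ P * P) = fun σ => ev P (σ ∘ θ) * ev P σ := by
    funext σ
    rw [StA_mul, ev_act]
  rw [e]
  refine rp_num θ lam hθ hl h0 _ _ (fun x => ⟨fun hx => hθ x ▸ h2 _ hx, h2 x⟩)
    (fun x => ⟨fun hx => hθ x ▸ h1 _ hx, h1 x⟩) _ (fun x y => by simp only [kb, he])
    (fun x y hx hy => ?_) _ (continuous_ev P) (StA_dep hP)
  have := hs x y hx hy
  unfold kb
  rw [if_neg (by omega), abs_sub_comm y.1, abs_sub_comm y.2, if_neg (by omega)]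
  exact ⟨rfl, rfl⟩

theorem st_one (h : Model om ν η)
    (hE : ∀ P, Tendsto (fun D => plus om β D (ev P)) atTop (𝓝 (E P))) : E 1 = 1 := by
  have := h.pom
  refine tendsto_nhds_unique (hE 1) (tendsto_const_nhds.congr fun D => ?_)
  have e : ev 1 = fun _ => 1 := funext fun σ => map_one _
  rw [plus, e, div_self (num_pos _ _ _).ne']

theorem st_pos (h : Model om ν η)
    (hE : ∀ P, Tendsto (fun D => plus om β D (ev P)) atTop (𝓝 (E P))) (P : Alg) :
    0 ≤ E (P * P) := by
  have := h.pom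
  refine ge_of_tendsto' (hE (P * P)) fun D => div_nonneg ?_ (num_pos _ _ _).le
  refine integral_nonneg fun σ => mul_nonneg ?_ (Real.exp_pos _).le
  rw [StA_mul]
  exact mul_self_nonneg _

theorem st_trans (h : Model om ν η)
    (hE : ∀ P, Tendsto (fun D => plus om β D (ev P)) atTop (𝓝 (E P))) (s : Site) (P : Alg) :
    E (tr s P) = E P :=
  StA_equiv h hE (Equiv.addRight s) (fun x y => by simp) P

theorem st_flip (h : Model om ν η)
    (hE : ∀ P, Tendsto (fun D => plus om β D (ev P)) atTop (𝓝 (E P))) (P : Alg) :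
    E (act fl P) = E P :=
  StA_equiv h hE (Function.Involutive.toPerm fl StA_fl) StA_fl' P

theorem st_swap (h : Model om ν η)
    (hE : ∀ P, Tendsto (fun D => plus om β D (ev P)) atTop (𝓝 (E P))) (P : Alg) :
    E (act sw P) = E P :=
  StA_equiv h hE (Function.Involutive.toPerm sw fun _ => rfl) (fun _ _ => add_comm _ _) P

/-- `num_iso` for the exchange of the coordinates 1 and 2 -/
theorem st_comp (h : Model om ν η)
    (hE : ∀ P, Tendsto (fun D => plus om β D (ev P)) atTop (𝓝 (E P))) (P : Alg) :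
    E (sw12 P) = E P := by
  let g : (Fin 4 → ℝ) →ₗ[ℝ] (Fin 4 → ℝ) := LinearMap.funLeft ℝ ℝ (Equiv.swap (1 : Fin 4) 2)
  have hg : ∀ v, ∑ i, g v i ^ 2 = ∑ i, v i ^ 2 := fun v =>
    Equiv.sum_comp (Equiv.swap (1 : Fin 4) 2) fun i => v i ^ 2
  have h0 : sph g hg e0 = e0 := by
    refine Subtype.ext (funext fun i => ?_)
    fin_cases i <;> rfl
  have e : ev (sw12 P) = fun σ => ev P fun x => sph g hg (σ x) := by
    funext σ
    unfold ev sw12
    rw [MvPolynomial.eval_rename]
    congr 2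
    funext v
    obtain ⟨x, i⟩ := v
    fin_cases i <;> rfl
  refine tendsto_nhds_unique ((hE (sw12 P)).congr fun D => ?_) (hE P)
  rw [plus, plus, e, num_iso h g hg (fun _ => rfl) h0 _ _ _ _ (continuous_ev P)]

/-- `rp_num` along the symmetric sets `D ∪ D.image fl`, `lam x = x.1` -/
theorem st_rp1 (h : Model om ν η)
    (hE : ∀ P, Tendsto (fun D => plus om β D (ev P)) atTop (𝓝 (E P))) (P : Alg)
    (hP : P ∈ loc {x | 0 ≤ x.1}) : 0 ≤ E (act fl P * P) := by
  refine StA_rp h hE fl (fun x => x.1) StA_fl (fun _ => rfl) (fun x hx => ?_) StA_fl'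
    (fun x y hx hy => ?_) P hP
  · exact Prod.ext (by simp only [fl]; omega) rfl
  · simp only [Int.abs_eq_natAbs]
    omega

/-- `rp_num` along the symmetric sets `D ∪ D.image sw`, `lam x = x.1 - x.2` -/
theorem st_rp2 (h : Model om ν η)
    (hE : ∀ P, Tendsto (fun D => plus om β D (ev P)) atTop (𝓝 (E P))) (P : Alg)
    (hP : P ∈ loc {x | x.2 ≤ x.1}) : 0 ≤ E (act sw P * P) := by
  refine StA_rp h hE sw (fun x => x.1 - x.2) (fun _ => rfl) (fun x => by simp [sw])
    (fun x hx => ?_) (fun x y => add_comm _ _) (fun x y hx hy => ?_) P (by simpa using hP)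
  · exact Prod.ext (by simp only [sw]; omega) (by simp only [sw]; omega)
  · simp only [Int.abs_eq_natAbs]
    omega

end Vale.Agent.P163
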