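import Vale.Agent.P163.Deform
import Vale.Agent.P163.Odd

open MvPolynomial Filter Topology Metric

namespace Vale.Agent.P163

variable {β : ℝ} {E : Alg →ₗ[ℝ] ℝ}

theorem sumg_sym (Y : Site → Alg) (σ : Site → Site) (hσ : Function.Involutive σ) (c : ℝ)
    (hY : ∀ x, act fl (Y x) = c • Y (σ x)) (f : Site →₀ ℝ) (hf : ∀ x, f (σ x) = f x) :
    act fl (lc Y f) = c • lc Y f := by
  rw [lc_eq_sum Y f _ subset_rfl, map_sum, Finset.smul_sum]
  refine Finset.sum_equiv hσ.toPerm (fun x => ?_) fun x _ => ?_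
  · simp only [Finsupp.mem_support_iff, Function.Involutive.coe_toPerm, hf]
  · rw [map_smul, hY, Function.Involutive.coe_toPerm, hf, smul_comm]

theorem sumg_cv_odd (i j : Fin 3) {l : ℕ} (hl : 0 < l) {φ : Pl → ℝ} (hφ : Sm φ)
    (he : ∀ z : Pl, φ (-z.1, z.2) = φ z) : act fl (cv i j l φ) = -cv i j l φ := by
  rw [cv, sumg_sym (rot i j) rho (fun x => by simp [rho]) (-1)
    (fun x => by rw [fl_rot, neg_one_smul]) _ fun x => ?_, neg_one_smul]
  rw [smp_apply hl hφ.2, smp_apply hl hφ.2, ← he (pt l x)]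
  refine congrArg φ (Prod.ext ?_ rfl)
  simp only [pt, rho]
  push_cast
  ring

theorem sumg_fb_even (k : Fin 3) (l : ℕ) : act fl (fb E k l) = fb E k l := by
  rw [fb, map_smul, sf, sumg_sym (sp k) fl (fun x => by simp [fl]) 1
    (fun x => by rw [act_sp, one_smul]) _ fun x => ?_, one_smul]
  simp only [ind_apply, mem_bx, fl, abs_neg]

theorem sumg_cv_loc (i j : Fin 3) {l : ℕ} (hl : 0 < l) {φ : Pl → ℝ} (hφ : Sm φ)
    (hs : tsupport φ ⊆ closedBall (0 : Pl) 3) :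
    cv i j l φ ∈ loc {x | |x.1| ≤ ((6 * l : ℕ) : ℤ)} := by
  refine lc_mem_loc _ _ fun x hx => loc_mono (fun y hy => ?_) (rot_mem_loc i j x)
  rw [smp_apply hl hφ.2] at hx
  have h1 := mem_closedBall_zero_iff.1 (hs (subset_tsupport _ hx))
  have h2 : |((x.1 : ℝ) + 1 / 2) / l| ≤ 3 := (norm_fst_le (pt l x)).trans h1
  have l0 : (0 : ℝ) < l := by exact_mod_cast hl
  have l1 : (1 : ℝ) ≤ l := by exact_mod_cast hl
  rw [abs_div, abs_of_pos l0, div_le_iff₀ l0, abs_le] at h2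
  have a1 : (x.1 : ℝ) ≤ y.1 := by exact_mod_cast hy.1
  have a2 : (y.1 : ℝ) ≤ x.1 + 1 := by exact_mod_cast hy.2.1
  have h3 : |(y.1 : ℝ)| ≤ 6 * l := abs_le.2 ⟨by linarith [h2.1], by linarith [h2.2]⟩
  show |y.1| ≤ ((6 * l : ℕ) : ℤ)
  exact_mod_cast h3

theorem sumg_fb_loc (k : Fin 3) (l : ℕ) : fb E k l ∈ loc {x | |x.1| ≤ ((6 * l : ℕ) : ℤ)} := by
  refine Subalgebra.smul_mem _ (lc_mem_loc _ _ fun x hx => sp_mem_loc k ?_) _
  rw [ind_apply] at hx
  have h1 := ((mem_bx l x).1 (by_contra fun h => hx (if_neg h))).1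
  show |x.1| ≤ ((6 * l : ℕ) : ℤ)
  omega

/-- `φ0` from `even_bump 2 3`; the products `cv i j l φ0 * fb E k l` are odd under `fl`
(`fl_rot`, `pt l (rho x)` is the mirror image of `pt l x`, the block is symmetric), live in
`|x.1| ≤ 6 l` and have bounded second moments (`JB.n8_rot`, `smp_h1f`, `n8_fb`, `n8_sq2`).
Sum `deform` with `m = 6 k`, `ε = 1 / (A + 1)` and use `odd_sum` with `L = 6 l`.  If `vb E l = 0`
use `vv_sh_le`. -/
theorem State.sum_gb (h : State β E) (hβ : 0 < β) : ∃ C0 : ℝ, 0 ≤ C0 ∧ ∀ A : ℕ,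
    ∀ᶠ l : ℕ in atTop, ∑ k ∈ Finset.Icc 1 A, gb E l (6 * k) ≤ C0 * vb E l := by
  obtain ⟨φ, hφ, h1, h2, h3⟩ := even_bump 2 3 (by norm_num) (by norm_num)
  obtain ⟨K, hK⟩ := smp_h1f hφ
  obtain ⟨c, c0, hc⟩ := h.jbd.n8_rot
  obtain ⟨c', c0', hc'⟩ := h.jb02.n8_rot
  refine ⟨β ^ 2 * (2 * ((c * Real.sqrt K * 2) ^ 2 + (c' * Real.sqrt K * 2) ^ 2)) + 1,
    by positivity, fun A => ?_⟩
  have hd := (Finset.Icc 1 A).eventually_all.2 fun k hk => h.deform hβ (6 * k)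
    (by have := (Finset.mem_Icc.1 hk).1; omega) hφ h1 h2 (1 / ((A : ℝ) + 1)) (by positivity)
  filter_upwards [hd, hK, eventually_gt_atTop 0] with l hl hKl l0
  have n1 : N8 E (cv 0 1 l φ) (c * Real.sqrt K) :=
    (hc _).mono (mul_le_mul_of_nonneg_left (Real.sqrt_le_sqrt hKl) c0)
  have n2 : N8 E (cv 0 2 l φ) (c' * Real.sqrt K) :=
    (hc' _).mono (mul_le_mul_of_nonneg_left (Real.sqrt_le_sqrt hKl) c0')
  have key : ∀ i j i' j' k k' : Fin 3, ∑ m ∈ Finset.Icc 1 A,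
      |E (cv i j l φ * fb E k l * tr (2 * ((6 * m : ℕ) : ℤ) * l, 0) (cv i' j' l φ * fb E k' l))| ≤
      E (cv i j l φ * fb E k l * (cv i j l φ * fb E k l)) +
        E (cv i' j' l φ * fb E k' l * (cv i' j' l φ * fb E k' l)) := fun i j i' j' k k' => by
    have o : ∀ i j k : Fin 3, act fl (cv i j l φ * fb E k l) = -(cv i j l φ * fb E k l) :=
      fun i j k => by rw [map_mul, sumg_cv_odd i j l0 hφ h3, sumg_fb_even, neg_mul]
    refine le_trans (le_of_eq (Finset.sum_congr rfl fun m _ => ?_)) (h.odd_sum _ _ (6 * l)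
      (mul_mem (sumg_cv_loc i j l0 hφ h2) (sumg_fb_loc k l))
      (mul_mem (sumg_cv_loc i' j' l0 hφ h2) (sumg_fb_loc k' l)) (o i j k) (o i' j' k') A)
    rw [show 2 * ((6 * m : ℕ) : ℤ) * l = 2 * (m : ℤ) * ((6 * l : ℕ) : ℤ) by push_cast; ring]
  have k1 := key 0 2 0 1 2 1
  have k2 := key 0 1 0 2 2 1
  have b1 := h.n8_sq2 n1 (h.n8_fb l 1 (by decide))
  have b2 := h.n8_sq2 n1 (h.n8_fb l 2 (by decide))
  have b3 := h.n8_sq2 n2 (h.n8_fb l 1 (by decide))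
  have b4 := h.n8_sq2 n2 (h.n8_fb l 2 (by decide))
  have h4 := Finset.sum_le_sum hl
  rw [Finset.sum_add_distrib, ← Finset.mul_sum, Finset.sum_add_distrib, Finset.sum_const,
    Nat.card_Icc, Nat.add_sub_cancel, nsmul_eq_mul, ← Finset.sum_div] at h4
  have h5 : (A : ℝ) * (1 / ((A : ℝ) + 1)) ≤ 1 := by
    rw [mul_one_div, div_le_one (by positivity)]
    linarith
  rcases (h.vb_nonneg l).eq_or_lt with h0 | h0
  · rw [← h0, mul_zero]
    exact Finset.sum_nonpos fun k _ => (h.vv_sh_le _ _).trans (le_of_eq h0.symm)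
  · rw [← div_le_iff₀ h0]
    refine h4.trans (add_le_add (mul_le_mul_of_nonneg_left ?_ (sq_nonneg β)) h5)
    linarith

end Vale.Agent.P163
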