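import Vale.Agent.P163.DefsA

open MeasureTheory Filter Topology
open scoped Pointwise

namespace Vale.Agent.P163

theorem unif_prob (n : ℕ) (hn : 1 ≤ n) : IsProbabilityMeasure (unif n) := by
  refine ⟨?_⟩
  rw [unif, Measure.smul_apply, smul_eq_mul, ENNReal.inv_mul_cancel _ (measure_ne_top _ _)]
  rw [Ne, Measure.measure_univ_eq_zero, Measure.toSphere_eq_zero_iff_finrank,
    finrank_euclideanSpace_fin]
  omega

/-- `Measure.toSphere_apply'` and `LinearIsometryEquiv.measurePreserving` -/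
theorem unif_inv (n : ℕ) (A : EuclideanSpace ℝ (Fin n) ≃ₗᵢ[ℝ] EuclideanSpace ℝ (Fin n)) :
    MeasurePreserving (fun u : Spin n => (⟨A u.1, by simp⟩ : Spin n)) (unif n) (unif n) := by
  have hm : Measurable (fun u : Spin n => (⟨A u.1, by simp⟩ : Spin n)) :=
    ((A.continuous.comp continuous_subtype_val).subtype_mk _).measurable
  refine ⟨hm, ?_⟩
  ext s hs
  rw [Measure.map_apply hm hs, unif, Measure.smul_apply, Measure.smul_apply,
    Measure.toSphere_apply' _ hs, Measure.toSphere_apply' _ (hm hs),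
    ← A.measurePreserving.measure_preimage_emb A.toHomeomorph.measurableEmbedding
      (Set.Ioo (0 : ℝ) 1 • (Subtype.val '' s))]
  congr 3
  ext x
  constructor
  · rintro ⟨t, ht, _, ⟨u, hu, rfl⟩, rfl⟩
    exact ⟨t, ht, _, ⟨_, hu, rfl⟩, (A.map_smul t u.1).symm⟩
  · rintro ⟨t, ht, _, ⟨u, hu, rfl⟩, e⟩
    refine ⟨t, ht, _, ⟨⟨A.symm u.1, by simp⟩, by simpa using hu, rfl⟩, A.injective ?_⟩
    simpa using e

theorem continuous_emb (n : ℕ) (hn : n ≤ 4) : Continuous (emb n hn) := by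
  refine Continuous.subtype_mk (continuous_pi fun i => ?_) _
  by_cases h : (i : ℕ) < n
  · simp only [dif_pos h]
    fun_prop
  · simp only [dif_neg h]
    exact continuous_const

theorem Unif_sum {n : ℕ} (hn : n ≤ 4) (f : Fin 4 → ℝ) (hf : ∀ j : Fin 4, ¬ (j : ℕ) < n → f j = 0) :
    ∑ i : Fin n, f (Fin.castLE hn i) = ∑ j, f j :=
  Finset.sum_of_injOn (Fin.castLE hn) (Fin.castLE_injective hn).injOn (by simp)
    (fun j _ hj => hf j fun h => hj ⟨⟨j, h⟩, by simp, by ext; simp⟩) fun _ _ => rfl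

theorem dot_emb (n : ℕ) (hn : n ≤ 4) (u v : Spin n) :
    dot (emb n hn u) (emb n hn v) = inner ℝ u.1 v.1 := by
  rw [dot, ← Unif_sum hn _ fun j hj => by simp [emb, hj], PiLp.inner_apply]
  refine Finset.sum_congr rfl fun i _ => ?_
  simp [emb, mul_comm]

/-- extension by zero -/
noncomputable def Unif_ext (n : ℕ) : EuclideanSpace ℝ (Fin n) →ₗ[ℝ] (Fin 4 → ℝ) where
  toFun u i := if h : (i : ℕ) < n then u ⟨i, h⟩ else 0
  map_add' u v := by
    ext i
    by_cases h : (i : ℕ) < n <;> simp [h]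
  map_smul' t u := by
    ext i
    by_cases h : (i : ℕ) < n <;> simp [h]

/-- restriction -/
noncomputable def Unif_res {n : ℕ} (hn : n ≤ 4) : (Fin 4 → ℝ) →ₗ[ℝ] EuclideanSpace ℝ (Fin n) where
  toFun v := WithLp.toLp 2 fun i => v (Fin.castLE hn i)
  map_add' _ _ := rfl
  map_smul' _ _ := rfl

theorem Unif_inv (n : ℕ) (hn : n ≤ 4) (g : (Fin 4 → ℝ) →ₗ[ℝ] (Fin 4 → ℝ))
    (hg : ∀ v, ∑ i, g v i ^ 2 = ∑ i, v i ^ 2)
    (h : ∀ v : Fin 4 → ℝ, (∀ j : Fin 4, ¬ (j : ℕ) < n → v j = 0) →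
      ∀ j : Fin 4, ¬ (j : ℕ) < n → g v j = 0) :
    MeasurePreserving (sph g hg) ((unif n).map (emb n hn)) ((unif n).map (emb n hn)) := by
  have h0 : ∀ u, ∀ j : Fin 4, ¬ (j : ℕ) < n → Unif_ext n u j = 0 := fun u j hj => dif_neg hj
  have hN : ∀ u, ‖(Unif_res hn ∘ₗ g ∘ₗ Unif_ext n) u‖ = ‖u‖ := fun u => by
    rw [← sq_eq_sq₀ (norm_nonneg _) (norm_nonneg _), EuclideanSpace.real_norm_sq_eq,
      EuclideanSpace.real_norm_sq_eq]
    refine (Unif_sum hn (fun j => g (Unif_ext n u) j ^ 2) fun j hj => by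
      simp [h _ (h0 u) j hj]).trans ((hg _).trans ?_)
    rw [← Unif_sum hn _ fun j hj => by simp [h0 u j hj]]
    exact Finset.sum_congr rfl fun i _ => by simp [Unif_ext]
  have hA := unif_inv n
    ((⟨Unif_res hn ∘ₗ g ∘ₗ Unif_ext n, hN⟩ : _ →ₗᵢ[ℝ] _).toLinearIsometryEquiv rfl)
  have he := (continuous_emb n hn).measurable
  have hs : Measurable (sph g hg) :=
    ((g.continuous_of_finiteDimensional.comp continuous_subtype_val).subtype_mk _).measurable
  refine ⟨hs, ?_⟩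
  conv_rhs => rw [← hA.map_eq]
  rw [Measure.map_map hs he, Measure.map_map he hA.measurable]
  refine congrArg (fun f => Measure.map f (unif n)) (funext fun u => Subtype.ext (funext fun j => ?_))
  change g (Unif_ext n u.1) j = if hj : (j : ℕ) < n then g (Unif_ext n u.1) (Fin.castLE hn ⟨j, hj⟩)
    else 0
  split_ifs with hj
  · rfl
  · exact h _ (h0 u.1) j hj

/-- every norm preserving linear map of four space preserves the image of `unif 4` -/
theorem inv4 (g : (Fin 4 → ℝ) →ₗ[ℝ] (Fin 4 → ℝ)) (hg : ∀ v, ∑ i, g v i ^ 2 = ∑ i, v i ^ 2) :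
    MeasurePreserving (sph g hg) ((unif 4).map (emb 4 le_rfl)) ((unif 4).map (emb 4 le_rfl)) := by
  exact Unif_inv 4 le_rfl g hg fun v _ j hj => absurd j.2 hj

/-- a norm preserving linear map that maps the hyperplane `v 3 = 0` to itself restricts to an
isometry of three space -/
theorem inv3 (g : (Fin 4 → ℝ) →ₗ[ℝ] (Fin 4 → ℝ)) (hg : ∀ v, ∑ i, g v i ^ 2 = ∑ i, v i ^ 2)
    (h3 : ∀ v, v 3 = 0 → g v 3 = 0) :
    MeasurePreserving (sph g hg) ((unif 3).map (emb 3 (by norm_num)))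
      ((unif 3).map (emb 3 (by norm_num))) := by
  refine Unif_inv 3 _ g hg fun v hv j hj => ?_
  obtain rfl : j = 3 := Fin.ext (by have := j.2; change (j : ℕ) = 3; omega)
  exact h3 v (hv 3 hj)

end Vale.Agent.P163
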