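import Vale.Agent.P163.Cone
import Vale.Agent.P163.QHaar

open MeasureTheory Filter Topology

namespace Vale.Agent.P163

/-! Consequences of `cone_S`, `cone_M` on the pair space ` (V → Circle) × (V → Circle)`
(`integral_prod_mul`).  For the Haar measure take `ι = (V → ℤ) × Circle`,
`u (m, φ) p = rc 1 (mask D m) p.1`, `v (m, φ) p = rc φ m p.2`, `hQ = q_haar D`, and apply it to
the multi-indices `mask D' (m e)`, using `mask D (mask D' m) = mask D m` for `D ⊆ D'`. -/

variable {V κ : Type} [Fintype V] [Fintype κ]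

theorem continuous_rc (φ : Circle) (m : V → ℤ) : Continuous (rc φ m) := by
  unfold rc
  have h : Continuous fun θ : V → Circle => (φ * ∏ x, θ x ^ m x : Circle) :=
    continuous_const.mul (continuous_finsetProd _ fun x _ => (continuous_apply x).zpow _)
  exact Complex.continuous_re.comp (continuous_subtype_val.comp h)

theorem abs_rc_le (φ : Circle) (m : V → ℤ) (θ : V → Circle) : |rc φ m θ| ≤ 1 := by
  unfold rc
  exact (Complex.abs_re_le_norm _).trans (Circle.norm_coe _).le

theorem xy_int {X : Type} [TopologicalSpace X] [CompactSpace X] [MeasurableSpace X]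
    [OpensMeasurableSpace X] (μ : Measure X) [IsFiniteMeasure μ] {f : X → ℝ}
    (hf : Continuous f) : Integrable f μ :=
  hf.integrable_of_hasCompactSupport (HasCompactSupport.of_compactSpace f)

theorem xy_cont_exp (m : κ → V → ℤ) (J : κ → ℝ) :
    Continuous fun θ => Real.exp (∑ e, J e * rc 1 (m e) θ) :=
  Real.continuous_exp.comp
    (continuous_finsetSum _ fun e _ => continuous_const.mul (continuous_rc 1 (m e)))

theorem xy_cont_prod (l : List (V → ℤ)) : Continuous fun θ => (l.map fun k => rc 1 k θ).prod :=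
  continuous_list_prod l fun k _ => continuous_rc 1 k

theorem xy_abs_prod (l : List (V → ℤ)) (θ : V → Circle) :
    |(l.map fun k => rc 1 k θ).prod| ≤ 1 := by
  induction l with
  | nil => simp
  | cons a l ih =>
    rw [List.map_cons, List.prod_cons, abs_mul]
    exact mul_le_one₀ (abs_rc_le _ _ _) (abs_nonneg _) ih

theorem xy_pair (η : Measure Circle) [IsProbabilityMeasure η] (m m' : κ → V → ℤ) (J J' : κ → ℝ)
    (l l' : List (V → ℤ)) :
    ∫ p : (V → Circle) × (V → Circle), (l.map fun k => rc 1 k p.1).prod *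
      (l'.map fun k => rc 1 k p.2).prod *
        Real.exp (∑ e, (J e * rc 1 (m e) p.1 + J' e * rc 1 (m' e) p.2))
        ∂((Measure.pi fun _ => η).prod (Measure.pi fun _ => η)) = xy η m J l * xy η m' J' l' := by
  unfold xy
  rw [← integral_prod_mul]
  congr 1
  funext p
  rw [Finset.sum_add_distrib, Real.exp_add]
  ring

omit [Fintype V] in
theorem xy_mask [DecidableEq V] {D D' : Finset V} (hD : D ⊆ D') (k : V → ℤ) :
    mask D (mask D' k) = mask D k := by
  funext x
  unfold mask
  by_cases hx : x ∈ D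
  · simp [hx, hD hx]
  · simp [hx]

theorem xy_pos (η : Measure Circle) [IsProbabilityMeasure η] (m : κ → V → ℤ) (J : κ → ℝ) :
    0 < xy η m J [] := by
  unfold xy
  simp only [List.map_nil, List.prod_nil, one_mul]
  exact integral_exp_pos (xy_int _ (xy_cont_exp m J))

theorem abs_xy_le (η : Measure Circle) [IsProbabilityMeasure η] (m : κ → V → ℤ) (J : κ → ℝ)
    (l : List (V → ℤ)) : |xy η m J l| ≤ xy η m J [] := by
  unfold xy
  refine abs_integral_le_integral_abs.trans (integral_mono
    (xy_int _ ((xy_cont_prod l).mul (xy_cont_exp m J)).abs)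
    (xy_int _ ((xy_cont_prod []).mul (xy_cont_exp m J))) fun θ => ?_)
  simp only [List.map_nil, List.prod_nil, one_mul, abs_mul, abs_of_pos (Real.exp_pos _)]
  exact mul_le_of_le_one_left (Real.exp_pos _).le (xy_abs_prod l θ)

theorem continuous_xy (η : Measure Circle) [IsProbabilityMeasure η] (m : κ → V → ℤ)
    (l : List (V → ℤ)) : Continuous fun J : κ → ℝ => xy η m J l := by
  have h := continuous_parametric_integral_of_continuous (μ := Measure.pi fun _ : V => η)
    (f := fun (J : κ → ℝ) (θ : V → Circle) =>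
      (l.map fun k => rc 1 k θ).prod * Real.exp (∑ e, J e * rc 1 (m e) θ)) ?_ isCompact_univ
  · simpa only [Measure.restrict_univ, xy] using h
  · refine ((xy_cont_prod l).comp continuous_snd).mul (Real.continuous_exp.comp
      (continuous_finsetSum _ fun e _ => ((continuous_apply e).comp continuous_fst).mul
        ((continuous_rc 1 (m e)).comp continuous_snd)))

theorem xy_S (η : Measure Circle) [IsProbabilityMeasure η] (hη : Q3 η) (m : κ → V → ℤ)
    (J1 J2 J3 J4 : κ → ℝ) (h4 : ∀ e, 0 ≤ J4 e) (h41 : ∀ e, J4 e ≤ J1 e)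
    (h42 : ∀ e, J4 e ≤ J2 e) (h : ∀ e, J1 e - J4 e ≤ J3 e - J2 e) :
    xy η m J1 [] * xy η m J2 [] ≤ xy η m J3 [] * xy η m J4 [] := by
  have key := cone_S ((Measure.pi fun _ : V => η).prod (Measure.pi fun _ : V => η))
    (fun k p => rc 1 k p.1) (fun k p => rc 1 k p.2)
    (fun k => (continuous_rc 1 k).comp continuous_fst)
    (fun k => (continuous_rc 1 k).comp continuous_snd) (hη V) m J1 J2 J3 J4 h4 h41 h42 h
  rw [mul_comm, ← xy_pair, ← xy_pair]
  simpa [add_comm] using key

theorem xy_M (η : Measure Circle) [IsProbabilityMeasure η] (hη : Q3 η) (m : κ → V → ℤ)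
    (J J' : κ → ℝ) (h0 : ∀ e, 0 ≤ J' e) (h : ∀ e, J' e ≤ J e) (l : List (V → ℤ)) :
    |xy η m J' l| * xy η m J [] ≤ xy η m J l * xy η m J' [] := by
  have key := cone_M ((Measure.pi fun _ : V => η).prod (Measure.pi fun _ : V => η))
    (fun k p => rc 1 k p.1) (fun k p => rc 1 k p.2)
    (fun k => (continuous_rc 1 k).comp continuous_fst)
    (fun k => (continuous_rc 1 k).comp continuous_snd) (hη V) m J J' h0 h l
  rw [← abs_of_pos (xy_pos η m J), ← abs_mul, mul_comm, ← xy_pair, ← xy_pair]
  simpa using key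

theorem xy_nonneg (η : Measure Circle) [IsProbabilityMeasure η] (hη : Q3 η) (m : κ → V → ℤ)
    (J : κ → ℝ) (h0 : ∀ e, 0 ≤ J e) (l : List (V → ℤ)) : 0 ≤ xy η m J l := by
  have h1 := xy_M η hη m J J h0 (fun _ => le_rfl) l
  have h2 := xy_pos η m J
  exact nonneg_of_mul_nonneg_left ((mul_nonneg (abs_nonneg _) h2.le).trans h1) h2

theorem xy_S_haar [DecidableEq V] (D D' : Finset V) (hD : D ⊆ D') (m : κ → V → ℤ)
    (J1 J2 J3 J4 : κ → ℝ) (h4 : ∀ e, 0 ≤ J4 e) (h41 : ∀ e, J4 e ≤ J1 e)
    (h42 : ∀ e, J4 e ≤ J2 e) (h : ∀ e, J1 e - J4 e ≤ J3 e - J2 e) :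
    xy haarC (fun e => mask D' (m e)) J1 [] * xy haarC (fun e => mask D (m e)) J2 [] ≤
      xy haarC (fun e => mask D (m e)) J3 [] * xy haarC (fun e => mask D' (m e)) J4 [] := by
  have key := cone_S ((Measure.pi fun _ : V => haarC).prod (Measure.pi fun _ : V => haarC))
    (fun (k : (V → ℤ) × Circle) p => rc 1 (mask D k.1) p.1) (fun k p => rc k.2 k.1 p.2)
    (fun k => (continuous_rc _ _).comp continuous_fst)
    (fun k => (continuous_rc _ _).comp continuous_snd) (q_haar D) (fun e => (mask D' (m e), 1))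
    J1 J2 J3 J4 h4 h41 h42 h
  rw [mul_comm, ← xy_pair, ← xy_pair]
  simpa [add_comm, xy_mask hD] using key

theorem xy_M_haar [DecidableEq V] (D D' : Finset V) (hD : D ⊆ D') (m : κ → V → ℤ)
    (J J' : κ → ℝ) (h0 : ∀ e, 0 ≤ J' e) (h : ∀ e, J' e ≤ J e) (l : List (V → ℤ)) :
    |xy haarC (fun e => mask D' (m e)) J' (l.map (mask D'))| *
        xy haarC (fun e => mask D (m e)) J [] ≤
      xy haarC (fun e => mask D (m e)) J (l.map (mask D)) *
        xy haarC (fun e => mask D' (m e)) J' [] := by
  have key := cone_M ((Measure.pi fun _ : V => haarC).prod (Measure.pi fun _ : V => haarC))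
    (fun (k : (V → ℤ) × Circle) p => rc 1 (mask D k.1) p.1) (fun k p => rc k.2 k.1 p.2)
    (fun k => (continuous_rc _ _).comp continuous_fst)
    (fun k => (continuous_rc _ _).comp continuous_snd) (q_haar D) (fun e => (mask D' (m e), 1))
    J J' h0 h (l.map fun k => (mask D' k, 1))
  rw [← abs_of_pos (xy_pos haarC (fun e => mask D (m e)) J), ← abs_mul, mul_comm, ← xy_pair,
    ← xy_pair]
  simpa [xy_mask hD, Function.comp_def] using key

/-- diamagnetic inequality: `cone_S` with `D = univ`, `J1 = J3 = J`, `J2 = J4 = 0` -/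
theorem xy_dia (m : κ → V → ℤ) (J : κ → ℝ) (h0 : ∀ e, 0 ≤ J e) (φ : κ → Circle) :
    ∫ θ, Real.exp (∑ e, J e * rc (φ e) (m e) θ) ∂(Measure.pi fun _ : V => haarC) ≤
      xy haarC m J [] := by
  classical
  have key := cone_S ((Measure.pi fun _ : V => haarC).prod (Measure.pi fun _ : V => haarC))
    (fun (k : (V → ℤ) × Circle) p => rc 1 (mask Finset.univ k.1) p.1) (fun k p => rc k.2 k.1 p.2)
    (fun k => (continuous_rc _ _).comp continuous_fst)
    (fun k => (continuous_rc _ _).comp continuous_snd) (q_haar Finset.univ) (fun e => (m e, φ e))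
    J 0 J 0 (fun _ => le_rfl) h0 (fun _ => le_rfl) (fun _ => le_rfl)
  have hm : ∀ k : V → ℤ, mask Finset.univ k = k := fun k => funext fun x => by simp [mask]
  simp only [Pi.zero_apply, zero_mul, add_zero, hm] at key
  rw [integral_fun_snd (fun θ => Real.exp (∑ e, J e * rc (φ e) (m e) θ)),
    integral_fun_fst (fun θ => Real.exp (∑ e, J e * rc 1 (m e) θ))] at key
  simpa [xy] using key

end Vale.Agent.P163
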